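import Vale.Agent.P356E.Nrm

namespace Vale.Agent.P356E

open Matrix Vale.Agent.P356 Vale.Agent.P356F Vale.Agent.P356G
open scoped Matrix.Norms.L2Operator

variable {Λ Q : Type} [Fintype Λ] [DecidableEq Λ] [Fintype Q] [DecidableEq Q]

theorem abs_qf_fr {n : Type} [Fintype n] [DecidableEq n] (U : Matrix n n ℂ) (f : n → ℝ)
    (v : n → ℂ) : qf (fr U f) v = ∑ i, f i * ‖(Uᴴ *ᵥ v) i‖ ^ 2 := by
  have e : ip v (fr U f) v = ((∑ i, f i * ‖(Uᴴ *ᵥ v) i‖ ^ 2 : ℝ) : ℂ) := by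
    rw [ip, fr, fn, ← mulVec_mulVec, ← mulVec_mulVec, dot_mulVec, Complex.ofReal_sum]
    refine Finset.sum_congr rfl fun i _ => ?_
    rw [mulVec_diagonal, Pi.star_apply, Complex.star_def, mul_left_comm, Complex.conj_mul']
    push_cast
    rfl
  rw [qf, e, Complex.ofReal_re]

/-- `y = lift Z m` (`Loc.exists_lift`), `m` Hermitian (`lift_inj`, `lift_ct`), `m = fr V l`
(`herm_spec`), `y = fr (lift Z V) (l ∘ res)` (`fr_lift`), `P = fr (lift Z V) (|l| ∘ res)`;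
`qf (fr U f) v = ∑ i, f i * ‖(Uᴴ *ᵥ v) i‖ ^ 2`; `nsq_fr` -/
theorem absM [Nonempty Q] (Z : Finset Λ) {y : Matrix (Λ → Q) (Λ → Q) ℂ} (hy : y.IsHermitian)
    (hl : Loc (fun z => z ∈ Z) y) :
    ∃ P : Matrix (Λ → Q) (Λ → Q) ℂ, Ps P ∧ Loc (fun z => z ∈ Z) P ∧ (∀ v, qf y v ≤ qf P v) ∧
      ∀ v, nn (P *ᵥ v) = nn (y *ᵥ v) := by
  obtain ⟨m, rfl⟩ := hl.exists_lift
  have hm : m.IsHermitian := lift_inj Z (by rw [lift_ct]; exact hy.eq)
  obtain ⟨V, hV, e⟩ := herm_spec hm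
  set l := hm.eigenvalues
  have hU : lift Z V * (lift Z V)ᴴ = 1 := by rw [← lift_ct, ← lift_mul, hV, lift_one]
  have ey : lift Z m = fr (lift Z V) (fun s => l (res Z s)) := by rw [fr_lift, ← e]
  refine ⟨fr (lift Z V) (fun s => |l (res Z s)|), ⟨fr_ct _ _, fun v => ?_⟩, ?_, fun v => ?_,
    fun v => ?_⟩
  · rw [abs_qf_fr]
    exact Finset.sum_nonneg fun i _ => mul_nonneg (abs_nonneg _) (sq_nonneg _)
  · rw [fr_lift Z V fun a => |l a|]
    exact loc_lift _ _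
  · rw [ey, abs_qf_fr, abs_qf_fr]
    exact Finset.sum_le_sum fun i _ => mul_le_mul_of_nonneg_right (le_abs_self _) (sq_nonneg _)
  · have e2 : nsq (fr (lift Z V) (fun s => |l (res Z s)|) *ᵥ v) =
        nsq (fr (lift Z V) (fun s => l (res Z s)) *ᵥ v) := by
      apply Complex.ofReal_injective
      rw [nsq_fr hU, nsq_fr hU]
      simp only [abs_mul_abs_self]
    rw [ey, nn, nn, e2]

end Vale.Agent.P356E
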