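import Vale.Agent.P356E.Nrm

namespace Vale.Agent.P356E

open Matrix Vale.Agent.P356 Vale.Agent.P356F Vale.Agent.P356G
open scoped Matrix.Norms.L2Operator

variable {n : Type} [Fintype n] [DecidableEq n]

/-- lowest eigenvector -/
theorem gnd_min {H : Matrix n n ℂ} (hH : H.IsHermitian) [Nonempty n] :
    ∃ (w : n → ℂ) (E : ℝ), nsq w = 1 ∧ H *ᵥ w = (E : ℂ) • w ∧ ∀ u, E * nsq u ≤ qf H u := by
  obtain ⟨V, hV, e⟩ := herm_spec hH
  generalize hH.eigenvalues = l at e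
  obtain ⟨i, -, hi⟩ := Finset.exists_min_image Finset.univ l Finset.univ_nonempty
  refine ⟨V *ᵥ Pi.single i 1, l i, ?_, ?_, fun u => ?_⟩
  · rw [nsq_uni hV, nsq, Finset.sum_eq_single i (fun j _ hj => by simp [hj]) (by simp)]
    simp
  · rw [e, fr, fn, mulVec_mulVec, Matrix.mul_assoc, uni_symm hV, Matrix.mul_one, ← mulVec_mulVec,
      ← mulVec_smul]
    congr 1
    funext j
    by_cases h : j = i
    · subst h; simp [mulVec_diagonal]
    · simp [mulVec_diagonal, h]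
  · have hV' : Vᴴ * Vᴴᴴ = 1 := by rw [conjTranspose_conjTranspose, uni_symm hV]
    rw [← nsq_uni hV' u, e, qf, ip, fr, fn, ← mulVec_mulVec, ← mulVec_mulVec, dot_mulVec]
    generalize Vᴴ *ᵥ u = y
    rw [nsq, dotProduct, Complex.re_sum, Finset.mul_sum]
    refine Finset.sum_le_sum fun j _ => ?_
    have e1 : (star y j * (diagonal (fun i => (l i : ℂ)) *ᵥ y) j) = ((l j * ‖y j‖ ^ 2 : ℝ) : ℂ) := by
      rw [mulVec_diagonal, Pi.star_apply, Complex.star_def, mul_left_comm, Complex.conj_mul']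
      push_cast
      rfl
    rw [e1, Complex.ofReal_re]
    exact mul_le_mul_of_nonneg_right (hi j (Finset.mem_univ j)) (sq_nonneg _)

omit [DecidableEq n] in
theorem gnd_split {M : Matrix n n ℂ} (hM : M.IsHermitian) {w u : n → ℂ} {E : ℝ}
    (hw : M *ᵥ w = (E : ℂ) • w) (h1 : nsq w = 1) (hu : star w ⬝ᵥ u = 0) (β : ℂ) :
    qf M (β • w + u) = E * ‖β‖ ^ 2 + qf M u := by
  classical
  have hu' : star u ⬝ᵥ w = 0 := by rw [star_dotProduct, hu, star_zero]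
  have h2 : star w ⬝ᵥ w = 1 := by rw [← nsq_eq, h1, Complex.ofReal_one]
  have h3 : star w ⬝ᵥ (M *ᵥ u) = 0 := by
    rw [dot_mulVec, hM.eq, hw, star_smul, smul_dotProduct, hu, smul_zero]
  have e : ip (β • w + u) M (β • w + u) = ((E * ‖β‖ ^ 2 : ℝ) : ℂ) + ip u M u := by
    simp only [ip, mulVec_add, mulVec_smul, hw, star_add, star_smul, add_dotProduct,
      dotProduct_add, smul_dotProduct, dotProduct_smul, h2, h3, hu', smul_eq_mul, mul_zero,
      mul_one, add_zero, zero_add]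
    rw [Complex.star_def, Complex.ofReal_mul, Complex.ofReal_pow, ← Complex.conj_mul']
    ring
  rw [qf, e, Complex.add_re, Complex.ofReal_re, qf]

theorem gnd_pyth {w u : n → ℂ} (h1 : nsq w = 1) (hu : star w ⬝ᵥ u = 0) (β : ℂ) :
    nsq (β • w + u) = ‖β‖ ^ 2 + nsq u := by
  have h := gnd_split (M := (1 : Matrix n n ℂ)) isHermitian_one (E := 1) (by simp) h1 hu β
  rwa [qf_one, qf_one, one_mul] at h

omit [DecidableEq n] in
theorem gnd_orth {w : n → ℂ} (h1 : nsq w = 1) (u : n → ℂ) :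
    star w ⬝ᵥ (u - (star w ⬝ᵥ u) • w) = 0 := by
  rw [dotProduct_sub, dotProduct_smul, ← nsq_eq, h1]
  simp

/-- `H = fr V l` (`herm_spec`), `i0` minimal, `Ω'` = column `i0` times a phase making
`star Ω' ⬝ᵥ Ω` real and nonnegative, `E = l i0 ≤ qf H Ω ≤ e`. The hypothesis at `Ω'` gives
`1 - |o| ^ 2 ≤ η = 2 e / Δ`, so `nsq (Ω' - Ω) = 2 - 2 |o| ≤ 2 η`. For `u ⊥ Ω'`:
`‖star Ω ⬝ᵥ u‖ ^ 2 ≤ η nsq u` (write `Ω = α Ω' + w`, `nsq w ≤ η`), so
`qf H u ≥ (Δ - 3 e) nsq u ≥ (Δ / 2 + E) nsq u`. General `u = β Ω' + u'`: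
`qf H u = E |β| ^ 2 + qf H u'`, `nsq u = |β| ^ 2 + nsq u'`. -/
theorem ground {H : Matrix n n ℂ} (hH : Ps H) {Ω : n → ℂ} (hΩ : nsq Ω = 1) {Δ e : ℝ}
    (hΔ : 0 < Δ) (he : 8 * e ≤ Δ)
    (hgap : ∀ u, Δ * (nsq u - ‖star Ω ⬝ᵥ u‖ ^ 2) - e * nsq u ≤ qf H u) (hE : qf H Ω ≤ e) :
    ∃ (Ω' : n → ℂ) (E : ℝ), GS H Ω' E (Δ / 2) ∧ E ≤ e ∧ nsq (Ω' - Ω) ≤ 4 * e / Δ := by
  have hn : Nonempty n := by
    by_contra h
    rw [not_nonempty_iff] at h
    simp [nsq] at hΩ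
  obtain ⟨w0, E, h01, h0E, hmin⟩ := gnd_min hH.1
  obtain ⟨c, hc, hco⟩ := Complex.exists_norm_eq_mul_self (star w0 ⬝ᵥ Ω)
  generalize ha : ‖star w0 ⬝ᵥ Ω‖ = a at hco
  have ha0 : 0 ≤ a := ha ▸ norm_nonneg _
  have hw1 : nsq (star c • w0) = 1 := by rw [nsq_smul, norm_star, hc, h01]; norm_num
  have hwE : H *ᵥ (star c • w0) = (E : ℂ) • (star c • w0) := by
    rw [mulVec_smul, h0E, smul_comm]
  have hwΩ : star (star c • w0) ⬝ᵥ Ω = (a : ℂ) := by
    rw [star_smul, star_star, smul_dotProduct, smul_eq_mul, hco]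
  generalize star c • w0 = w at hw1 hwE hwΩ
  have hna : ‖(a : ℂ)‖ = a := by rw [Complex.norm_real, Real.norm_of_nonneg ha0]
  have hEe : E ≤ e := by have := hmin Ω; rw [hΩ] at this; linarith
  have hr := gnd_orth hw1 Ω
  rw [hwΩ] at hr
  generalize hrd : Ω - (a : ℂ) • w = r at hr
  have hΩr : Ω = (a : ℂ) • w + r := by rw [← hrd]; abel
  have hr2 : a ^ 2 + nsq r = 1 := by rw [← hΩ, hΩr, gnd_pyth hw1 hr, hna]
  have hr0 := nsq_nonneg r
  have hq : qf H w = E := by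
    have := gnd_split hH.1 hwE hw1 (u := 0) (dotProduct_zero _) 1
    simpa [qf, ip] using this
  have hη : Δ * nsq r ≤ 2 * e := by
    have h := hgap w
    rw [star_dotProduct, hwΩ, norm_star, hna, hw1, hq] at h
    have : nsq r = 1 - a ^ 2 := by linarith
    rw [this]; linarith
  refine ⟨w, E, ⟨hw1, hwE, fun u => ?_⟩, hEe, ?_⟩
  · have hu := gnd_orth hw1 u
    generalize hβ : star w ⬝ᵥ u = β at hu
    generalize hud : u - β • w = v at hu
    have huv : u = β • w + v := by rw [← hud]; abel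
    have h2 : star Ω ⬝ᵥ v = star r ⬝ᵥ v := by
      rw [hΩr, star_add, star_smul, add_dotProduct, smul_dotProduct, hu, smul_zero, zero_add]
    have h3 := hgap v
    have h4 := cs r v
    have hv0 := nsq_nonneg v
    rw [h2] at h3
    rw [huv, gnd_pyth hw1 hu, gnd_split hH.1 hwE hw1 hu]
    have h5 : Δ * ‖star r ⬝ᵥ v‖ ^ 2 ≤ 2 * e * nsq v :=
      (mul_le_mul_of_nonneg_left h4 hΔ.le).trans (by
        rw [← mul_assoc]; exact mul_le_mul_of_nonneg_right hη hv0)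
    have h6 : 0 ≤ (Δ / 2 - 3 * e - E) * nsq v := mul_nonneg (by linarith) hv0
    nlinarith
  · have e1 : w - Ω = ((1 - a : ℝ) : ℂ) • w + -r := by
      rw [hΩr]; push_cast; rw [sub_smul, one_smul]; abel
    have h2 : nsq (-r) = nsq r := by simp [nsq]
    rw [e1, gnd_pyth hw1 (by rw [dotProduct_neg, hr, neg_zero]), h2, Complex.norm_real,
      Real.norm_eq_abs, sq_abs, le_div_iff₀ hΔ]
    have h3 : (1 - a) ^ 2 ≤ nsq r := by nlinarith
    nlinarith

end Vale.Agent.P356E
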