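import Vale.Agent.P356E.Cos

namespace Vale.Agent.P356E

open Matrix Vale.Agent.P356 Vale.Agent.P356F Vale.Agent.P356G
open scoped Matrix.Norms.L2Operator

variable {n : Type} [Fintype n] [DecidableEq n] {H : Matrix n n ℂ}

/-- one step of the filter -/
noncomputable def filtTh (H : Matrix n n ℂ) (s : ℝ) : Module.End ℂ (Matrix n n ℂ) where
  toFun a := (1 / 2 : ℂ) • (tau H s a + tau H (-s) a)
  map_add' a b := by
    simp only [tau, Matrix.mul_add, Matrix.add_mul, smul_add]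
    abel
  map_smul' c a := by
    simp only [tau, Matrix.mul_smul, Matrix.smul_mul, RingHom.id_apply, ← smul_add]
    rw [smul_comm]

theorem filt_app (s : ℝ) (a : Matrix n n ℂ) :
    filtTh H s a = (1 / 2 : ℂ) • (tau H s a + tau H (-s) a) := rfl

theorem filt_succ (s : ℝ) (m : ℕ) (a : Matrix n n ℂ) :
    (filtTh H s ^ (m + 1)) a = filtTh H s ((filtTh H s ^ m) a) := by
  rw [pow_succ', Module.End.mul_apply]

theorem filt_half (a b : Matrix n n ℂ) : ‖(1 / 2 : ℂ) • (a + b)‖ ≤ (‖a‖ + ‖b‖) / 2 := by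
  have h := norm_add_le a b
  have e : ‖(1 / 2 : ℂ)‖ = 1 / 2 := by simp
  rw [norm_smul, e]
  linarith

theorem filt_ind (s : ℝ) {p : Matrix n n ℂ → Prop} (h : ∀ b, p b → p (filtTh H s b))
    {a : Matrix n n ℂ} (ha : p a) (m : ℕ) : p ((filtTh H s ^ m) a) := by
  induction m with
  | zero => exact ha
  | succ m ih =>
    rw [filt_succ]
    exact h _ ih

theorem filt_vec (hH : H.IsHermitian) {Ω : n → ℂ} {E : ℝ} (hΩ : H *ᵥ Ω = (E : ℂ) • Ω) (s : ℝ)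
    (a : Matrix n n ℂ) (c : ℂ) : (filtTh H s a - c • (1 : Matrix n n ℂ)) *ᵥ Ω =
      cs1 H E s *ᵥ ((a - c • (1 : Matrix n n ℂ)) *ᵥ Ω) := by
  have h1 : ∀ t : ℝ, tau H t a *ᵥ Ω =
      (Complex.exp (-(Complex.I * t * E)) • uu H t) *ᵥ (a *ᵥ Ω) := fun t => by
    rw [tau, ← mulVec_mulVec, ← mulVec_mulVec, uu_eig hH hΩ, mulVec_smul, mulVec_smul, smul_mulVec,
      Complex.ofReal_neg, mul_neg, neg_mul]
  have h2 : filtTh H s a *ᵥ Ω = cs1 H E s *ᵥ (a *ᵥ Ω) := by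
    rw [filt_app, cs1, smul_mulVec, smul_mulVec, add_mulVec, add_mulVec, h1, h1, Complex.ofReal_neg,
      mul_neg, neg_mul, neg_neg]
  rw [sub_mulVec, sub_mulVec, mulVec_sub, h2, smul_mulVec, one_mulVec, mulVec_smul, cs1_fix hH hΩ]

theorem filt_base {Ω : n → ℂ} (h1 : nsq Ω = 1) (a : Matrix n n ℂ) :
    star Ω ⬝ᵥ ((a - ip Ω a Ω • (1 : Matrix n n ℂ)) *ᵥ Ω) = 0 ∧
      nn ((a - ip Ω a Ω • (1 : Matrix n n ℂ)) *ᵥ Ω) ≤ ‖a‖ := by
  have e : (a - ip Ω a Ω • (1 : Matrix n n ℂ)) *ᵥ Ω = a *ᵥ Ω - ip Ω a Ω • Ω := by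
    rw [sub_mulVec, smul_mulVec, one_mulVec]
  have h2 : star Ω ⬝ᵥ (a *ᵥ Ω - ip Ω a Ω • Ω) = 0 := by
    rw [dotProduct_sub, dotProduct_smul, ← nsq_eq, h1, ip]
    simp
  rw [e]
  refine ⟨h2, ?_⟩
  have h3 : nn (a *ᵥ Ω) ≤ ‖a‖ := by
    have := nn_mulVec a Ω
    rwa [nn_unit h1, mul_one] at this
  obtain ⟨w, hw⟩ : ∃ w, w = a *ᵥ Ω - ip Ω a Ω • Ω := ⟨_, rfl⟩
  rw [← hw] at h2 ⊢
  have h4 : star w ⬝ᵥ Ω = 0 := by rw [star_dotProduct, h2, star_zero]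
  have h5 : star w ⬝ᵥ w = star w ⬝ᵥ (a *ᵥ Ω) := by
    conv_lhs => rw [show star w ⬝ᵥ w = star w ⬝ᵥ (a *ᵥ Ω - ip Ω a Ω • Ω) from by rw [← hw]]
    rw [dotProduct_sub, dotProduct_smul, h4, smul_zero, sub_zero]
  have h6 : nn w ^ 2 ≤ nn w * ‖a‖ := by
    rw [nn_sq, ← nsq_re, h5]
    exact (Complex.re_le_norm _).trans ((dot_le _ _).trans
      (mul_le_mul_of_nonneg_left h3 (nn_nonneg _)))
  have h7 := nn_nonneg w
  have h8 := norm_nonneg a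
  nlinarith

theorem filt_gap (hH : H.IsHermitian) {Ω : n → ℂ} {E Δ s : ℝ} (hG : GS H Ω E Δ) (hΔ : 0 < Δ)
    (hs0 : 0 ≤ s) (hs : s * (‖H‖ + |E|) ≤ 1) (a : Matrix n n ℂ) (m : ℕ) :
    star Ω ⬝ᵥ (((filtTh H s ^ m) a - ip Ω a Ω • (1 : Matrix n n ℂ)) *ᵥ Ω) = 0 ∧
      nn (((filtTh H s ^ m) a - ip Ω a Ω • (1 : Matrix n n ℂ)) *ᵥ Ω) ≤
        ‖a‖ * Real.exp (-((s * Δ) ^ 2 / 5)) ^ m := by
  induction m with
  | zero =>
    rw [pow_zero, pow_zero, mul_one]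
    exact filt_base hG.1 a
  | succ m ih =>
    rw [filt_succ, filt_vec hH hG.2.1]
    refine ⟨by rw [dot_mulVec, cs1_ct hH, cs1_fix hH hG.2.1, ih.1], ?_⟩
    refine (cs1_gap hH hG hΔ hs0 hs ih.1).trans ?_
    rw [pow_succ' _ m, mul_left_comm]
    exact mul_le_mul_of_nonneg_left ih.2 (Real.exp_pos _).le

theorem filt_cm (hH : H.IsHermitian) (s : ℝ) {a P : Matrix n n ℂ} {c v : ℝ} (hc : 0 ≤ c)
    (h : ∀ t : ℝ, ‖cm (tau H t a) P‖ ≤ c * Real.exp (v * |t|)) (m : ℕ) (t : ℝ) :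
    ‖cm (tau H t ((filtTh H s ^ m) a)) P‖ ≤ 2 * c * Real.cosh (v * s) ^ m * Real.cosh (v * t) := by
  induction m generalizing t with
  | zero =>
    refine (h t).trans ?_
    have h1 := Real.exp_pos (v * t)
    have h2 := Real.exp_pos (-(v * t))
    have h3 : Real.exp (v * |t|) ≤ Real.exp (v * t) + Real.exp (-(v * t)) := by
      rcases abs_choice t with e | e
      · rw [e]
        linarith
      · rw [e, mul_neg]
        linarith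
    have h4 := mul_le_mul_of_nonneg_left h3 hc
    rw [pow_zero, Real.cosh_eq]
    linarith
  | succ m ih =>
    have e : cm (tau H t ((filtTh H s ^ (m + 1)) a)) P = (1 / 2 : ℂ) •
        (cm (tau H (t + s) ((filtTh H s ^ m) a)) P + cm (tau H (t + -s) ((filtTh H s ^ m) a)) P) := by
      rw [filt_succ, filt_app, ← tau_tau hH, ← tau_tau hH]
      generalize tau H s _ = x
      generalize tau H (-s) _ = y
      simp only [tau, cm, Matrix.mul_smul, Matrix.smul_mul, Matrix.mul_add, Matrix.add_mul,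
        smul_add, smul_sub]
      abel
    rw [e]
    refine (filt_half _ _).trans ?_
    have h1 := ih (t + s)
    have h2 := ih (t + -s)
    rw [mul_add, Real.cosh_add] at h1
    rw [mul_add, mul_neg, ← sub_eq_add_neg (v * t), Real.cosh_sub] at h2
    rw [pow_succ _ m]
    linarith

/-- The filter. Take `m ≥ 1` with `T (‖H‖ + |E|) ^ 2 ≤ m`, `s = sqrt (T / m)`,
`Θ a = (1/2) • (tau H s a + tau H (-s) a)` as a linear map and `Φ = Θ ^ m`.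
`Θ a *ᵥ Ω = cs1 H E s *ᵥ (a *ᵥ Ω)` (`uu_eig`), so `Φ a *ᵥ Ω = cs1 ^ m *ᵥ (a *ᵥ Ω)`; split
`a *ᵥ Ω = ip Ω a Ω • Ω + w` with `w ⊥ Ω`, `nn w ≤ ‖a‖`; `cs1` fixes `Ω` and keeps the complement.
Commutators: by induction on `m`, for all `t`,
`‖cm (tau H t (Θ ^ m a)) P‖ ≤ c * cosh (v s) ^ m * (exp (v t) + exp (-(v t)))`;
use `Real.cosh_le_exp_half_sq`. -/
theorem filt (hH : H.IsHermitian) {Ω : n → ℂ} {E Δ : ℝ} (hG : GS H Ω E Δ) (hΔ : 0 < Δ) {T : ℝ}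
    (hT : 0 ≤ T) : ∃ Φ : Matrix n n ℂ →ₗ[ℂ] Matrix n n ℂ, Φ H = H ∧
      (∀ a, a.IsHermitian → (Φ a).IsHermitian) ∧ (∀ a, ‖Φ a‖ ≤ ‖a‖) ∧
      (∀ a, nn ((Φ a - ip Ω a Ω • (1 : Matrix n n ℂ)) *ᵥ Ω) ≤
        ‖a‖ * Real.exp (-(T * Δ ^ 2 / 5))) ∧
      ∀ (a P : Matrix n n ℂ) (c v : ℝ), 0 ≤ c →
        (∀ t : ℝ, ‖cm (tau H t a) P‖ ≤ c * Real.exp (v * |t|)) →
        ‖cm (Φ a) P‖ ≤ 2 * c * Real.exp (v ^ 2 * T / 2) := by
  obtain ⟨m, hm0, hm⟩ : ∃ m : ℕ, (0 : ℝ) < m ∧ T * (‖H‖ + |E|) ^ 2 ≤ m := by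
    refine ⟨⌈T * (‖H‖ + |E|) ^ 2⌉₊ + 1, by positivity, ?_⟩
    have := Nat.le_ceil (T * (‖H‖ + |E|) ^ 2)
    push_cast
    linarith
  obtain ⟨s, hs0, hs⟩ : ∃ s : ℝ, 0 ≤ s ∧ s ^ 2 * m = T :=
    ⟨Real.sqrt (T / m), Real.sqrt_nonneg _, by
      rw [Real.sq_sqrt (by positivity), div_mul_cancel₀ _ hm0.ne']⟩
  have hs1 : s * (‖H‖ + |E|) ≤ 1 := by
    refine (pow_le_one_iff_of_nonneg (by positivity) two_ne_zero).1 ?_
    refine le_of_mul_le_mul_right ?_ hm0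
    rw [← hs] at hm
    linarith
  refine ⟨filtTh H s ^ m, filt_ind s (p := fun b => b = H) (fun b hb => ?_) rfl m,
    fun a ha => filt_ind s (p := fun b => b.IsHermitian) (fun b hb => ?_) ha m,
    fun a => filt_ind s (p := fun b => ‖b‖ ≤ ‖a‖) (fun b hb => ?_) le_rfl m, fun a => ?_,
    fun a P c v hc h => ?_⟩
  · rw [hb, filt_app, tau_fix hH rfl, tau_fix hH rfl, ← two_smul ℂ H, smul_smul]
    simp
  · rw [IsHermitian, filt_app, conjTranspose_smul, conjTranspose_add, tau_ct hH, tau_ct hH, hb.eq]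
    simp
  · refine (filt_half _ _).trans ?_
    rw [tau_norm hH, tau_norm hH]
    linarith
  · refine (filt_gap hH hG hΔ hs0 hs1 a m).2.trans (le_of_eq ?_)
    rw [← Real.exp_nat_mul, ← hs]
    congr 2
    ring
  · have h1 := filt_cm hH s hc h m 0
    rw [tau_zero hH, mul_zero, Real.cosh_zero, mul_one] at h1
    refine h1.trans (mul_le_mul_of_nonneg_left ?_ (by positivity))
    refine (pow_le_pow_left₀ (Real.cosh_pos _).le (Real.cosh_le_exp_half_sq _) m).trans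
      (le_of_eq ?_)
    rw [← Real.exp_nat_mul, ← hs]
    congr 1
    ring

end Vale.Agent.P356E
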