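import Vale.Agent.P356E.Nrm

namespace Vale.Agent.P356E

open Matrix Vale.Agent.P356 Vale.Agent.P356F Vale.Agent.P356G
open scoped Matrix.Norms.L2Operator

theorem mem_sq {L r : ℕ} {x z : St L} : z ∈ geoSq L r x ↔
    x.1.val ≤ z.1.val + r ∧ z.1.val ≤ x.1.val + r ∧ x.2.val ≤ z.2.val + r ∧
      z.2.val ≤ x.2.val + r := by
  rw [geoSq, geo_mem]
  omega

theorem mem_sq_symm {L r : ℕ} {x z : St L} : z ∈ geoSq L r x ↔ x ∈ geoSq L r z := by
  rw [mem_sq, mem_sq]
  omega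

theorem dist_of_mem {L r : ℕ} {x z : St L} (h : z ∈ geoSq L r x) : dist1 x z ≤ 2 * r := by
  rw [mem_sq] at h
  unfold dist1
  omega

theorem dist_of_not_mem {L r : ℕ} {x z : St L} (h : z ∉ geoSq L r x) : r < dist1 x z := by
  rw [mem_sq] at h
  unfold dist1
  omega

theorem dist_tri {L : ℕ} (x y z : St L) : dist1 x z ≤ dist1 x y + dist1 y z := by
  unfold dist1
  omega

end Vale.Agent.P356E
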