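import Vale.Agent.P356E.LR
import Vale.Agent.P356E.Filt
import Vale.Agent.P356E.Sq

namespace Vale.Agent.P356E

open Matrix Vale.Agent.P356 Vale.Agent.P356F Vale.Agent.P356G
open scoped Matrix.Norms.L2Operator

/-- `lr` with `adj x y := y ∈ geoSq L (2 R) x` (otherwise the squares of radius `R` are disjoint,
`Loc.comm`), `w x = exp (dist1 x z)`, `N = (4 R + 1) ^ 2 * exp (4 R)`, `c = 2 J exp (2 R)`
(`cm (g x) P = 0` unless `z ∈ geoSq L R x`) -/
theorem lr_grid (R : ℕ) {J : ℝ} (hJ : 0 ≤ J) : ∃ v C : ℝ, 0 ≤ C ∧ ∀ (L q : ℕ) [NeZero q]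
    (Δ E0 : ℝ) (g : St L → Op L q) (Ω : Vec L q), Sys L q R J Δ E0 g Ω →
    ∀ (x z : St L) (P : Op L q), Loc (fun y => y = z) P → ‖P‖ ≤ 1 → ∀ t : ℝ,
      ‖cm (tau (∑ y, g y) t (g x)) P‖ ≤
        C * Real.exp (-(dist1 x z : ℝ)) * Real.exp (v * |t|) := by
  refine ⟨2 * J * ((2 * (2 * R) + 1) ^ 2 * Real.exp (4 * R)), 2 * J * Real.exp (2 * R),
    by positivity, fun L q _ Δ E0 g Ω hS x z P hP hP1 t => ?_⟩
  have h := lr g hS.herm (N := (2 * (2 * R) + 1) ^ 2 * Real.exp (4 * R)) hJ (by positivity) hS.bd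
    (fun x y => y ∈ geoSq L (2 * R) x)
    (fun i j hij => (hS.loc i).comm (hS.loc j) fun y h1 h2 => hij (by
      rw [mem_sq] at h1 h2 ⊢
      omega))
    (fun x => Real.exp (dist1 x z)) (fun _ => Real.exp_pos _) (fun i => ?_) P
    (c := 2 * J * Real.exp (2 * R)) (fun i => ?_) t x
  · rw [Real.exp_neg, mul_right_comm, le_mul_inv_iff₀ (Real.exp_pos _), mul_comm]
    exact h
  · rw [Finset.filter_univ_mem]
    refine (Finset.sum_le_card_nsmul _ _ (Real.exp (4 * R)) fun j hj => ?_).trans ?_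
    · rw [← Real.exp_sub, Real.exp_le_exp, sub_le_iff_le_add]
      have h1 := dist_of_mem hj
      have h2 := dist_tri i j z
      exact_mod_cast (by omega : dist1 i z ≤ 4 * R + dist1 j z)
    · rw [nsmul_eq_mul]
      gcongr
      exact_mod_cast geoSq_card L (2 * R) i
  · by_cases hz : z ∈ geoSq L R i
    · have h1 : Real.exp (dist1 i z) ≤ Real.exp (2 * R) :=
        Real.exp_le_exp.2 (by exact_mod_cast dist_of_mem hz)
      have h2 : ‖cm (g i) P‖ ≤ 2 * J * 1 := (cm_norm_le _ _).trans (by gcongr; exact hS.bd i)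
      rw [mul_comm]
      exact mul_le_mul (by linarith) h1 (Real.exp_pos _).le (by positivity)
    · rw [cm, (hS.loc i).comm hP fun y h1 h2 => hz (h2 ▸ h1), sub_self, norm_zero, mul_zero]
      positivity

/-- `filt` with `T = l / (2 (v ^ 2 + 1))`, `a x = Φ (g x)`, `cc x = qf (g x) Ω` (`ip_herm`),
`c = min (1/4) (Δ ^ 2 / (10 (v ^ 2 + 1)))` -/
theorem ql (R : ℕ) {J Δ : ℝ} (hJ : 0 ≤ J) (hΔ : 0 < Δ) : ∃ c C : ℝ, 0 < c ∧ c ≤ 1 / 4 ∧ 1 ≤ C ∧
    ∀ (L q : ℕ) [NeZero q] (E0 : ℝ) (g : St L → Op L q) (Ω : Vec L q), Sys L q R J Δ E0 g Ω →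
    ∀ l : ℕ, ∃ (a : St L → Op L q) (cc : St L → ℝ),
      QL J Δ E0 (C * Real.exp (-(c * l))) (C * Real.exp ((l : ℝ) / 4)) a cc Ω := by
  obtain ⟨v, C, hC, h⟩ := lr_grid R hJ
  refine ⟨min (1 / 4) (Δ ^ 2 / (10 * (v ^ 2 + 1))), 1 + J + 2 * C, by positivity, min_le_left _ _,
    by linarith, fun L q _ E0 g Ω hS l => ?_⟩
  have hH : (∑ x, g x).IsHermitian := by
    simp only [IsHermitian, conjTranspose_sum, fun x => (hS.herm x).eq]
  obtain ⟨Φ, f1, f2, f3, f4, f5⟩ := filt hH hS.gs hΔ (T := l / (2 * (v ^ 2 + 1))) (by positivity)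
  refine ⟨fun x => Φ (g x), fun x => qf (g x) Ω, ?_, fun x => f2 _ (hS.herm x),
    fun x => (f3 _).trans (hS.bd x), fun x => ?_, ?_, fun x => ?_, fun x z P hP hP1 => ?_⟩
  · rw [← map_sum, f1]
    exact hS.gs
  · simpa only [hS.gs.1, mul_one] using ((qf_abs_le_norm (g x) Ω).trans
      (mul_le_mul_of_nonneg_right (hS.bd x) (hS.gs.1 ▸ zero_le_one)))
  · have e : qf (∑ x, g x) Ω = qf ((E0 : ℂ) • 1) Ω := by
      rw [qf, qf, ip, ip, hS.gs.2.1, smul_mulVec, one_mulVec]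
    rw [← qf_sum, e, qf_smul, qf_one, hS.gs.1, mul_one]
  · rw [← ip_herm (hS.herm x)]
    refine (f4 _).trans (mul_le_mul ((hS.bd x).trans (by linarith)) (Real.exp_le_exp.2
      (neg_le_neg ?_)) (Real.exp_pos _).le (by positivity))
    refine (mul_le_mul_of_nonneg_right (min_le_right _ _) (Nat.cast_nonneg _)).trans (le_of_eq ?_)
    field_simp
    ring
  · refine (f5 _ P _ v (by positivity) (h L q Δ E0 g Ω hS x z P hP hP1)).trans ?_
    have e : v ^ 2 * (l / (2 * (v ^ 2 + 1))) / 2 ≤ (l : ℝ) / 4 := by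
      rw [← mul_div_assoc, div_div, div_le_div_iff₀ (by positivity) (by positivity)]
      nlinarith [Nat.cast_nonneg (α := ℝ) l]
    rw [← mul_assoc, mul_right_comm]
    gcongr
    linarith

end Vale.Agent.P356E
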