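import Vale.Agent.P356E.Sq

namespace Vale.Agent.P356E

open Matrix Vale.Agent.P356 Vale.Agent.P356F Vale.Agent.P356G
open scoped Matrix.Norms.L2Operator
open scoped ComplexOrder

/-- Choose a point `p X ∈ X` for each support, `g x = ∑ X with p X = x, h X`
(`Finset.sum_fiberwise`); such `X` are subsets of `geoSq L R x` (`geoSq_sub`), at most
`2 ^ ((2 R + 1) ^ 2)` of them (`Finset.card_powerset`, `geoSq_card`). `OpNormLe M J` is `‖M‖ ≤ J`
by `Iff.rfl` (`cstar_norm_def`). `GS` from `HasGap` as in the proof of `gapped_of`. -/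
theorem sys_of {L q R : ℕ} {J Δ : ℝ} (hJ : 0 ≤ J) {Ω : Vec L q} (h : Fam q R J Δ L Ω) :
    ∃ (E0 : ℝ) (g : St L → Op L q), Sys L q R (J * 2 ^ ((2 * R + 1) ^ 2)) Δ E0 g Ω := by
  obtain ⟨h, E0, hA, h1, h2, h3⟩ := h
  have hG := gapped_of h hA Ω h1 h2 h3
  have hp : ∀ X : {X // X ∈ supports L R}, ∃ x, x ∈ X.1 := fun X => (Finset.mem_filter.1 X.2).2.1
  choose p hp using hp
  have hs : ∑ x, ∑ X ∈ Finset.univ.filter (fun X => p X = x), h X.1 = ham L q R h := by
    rw [Finset.sum_fiberwise, ham, Finset.sum_coe_sort (supports L R) h]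
  have hsub : ∀ x, ∀ X ∈ Finset.univ.filter (fun X => p X = x), X.1 ⊆ geoSq L R x :=
    fun x X hX => (Finset.mem_filter.1 hX).2 ▸ geoSq_sub X.2 (hp X)
  refine ⟨E0, fun x => ∑ X ∈ Finset.univ.filter (fun X => p X = x), h X.1, ?_, fun x => ?_,
    fun x => ?_, fun x => ?_⟩
  · rw [hs]
    refine ⟨h1, h2, fun u => ?_⟩
    have h4 := (Complex.nonneg_iff.1 (h3.dotProduct_mulVec_nonneg u)).1
    have h6 : star u ⬝ᵥ (vecMulVec Ω (star Ω) *ᵥ u) = ((‖star Ω ⬝ᵥ u‖ ^ 2 : ℝ) : ℂ) := by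
      rw [vecMulVec_mulVec, op_smul_eq_smul, dotProduct_smul, smul_eq_mul, star_dotProduct u Ω,
        ← star_star u, Complex.star_def, Complex.mul_conj, Complex.normSq_eq_norm_sq]
    simp only [sub_mulVec, smul_mulVec, one_mulVec, dotProduct_sub, dotProduct_smul, ← nsq_eq, h6,
      smul_eq_mul, ← Complex.ofReal_sub, ← Complex.ofReal_mul,
      Complex.sub_re, Complex.ofReal_re] at h4
    unfold qf ip
    linarith
  · exact Finset.sum_induction _ Matrix.IsHermitian (fun _ _ => Matrix.IsHermitian.add)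
      Matrix.isHermitian_zero fun X _ => hG.herm X.1 X.2
  · exact loc_sum _ _ fun X hX => (hG.loc X.1 X.2).mono fun z hz => hsub x X hX hz
  · refine (norm_sum_le _ _).trans ?_
    refine (Finset.sum_le_card_nsmul _ _ J fun X _ => (hA X.1 X.2).2.2).trans ?_
    have hc : (Finset.univ.filter (fun X => p X = x)).card ≤ 2 ^ ((2 * R + 1) ^ 2) := by
      refine (Finset.card_le_card_of_injOn (t := (geoSq L R x).powerset) (fun X => X.1)
        (fun X hX => Finset.mem_coe.2 (Finset.mem_powerset.2 (hsub x X hX)))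
        Subtype.val_injective.injOn).trans ?_
      rw [Finset.card_powerset]
      exact Nat.pow_le_pow_right two_pos (geoSq_card L R x)
    rw [nsmul_eq_mul, mul_comm]
    exact mul_le_mul_of_nonneg_left (by exact_mod_cast hc) hJ

end Vale.Agent.P356E
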