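import Vale.Agent.P356E.New
import Vale.Agent.P356E.QL
import Vale.Agent.P356E.Sys
import Vale.Agent.P356E.Gnd

namespace Vale.Agent.P356E

open Matrix Vale.Agent.P356 Vale.Agent.P356F Vale.Agent.P356G
open scoped Matrix.Norms.L2Operator

theorem app_ps {n ι : Type} [Fintype n] [DecidableEq n] [Fintype ι] (h : ι → Matrix n n ℂ)
    (hh : ∀ i, Ps (h i)) : Ps (∑ i, h i) := by
  refine ⟨?_, fun v => ?_⟩
  · unfold Matrix.IsHermitian
    rw [Matrix.conjTranspose_sum]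
    exact Finset.sum_congr rfl fun i _ => (hh i).1
  · rw [qf_sum]
    exact Finset.sum_nonneg fun i _ => (hh i).2 v

theorem app_err {c C C1 q l : ℝ} (hc : c ≤ 1 / 4) (hC : 0 ≤ C) (hC1 : 0 ≤ C1) (hq : 0 ≤ q)
    (hl : 0 ≤ l) :
    2 * (C * Real.exp (-(c * l))) + C1 * q * (C * Real.exp (l / 4)) * Real.exp (-(l / 2)) ≤
      (2 * C + C1 * q * C) * Real.exp (-(c * l)) := by
  have h1 : Real.exp (l / 4) * Real.exp (-(l / 2)) ≤ Real.exp (-(c * l)) := by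
    rw [← Real.exp_add]
    exact Real.exp_le_exp.2 (by nlinarith)
  have h2 := mul_le_mul_of_nonneg_left h1 (mul_nonneg (mul_nonneg hC1 hq) hC)
  nlinarith

/-- `sys_of`, `ql`, `newH`, `ground` -/
theorem appr (q R : ℕ) [NeZero q] {J Δ : ℝ} (hJ : 0 ≤ J) (hΔ : 0 < Δ) :
    ∃ c Ce J1 : ℝ, 0 < c ∧ 1 ≤ Ce ∧ ∀ (L : ℕ) (Ω : Vec L q), Fam q R J Δ L Ω →
    ∀ (ht : St L → ℕ), (∀ r x z, z ∈ geoSq L r x → ht x ≤ ht z + r) →
    ∀ (top l Lg N : ℕ), (2 * l + 1) ^ 2 ≤ Lg → J1 ≤ Lg → (slab ht 0 (top + l)).card ≤ N →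
      8 * (N * Ce * Real.exp (-(c * l))) ≤ Δ →
      ∃ (h : Option (St L) → Op L q) (Z : Option (St L) → Finset (St L))
        (I : Finset (Option (St L))) (Ω' : Vec L q) (E : ℝ),
        Terms h Z I ht top Lg Lg Lg Lg ∧ I.card ≤ N ∧ GS (∑ i, h i) Ω' E (Δ / 2) ∧
        E ≤ N * Ce * Real.exp (-(c * l)) ∧
        nsq (Ω' - Ω) ≤ 4 * (N * Ce * Real.exp (-(c * l))) / Δ := by
  have hJ' : 0 ≤ J * 2 ^ ((2 * R + 1) ^ 2) := by positivity
  obtain ⟨c, C, hc0, hc, hC, hql⟩ := ql R hJ' hΔ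
  obtain ⟨C1, hC1, hnew⟩ := newH
  have hq : (0 : ℝ) ≤ q := Nat.cast_nonneg _
  have hC0 : 0 ≤ C := by linarith
  have hC10 : 0 ≤ C1 := by linarith
  refine ⟨c, 2 * C + C1 * q * C, 2 * (J * 2 ^ ((2 * R + 1) ^ 2)), hc0, ?_, ?_⟩
  · have : 0 ≤ C1 * q * C := by positivity
    linarith
  intro L Ω hF ht hht top l Lg N h1 h2 h3 h4
  obtain ⟨E0, g, hS⟩ := sys_of hJ hF
  obtain ⟨a, cc, hQ⟩ := hql L q E0 g Ω hS l
  obtain ⟨h, Z, I, hT, hI, hgap, hE⟩ := hnew L q _ Δ E0 _ _ a cc Ω hQ (by positivity)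
    (by positivity) ht hht top l Lg N h1 h2 h3
  have herr : (N : ℝ) * (2 * (C * Real.exp (-(c * l))) +
      C1 * q * (C * Real.exp ((l : ℝ) / 4)) * Real.exp (-((l : ℝ) / 2))) ≤
      N * (2 * C + C1 * q * C) * Real.exp (-(c * l)) := by
    rw [mul_assoc (N : ℝ)]
    exact mul_le_mul_of_nonneg_left (app_err hc hC0 hC10 hq (Nat.cast_nonneg l))
      (Nat.cast_nonneg N)
  obtain ⟨Ω', E, hG, hEe, hn⟩ := ground (app_ps h hT.ps) hS.gs.1 hΔ h4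
    (fun u => by
      have := mul_le_mul_of_nonneg_right herr (nsq_nonneg u)
      have := hgap u
      linarith) (hE.trans herr)
  exact ⟨h, Z, I, Ω', E, hT, hI, hG, hEe, hn⟩

end Vale.Agent.P356E
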