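import Vale.Agent.P356E.Nrm

namespace Vale.Agent.P356E

open Matrix Vale.Agent.P356 Vale.Agent.P356F Vale.Agent.P356G
open scoped Matrix.Norms.L2Operator

theorem allB_mono {q : ℕ} {F : ∀ L : ℕ, Vec L q → Prop} {a a' : ℝ} (h : a ≤ a') (H : AllB F a) :
    AllB F a' := by
  obtain ⟨C, hC, H⟩ := H
  refine ⟨C, hC, fun L Ω hF l hl x1 x2 y1 y2 hx hy => (H L Ω hF l hl x1 x2 y1 y2 hx hy).trans ?_⟩
  have hl' : (1 : ℝ) ≤ l := by exact_mod_cast hl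
  exact mul_le_mul_of_nonneg_left (Real.rpow_le_rpow_of_exponent_le hl' h) hC

lemma boot_clog {η : ℝ} (hη : 0 < η) (b : ℕ) (hb : 1 ≤ b) :
    ((Nat.clog 2 b + 1 : ℕ) : ℝ) ≤ (2 + 1 / (η * Real.log 2)) * (b : ℝ) ^ η := by
  have hb' : (1 : ℝ) ≤ b := by exact_mod_cast hb
  have hl2 : 0 < Real.log 2 := Real.log_pos (by norm_num)
  have h1 : (1 : ℝ) ≤ (b : ℝ) ^ η := Real.one_le_rpow hb' hη.le
  have h2 : Real.log b ≤ (b : ℝ) ^ η / η := Real.log_le_rpow_div (by linarith) hη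
  have h3 : ((Nat.clog 2 b : ℕ) : ℝ) ≤ 1 + Real.log b / Real.log 2 := by
    rcases Nat.eq_or_lt_of_le hb with h | h
    · subst h
      simp
    · have h4 : 2 ^ (Nat.clog 2 b).pred < b := Nat.pow_pred_clog_lt_self (by norm_num) h
      have h5 : 0 < Nat.clog 2 b := Nat.clog_pos (by norm_num) h
      obtain ⟨m, hm⟩ : ∃ m, Nat.clog 2 b = m + 1 := ⟨Nat.clog 2 b - 1, by omega⟩
      rw [hm] at h4 ⊢
      simp only [Nat.pred_succ] at h4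
      have h6 : (2 : ℝ) ^ m ≤ b := by exact_mod_cast h4.le
      have h7 : Real.log ((2 : ℝ) ^ m) ≤ Real.log b := Real.log_le_log (by positivity) h6
      rw [Real.log_pow] at h7
      have h8 : (m : ℝ) ≤ Real.log b / Real.log 2 := by
        rw [le_div_iff₀ hl2]; exact h7
      push_cast
      linarith
  have h9 : Real.log b / Real.log 2 ≤ 1 / (η * Real.log 2) * (b : ℝ) ^ η := by
    rw [div_le_iff₀ hl2]
    have : 1 / (η * Real.log 2) * (b : ℝ) ^ η * Real.log 2 = (b : ℝ) ^ η / η := by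
      field_simp
    rw [this]; exact h2
  push_cast
  nlinarith

lemma boot_pow {P b V a : ℝ} (hP : 1 ≤ P) (hb : 1 ≤ b) (h1 : 1 ≤ a) (h2 : a ≤ 2) (hV0 : 0 ≤ V)
    (hV : V ≤ 2 * Real.sqrt (P * b ^ a)) :
    V ^ (a - 1) ≤ 2 * P * b ^ ((a - 1) * a / 2) := by
  have hb0 : 0 ≤ b := by linarith
  have hP0 : 0 ≤ P := by linarith
  have hba : 0 ≤ b ^ a := Real.rpow_nonneg hb0 _
  have e1 : V ^ (a - 1) ≤ (2 * Real.sqrt (P * b ^ a)) ^ (a - 1) :=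
    Real.rpow_le_rpow hV0 hV (by linarith)
  have e2 : (2 * Real.sqrt (P * b ^ a)) ^ (a - 1)
      = 2 ^ (a - 1) * (P ^ ((a - 1) / 2) * b ^ ((a - 1) * a / 2)) := by
    rw [Real.mul_rpow (by norm_num) (Real.sqrt_nonneg _), Real.sqrt_eq_rpow,
      ← Real.rpow_mul (mul_nonneg hP0 hba), Real.mul_rpow hP0 hba, ← Real.rpow_mul hb0]
    congr 2
    · congr 1; ring
    · congr 1; ring
  have e3 : (2 : ℝ) ^ (a - 1) ≤ 2 := by
    calc (2 : ℝ) ^ (a - 1) ≤ 2 ^ (1 : ℝ) :=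
          Real.rpow_le_rpow_of_exponent_le (by norm_num) (by linarith)
      _ = 2 := Real.rpow_one 2
  have e4 : P ^ ((a - 1) / 2) ≤ P := by
    calc P ^ ((a - 1) / 2) ≤ P ^ (1 : ℝ) := Real.rpow_le_rpow_of_exponent_le hP (by linarith)
      _ = P := Real.rpow_one P
  have e5 : 0 ≤ b ^ ((a - 1) * a / 2) := Real.rpow_nonneg hb0 _
  have e6 : 0 ≤ P ^ ((a - 1) / 2) := Real.rpow_nonneg hP0 _
  rw [e2] at e1
  calc V ^ (a - 1) ≤ 2 ^ (a - 1) * (P ^ ((a - 1) / 2) * b ^ ((a - 1) * a / 2)) := e1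
    _ ≤ 2 * (P * b ^ ((a - 1) * a / 2)) := by gcongr
    _ = 2 * P * b ^ ((a - 1) * a / 2) := by ring

/-- Given `b = l ≥ 1` take `k = Nat.clog 2 b + 1` (so `b ≤ 2 ^ k` and `k ≤ C_η b ^ η`) and
`V = ⌈sqrt (C k ^ 16 (C0 + 1) b ^ a)⌉₊ ≤ 2 sqrt (..)`. If `V ≤ b` use `Rec` with `G = C0 V ^ a`;
if `b < V` then `C0 b ^ a ≤ C0 b V ^ (a - 1)`. In both cases the entropy is at most
`C (C0 + 1) k ^ 16 b V ^ (a - 1) ≤ C' k ^ 24 b ^ (1 + (a - 1) a / 2)`. -/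
theorem boot_step {q : ℕ} {F : ∀ L : ℕ, Vec L q → Prop} {C : ℝ} (hC : 1 ≤ C) (hR : Rec F C)
    {a a' : ℝ} (h1 : 1 ≤ a) (h2 : a ≤ 2) (ha : 1 + (a - 1) * a / 2 < a') (H : AllB F a) :
    AllB F a' := by
  obtain ⟨C0, hC0, H⟩ := H
  obtain ⟨η, hηd⟩ : ∃ η : ℝ, η = (a' - (1 + (a - 1) * a / 2)) / 32 := ⟨_, rfl⟩
  have hη : 0 < η := by rw [hηd]; linarith
  obtain ⟨D, hD⟩ : ∃ D : ℝ, D = 2 + 1 / (η * Real.log 2) := ⟨_, rfl⟩
  have hl2 : 0 < Real.log 2 := Real.log_pos (by norm_num)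
  have hD0 : 0 ≤ D := by rw [hD]; positivity
  refine ⟨2 * (C * (C0 + 1) * D ^ 16) ^ 2, by positivity, ?_⟩
  intro L Ω hF b hb x1 x2 y1 y2 hx hy
  have hb' : (1 : ℝ) ≤ b := by exact_mod_cast hb
  have hb0 : (0 : ℝ) < b := by linarith
  obtain ⟨k, hk⟩ : ∃ k : ℕ, k = Nat.clog 2 b + 1 := ⟨_, rfl⟩
  have hk1 : 1 ≤ k := by omega
  have hk1' : (1 : ℝ) ≤ k := by exact_mod_cast hk1
  have hbk : b ≤ 2 ^ k := by
    refine (Nat.le_pow_clog (b := 2) (by norm_num) b).trans ?_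
    exact Nat.pow_le_pow_right (by norm_num) (by omega)
  have hkD : (k : ℝ) ≤ D * (b : ℝ) ^ η := by rw [hk, hD]; exact boot_clog hη b hb
  obtain ⟨P, hP⟩ : ∃ P : ℝ, P = C * (k : ℝ) ^ 16 * (C0 + 1) := ⟨_, rfl⟩
  have hk16 : (1 : ℝ) ≤ (k : ℝ) ^ 16 := one_le_pow₀ hk1'
  have hCk : 1 ≤ C * (k : ℝ) ^ 16 := by nlinarith
  have hP1 : 1 ≤ P := by rw [hP]; nlinarith
  have hba : (1 : ℝ) ≤ (b : ℝ) ^ a := Real.one_le_rpow hb' (by linarith)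
  have hT : 1 ≤ P * (b : ℝ) ^ a := by nlinarith
  have hsq : 1 ≤ Real.sqrt (P * (b : ℝ) ^ a) := Real.one_le_sqrt.mpr hT
  obtain ⟨V, hV⟩ : ∃ V : ℕ, V = ⌈Real.sqrt (P * (b : ℝ) ^ a)⌉₊ := ⟨_, rfl⟩
  have hV1 : Real.sqrt (P * (b : ℝ) ^ a) ≤ V := by rw [hV]; exact Nat.le_ceil _
  have hV2 : (V : ℝ) ≤ 2 * Real.sqrt (P * (b : ℝ) ^ a) := by
    have := Nat.ceil_lt_add_one (Real.sqrt_nonneg (P * (b : ℝ) ^ a))
    rw [← hV] at this
    linarith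
  have hV3 : (1 : ℝ) ≤ V := hsq.trans hV1
  have hV4 : 1 ≤ V := by exact_mod_cast hV3
  have hV0 : (0 : ℝ) < V := by linarith
  have hS := H L Ω hF b hb x1 x2 y1 y2 hx hy
  have hVa : (V : ℝ) ^ a = V * (V : ℝ) ^ (a - 1) := by
    rw [Real.rpow_sub_one hV0.ne']; field_simp
  have hVa1 : (1 : ℝ) ≤ (V : ℝ) ^ a := Real.one_le_rpow hV3 (by linarith)
  have hW0 : 0 ≤ (V : ℝ) ^ (a - 1) := Real.rpow_nonneg hV0.le _
  have key : entropy (box L x1 x2 y1 y2) Ω ≤ P * b * (V : ℝ) ^ (a - 1) := by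
    by_cases hVb : V ≤ b
    · have hsq2 : C * (k : ℝ) ^ 16 * (entropy (box L x1 x2 y1 y2) Ω + 1) ≤ (V : ℝ) ^ 2 := by
        have e1 : P * (b : ℝ) ^ a ≤ (V : ℝ) ^ 2 := by
          have := Real.sq_sqrt (show 0 ≤ P * (b : ℝ) ^ a by linarith)
          rw [← this]
          exact pow_le_pow_left₀ (Real.sqrt_nonneg _) hV1 2
        refine le_trans ?_ e1
        rw [hP, mul_assoc (C * (k : ℝ) ^ 16)]
        refine mul_le_mul_of_nonneg_left ?_ (by linarith)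
        nlinarith
      have e2 := hR L Ω hF k b V x1 x2 y1 y2 (C0 * (V : ℝ) ^ a) hk1 hbk hV4 hVb hx hy
        (by positivity) (H L Ω hF V hV4) hsq2
      refine e2.trans ?_
      have e3 : C0 * (V : ℝ) ^ a + 1 ≤ (C0 + 1) * (V : ℝ) ^ a := by nlinarith
      calc C * (k : ℝ) ^ 16 * ((b : ℝ) / V) * (C0 * (V : ℝ) ^ a + 1)
          ≤ C * (k : ℝ) ^ 16 * ((b : ℝ) / V) * ((C0 + 1) * (V : ℝ) ^ a) := by
            refine mul_le_mul_of_nonneg_left e3 ?_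
            have : 0 ≤ C * (k : ℝ) ^ 16 := by linarith
            positivity
        _ = P * b * (V : ℝ) ^ (a - 1) := by
            rw [hP, hVa]; field_simp
    · have hbV : (b : ℝ) ≤ V := by exact_mod_cast (not_le.mp hVb).le
      have e1 : (b : ℝ) ^ a = b * (b : ℝ) ^ (a - 1) := by
        rw [Real.rpow_sub_one hb0.ne']; field_simp
      have e2 : (b : ℝ) ^ (a - 1) ≤ (V : ℝ) ^ (a - 1) := Real.rpow_le_rpow hb0.le hbV (by linarith)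
      have e3 : C0 ≤ P := by rw [hP]; nlinarith
      have e4 : 0 ≤ (b : ℝ) ^ (a - 1) := Real.rpow_nonneg hb0.le _
      refine hS.trans ?_
      rw [e1, mul_assoc P]
      gcongr
  have hW := boot_pow hP1 hb' h1 h2 hV0.le hV2
  have hbη : 0 ≤ (b : ℝ) ^ η := Real.rpow_nonneg hb0.le _
  have hPD : P ≤ C * (C0 + 1) * D ^ 16 * ((b : ℝ) ^ η) ^ 16 := by
    have e1 : (k : ℝ) ^ 16 ≤ (D * (b : ℝ) ^ η) ^ 16 := pow_le_pow_left₀ (by linarith) hkD 16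
    rw [hP]
    calc C * (k : ℝ) ^ 16 * (C0 + 1) ≤ C * (D * (b : ℝ) ^ η) ^ 16 * (C0 + 1) := by
          have : 0 ≤ C := by linarith
          gcongr
      _ = C * (C0 + 1) * D ^ 16 * ((b : ℝ) ^ η) ^ 16 := by ring
  have hfin : (b : ℝ) ^ a' = ((b : ℝ) ^ η) ^ 32 * b * (b : ℝ) ^ ((a - 1) * a / 2) := by
    have e : a' = η * ((32 : ℕ) : ℝ) + 1 + (a - 1) * a / 2 := by
      rw [hηd]; push_cast; ring
    rw [e, Real.rpow_add hb0, Real.rpow_add hb0, Real.rpow_one, Real.rpow_mul hb0.le,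
      Real.rpow_natCast]
  have hE : 0 ≤ (b : ℝ) ^ ((a - 1) * a / 2) := Real.rpow_nonneg hb0.le _
  have hP0 : 0 ≤ P := by linarith
  calc entropy (box L x1 x2 y1 y2) Ω ≤ P * b * (V : ℝ) ^ (a - 1) := key
    _ ≤ P * b * (2 * P * (b : ℝ) ^ ((a - 1) * a / 2)) := by gcongr
    _ = 2 * P ^ 2 * (b * (b : ℝ) ^ ((a - 1) * a / 2)) := by ring
    _ ≤ 2 * (C * (C0 + 1) * D ^ 16 * ((b : ℝ) ^ η) ^ 16) ^ 2
          * (b * (b : ℝ) ^ ((a - 1) * a / 2)) := by gcongr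
    _ = 2 * (C * (C0 + 1) * D ^ 16) ^ 2 * (b : ℝ) ^ a' := by rw [hfin]; ring

/-- WLOG `a = 1 + x`, `0 < x < 1`; with `ρ = (3 + x) / 4` prove `AllB F (1 + x ρ ^ j)` by
induction on `j` -/
theorem boot {q : ℕ} {F : ∀ L : ℕ, Vec L q → Prop} {C : ℝ} (hC : 1 ≤ C) (hR : Rec F C) {a : ℝ}
    (h2 : a < 2) (H : AllB F a) {ε : ℝ} (hε : 0 < ε) : AllB F (1 + ε) := by
  obtain ⟨x, hx0, hx1, Hx⟩ : ∃ x : ℝ, 0 < x ∧ x < 1 ∧ AllB F (1 + x) := by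
    refine ⟨max (a - 1) (1 / 2), lt_of_lt_of_le (by norm_num) (le_max_right _ _),
      max_lt (by linarith) (by norm_num), allB_mono ?_ H⟩
    have := le_max_left (a - 1) (1 / 2)
    linarith
  obtain ⟨ρ, hρ⟩ : ∃ ρ : ℝ, ρ = (3 + x) / 4 := ⟨_, rfl⟩
  have hρ0 : 0 < ρ := by rw [hρ]; linarith
  have hρ1 : ρ < 1 := by rw [hρ]; linarith
  have ind : ∀ j : ℕ, AllB F (1 + x * ρ ^ j) := by
    intro j
    induction j with
    | zero => simpa using Hx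
    | succ j ih =>
      have e1 : 0 < ρ ^ j := pow_pos hρ0 j
      have e2 : ρ ^ j ≤ 1 := pow_le_one₀ hρ0.le hρ1.le
      have e3 : 0 < x * ρ ^ j := mul_pos hx0 e1
      have e4 : x * ρ ^ j ≤ x := by nlinarith
      refine boot_step hC hR (by linarith) (by linarith) ?_ ih
      have e5 : x * ρ ^ (j + 1) = x * ρ ^ j * ρ := by ring
      rw [e5]
      generalize x * ρ ^ j = y at e3 e4 ⊢
      have e6 : (1 + y) / 2 < ρ := by rw [hρ]; linarith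
      nlinarith
  obtain ⟨j, hj⟩ := exists_pow_lt_of_lt_one hε hρ1
  refine allB_mono ?_ (ind j)
  have e1 : 0 < ρ ^ j := pow_pos hρ0 j
  nlinarith

end Vale.Agent.P356E
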