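import Vale.Agent.P356E.Sq

namespace Vale.Agent.P356E

open Matrix Vale.Agent.P356 Vale.Agent.P356F Vale.Agent.P356G
open scoped Matrix.Norms.L2Operator

theorem mem_slab {Λ : Type} [Fintype Λ] {ht : Λ → ℕ} {a b : ℕ} {z : Λ} :
    z ∈ slab ht a b ↔ a ≤ ht z ∧ ht z < b := by
  simp [slab]

theorem hb_lt {L x1 x2 y1 y2 r : ℕ} {z : St L} : hb L x1 x2 y1 y2 z < 1 + r ↔
    x1 - r ≤ z.1.val ∧ z.1.val < x2 + r ∧ y1 - r ≤ z.2.val ∧ z.2.val < y2 + r := by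
  simp only [hb, max_lt_iff]
  omega

theorem hb_lip (L x1 x2 y1 y2 r : ℕ) (x z : St L) (h : z ∈ geoSq L r x) :
    hb L x1 x2 y1 y2 x ≤ hb L x1 x2 y1 y2 z + r := by
  rw [mem_sq] at h
  have h1 := (hb_lt (L := L) (x1 := x1) (x2 := x2) (y1 := y1) (y2 := y2)
    (r := hb L x1 x2 y1 y2 z) (z := z)).1 (by omega)
  have h2 := (hb_lt (L := L) (x1 := x1) (x2 := x2) (y1 := y1) (y2 := y2)
    (r := hb L x1 x2 y1 y2 z + r) (z := x)).2 (by omega)
  omega

theorem slab_box (L x1 x2 y1 y2 r : ℕ) :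
    slab (hb L x1 x2 y1 y2) 0 (1 + r) = box L (x1 - r) (x2 + r) (y1 - r) (y2 + r) := by
  ext z
  rw [mem_slab, geo_mem, hb_lt]
  omega

theorem slab_card {L x1 x2 y1 y2 b : ℕ} (hx : x2 ≤ x1 + b) (hy : y2 ≤ y1 + b) (s r : ℕ) :
    (slab (hb L x1 x2 y1 y2) s r).card ≤ (b + 2 * r) ^ 2 := by
  have h1 : slab (hb L x1 x2 y1 y2) s r ⊆ box L (x1 - r) (x2 + r) (y1 - r) (y2 + r) := by
    rw [← slab_box]
    intro z
    rw [mem_slab, mem_slab]
    omega
  refine (Finset.card_le_card h1).trans ((box_card_le _ _ _ _ _).trans ?_)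
  rw [sq]
  exact Nat.mul_le_mul (by omega) (by omega)

/-- induction on `k` with `box_split_x`; an empty box has no entropy (`ent_empty`) -/
theorem strip_x {L q : ℕ} [NeZero q] {Ω : Vec L q} (hΩ : nsq Ω = 1) {V : ℕ} {G : ℝ} (hG : 0 ≤ G)
    (hB : BoxB Ω V G) (k : ℕ) : ∀ x1 x2 y1 y2 : ℕ, x2 ≤ x1 + k * V → y2 ≤ y1 + V →
      entropy (box L x1 x2 y1 y2) Ω ≤ k * G := by
  induction k with
  | zero =>
    intro x1 x2 y1 y2 hx hy
    rw [Finset.eq_empty_of_forall_notMem (s := box L x1 x2 y1 y2) fun z hz => by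
      rw [geo_mem] at hz
      omega, ent_empty hΩ]
    simp
  | succ k ih =>
    intro x1 x2 y1 y2 hx hy
    have hk : (0 : ℝ) ≤ k * G := by positivity
    rw [Nat.succ_mul] at hx
    push_cast
    rcases le_total x2 (x1 + V) with h | h
    · linarith [hB x1 x2 y1 y2 h hy]
    · obtain ⟨e, d⟩ := box_split_x L x1 (x1 + V) x2 y1 y2 (by omega) h
      rw [e]
      linarith [ent_union d hΩ, hB x1 (x1 + V) y1 y2 le_rfl hy, ih (x1 + V) x2 y1 y2 (by omega) hy]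

theorem strip_y {L q : ℕ} [NeZero q] {Ω : Vec L q} (hΩ : nsq Ω = 1) {V : ℕ} {G : ℝ} (hG : 0 ≤ G)
    (hB : BoxB Ω V G) (k : ℕ) : ∀ x1 x2 y1 y2 : ℕ, x2 ≤ x1 + V → y2 ≤ y1 + k * V →
      entropy (box L x1 x2 y1 y2) Ω ≤ k * G := by
  induction k with
  | zero =>
    intro x1 x2 y1 y2 hx hy
    rw [Finset.eq_empty_of_forall_notMem (s := box L x1 x2 y1 y2) fun z hz => by
      rw [geo_mem] at hz
      omega, ent_empty hΩ]
    simp
  | succ k ih =>
    intro x1 x2 y1 y2 hx hy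
    have hk : (0 : ℝ) ≤ k * G := by positivity
    rw [Nat.succ_mul] at hy
    push_cast
    rcases le_total y2 (y1 + V) with h | h
    · linarith [hB x1 x2 y1 y2 hx h]
    · obtain ⟨e, d⟩ := box_split_y L x1 x2 y1 (y1 + V) y2 (by omega) h
      rw [e]
      linarith [ent_union d hΩ, hB x1 x2 y1 (y1 + V) hx le_rfl, ih x1 x2 (y1 + V) y2 hx (by omega)]

/-- the slab is the disjoint union of the four strips left, right, below, above (`hb_lt`) -/
theorem slab_ent {L q : ℕ} [NeZero q] {Ω : Vec L q} (hΩ : nsq Ω = 1) {V : ℕ} {G : ℝ} (hG : 0 ≤ G)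
    (hB : BoxB Ω V G) {x1 x2 y1 y2 b : ℕ} (hx1 : x1 ≤ x2) (hy1 : y1 ≤ y2) (hx : x2 ≤ x1 + b)
    (hy : y2 ≤ y1 + b) (r k : ℕ) (hk : b + 2 * (r + V) ≤ k * V) :
    entropy (slab (hb L x1 x2 y1 y2) (1 + r) (1 + (r + V))) Ω ≤ 4 * k * G := by
  have e : slab (hb L x1 x2 y1 y2) (1 + r) (1 + (r + V)) =
      (box L (x1 - (r + V)) (x1 - r) (y1 - (r + V)) (y2 + (r + V)) ∪
        box L (x2 + r) (x2 + (r + V)) (y1 - (r + V)) (y2 + (r + V))) ∪
      (box L (x1 - r) (x2 + r) (y1 - (r + V)) (y1 - r) ∪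
        box L (x1 - r) (x2 + r) (y2 + r) (y2 + (r + V))) := by
    ext z
    simp only [mem_slab, Finset.mem_union, geo_mem, ← not_lt (a := hb L x1 x2 y1 y2 z), hb_lt]
    omega
  have h1 := strip_y hΩ hG hB k (x1 - (r + V)) (x1 - r) (y1 - (r + V)) (y2 + (r + V)) (by omega)
    (by omega)
  have h2 := strip_y hΩ hG hB k (x2 + r) (x2 + (r + V)) (y1 - (r + V)) (y2 + (r + V)) (by omega)
    (by omega)
  have h3 := strip_x hΩ hG hB k (x1 - r) (x2 + r) (y1 - (r + V)) (y1 - r) (by omega) (by omega)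
  have h4 := strip_x hΩ hG hB k (x1 - r) (x2 + r) (y2 + r) (y2 + (r + V)) (by omega) (by omega)
  rw [e]
  refine (ent_union ?_ hΩ).trans ((add_le_add (ent_union ?_ hΩ) (ent_union ?_ hΩ)).trans
    (by linarith))
  all_goals
    refine Finset.disjoint_left.2 fun z => ?_
    simp only [Finset.mem_union, geo_mem]
    omega

end Vale.Agent.P356E
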