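import Vale.Agent.P356E.Uni

namespace Vale.Agent.P356E

open Matrix Vale.Agent.P356 Vale.Agent.P356F Vale.Agent.P356G
open scoped Matrix.Norms.L2Operator

variable {n : Type} [Fintype n] [DecidableEq n] {H : Matrix n n ℂ}

/-- `cos (s (H - E))` -/
noncomputable def cs1 (H : Matrix n n ℂ) (E s : ℝ) : Matrix n n ℂ :=
  (1 / 2 : ℂ) • (Complex.exp (-(Complex.I * s * E)) • uu H s +
    Complex.exp (Complex.I * s * E) • uu H (-s))

theorem cos_fr {V : Matrix n n ℂ} {l : n → ℝ}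
    (hu : ∀ t : ℝ, uu H t = fn V fun i => Complex.exp (Complex.I * t * l i)) (E s : ℝ) :
    cs1 H E s = fr V fun i => Real.cos (s * (l i - E)) := by
  rw [cs1, hu, hu, ← fn_smul, ← fn_smul, ← fn_add, ← fn_smul, fr]
  congr 1
  funext i
  rw [← Complex.exp_add, ← Complex.exp_add, Complex.ofReal_cos, Complex.cos]
  have e1 : -(Complex.I * s * E) + Complex.I * s * l i =
      ((s * (l i - E) : ℝ) : ℂ) * Complex.I := by push_cast; ring
  have e2 : Complex.I * s * E + Complex.I * ((-s : ℝ) : ℂ) * l i =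
      -((s * (l i - E) : ℝ) : ℂ) * Complex.I := by push_cast; ring
  rw [e1, e2]
  ring

theorem cs1_ct (hH : H.IsHermitian) (E s : ℝ) : (cs1 H E s)ᴴ = cs1 H E s := by
  obtain ⟨V, l, -, -, hu⟩ := uu_spec hH
  rw [cos_fr hu, fr_ct]

theorem cs1_fix (hH : H.IsHermitian) {Ω : n → ℂ} {E : ℝ} (hΩ : H *ᵥ Ω = (E : ℂ) • Ω) (s : ℝ) :
    cs1 H E s *ᵥ Ω = Ω := by
  rw [cs1, smul_mulVec, add_mulVec, smul_mulVec, smul_mulVec, uu_eig hH hΩ, uu_eig hH hΩ,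
    smul_smul, smul_smul, ← Complex.exp_add, ← Complex.exp_add]
  have e1 : -(Complex.I * s * E) + Complex.I * s * E = 0 := by ring
  have e2 : Complex.I * s * E + Complex.I * ((-s : ℝ) : ℂ) * E = 0 := by push_cast; ring
  rw [e1, e2, Complex.exp_zero, ← add_smul, smul_smul]
  norm_num

theorem cos_key {V : Matrix n n ℂ} (hV : V * Vᴴ = 1) (f v : n → ℂ) :
    Vᴴ *ᵥ (fn V f *ᵥ v) = fun i => f i * (Vᴴ *ᵥ v) i := by
  funext i
  rw [fn, ← mulVec_mulVec, ← mulVec_mulVec, mulVec_mulVec _ Vᴴ V, uni_symm hV, one_mulVec,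
    mulVec_diagonal]

theorem cos_real {x y : ℝ} (hy : 0 ≤ y) (hyx : y ≤ x) (hx : x ≤ 1) :
    |Real.cos x| ≤ Real.exp (-(y ^ 2 / 5)) := by
  have hp := Real.pi_gt_three
  have hp' := Real.pi_lt_d2
  have h0 : 0 ≤ Real.cos x := Real.cos_nonneg_of_mem_Icc ⟨by linarith, by linarith⟩
  have h1 := Real.cos_le_one_sub_mul_cos_sq (x := x) (abs_le.2 ⟨by linarith, by linarith⟩)
  have h2 : 1 / 5 ≤ 2 / Real.pi ^ 2 := by
    rw [div_le_div_iff₀ (by norm_num) (by positivity)]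
    nlinarith
  have h3 : y ^ 2 ≤ x ^ 2 := pow_le_pow_left₀ hy hyx 2
  have h4 := mul_le_mul_of_nonneg_right h2 (sq_nonneg x)
  have h5 := Real.add_one_le_exp (-(y ^ 2 / 5))
  rw [abs_of_nonneg h0]
  linarith

theorem cos_single (i : n) : nsq (Pi.single i 1 : n → ℂ) = 1 := by
  rw [nsq, Finset.sum_eq_single i (fun j _ hj => by simp [hj]) (by simp)]
  simp

theorem cos_qf {V : Matrix n n ℂ} (hV : V * Vᴴ = 1) (l : n → ℝ) (i : n) :
    qf (fr V l) (V *ᵥ Pi.single i 1) = l i := by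
  have h1 : Vᴴ *ᵥ (V *ᵥ (Pi.single i 1 : n → ℂ)) = Pi.single i 1 := by
    rw [mulVec_mulVec, uni_symm hV, one_mulVec]
  have h2 : star (V *ᵥ (Pi.single i 1 : n → ℂ)) ⬝ᵥ (fr V l *ᵥ (V *ᵥ Pi.single i 1)) =
      star (Pi.single i 1 : n → ℂ) ⬝ᵥ (Vᴴ *ᵥ (fr V l *ᵥ (V *ᵥ Pi.single i 1))) := by
    rw [dot_mulVec Vᴴ, conjTranspose_conjTranspose]
  rw [qf, ip, h2, fr, cos_key hV, h1]
  simp [dotProduct, Pi.single_apply]

/-- With `uu_spec`: `cs1 = fr V (cos (s (l i - E)))`. Let `e` be column `i` of `V` (unit eigenvector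
for `l i`, `|l i| ≤ ‖H‖`). If `l i < E + Δ` the gap inequality for `e` gives `star Ω ⬝ᵥ e ≠ 0`, so
`l i = E` (eigenvectors of a Hermitian matrix), so `‖star Ω ⬝ᵥ e‖ ≥ 1`, so `e` is a multiple of `Ω`
and the coordinate `star e ⬝ᵥ v` vanishes. Otherwise `s Δ ≤ x = s (l i - E) ≤ 1` and
`0 ≤ cos x ≤ 1 - x ^ 2 / 5 ≤ exp (- x ^ 2 / 5)` (`Real.cos_le_one_sub_mul_cos_sq`). -/
theorem cs1_gap (hH : H.IsHermitian) {Ω : n → ℂ} {E Δ s : ℝ} (hG : GS H Ω E Δ) (hΔ : 0 < Δ)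
    (hs0 : 0 ≤ s) (hs : s * (‖H‖ + |E|) ≤ 1) {v : n → ℂ} (hv : star Ω ⬝ᵥ v = 0) :
    nn (cs1 H E s *ᵥ v) ≤ Real.exp (-((s * Δ) ^ 2 / 5)) * nn v := by
  obtain ⟨V, l, hV, hl, hu⟩ := uu_spec hH
  have hV' : Vᴴ * Vᴴᴴ = 1 := by rw [conjTranspose_conjTranspose, uni_symm hV]
  obtain ⟨hn, hE, hg⟩ := hG
  have hw : nsq (Vᴴ *ᵥ Ω) = 1 := by rw [nsq_uni hV', hn]
  have hd : star (Vᴴ *ᵥ Ω) ⬝ᵥ (Vᴴ *ᵥ v) = 0 := by
    rw [← dot_mulVec, mulVec_mulVec, hV, one_mulVec, hv]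
  have h1 : ∀ i, (l i : ℂ) * (Vᴴ *ᵥ Ω) i = E * (Vᴴ *ᵥ Ω) i := fun i => by
    have e : fn V (fun i => (l i : ℂ)) = H := hl.symm
    have h2 := congrFun (cos_key hV (fun i => (l i : ℂ)) Ω) i
    rw [e, hE, mulVec_smul] at h2
    exact h2.symm
  have key : ∀ i, ‖(Real.cos (s * (l i - E)) : ℂ) * (Vᴴ *ᵥ v) i‖ ^ 2 ≤
      Real.exp (-((s * Δ) ^ 2 / 5)) ^ 2 * ‖(Vᴴ *ᵥ v) i‖ ^ 2 := fun i => by
    have he : nsq (V *ᵥ (Pi.single i 1 : n → ℂ)) = 1 := by rw [nsq_uni hV, cos_single]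
    have hq : qf H (V *ᵥ Pi.single i 1) = l i := by rw [hl]; exact cos_qf hV l i
    have hb := qf_abs_le_norm H (V *ᵥ Pi.single i 1)
    have hgi := hg (V *ᵥ Pi.single i 1)
    have hs1 : ‖star Ω ⬝ᵥ (V *ᵥ (Pi.single i 1 : n → ℂ))‖ = ‖(Vᴴ *ᵥ Ω) i‖ := by
      rw [dot_mulVec, dotProduct_single, mul_one, Pi.star_apply, norm_star]
    rw [hq, he, mul_one] at hb
    rw [hq, he, hs1] at hgi
    by_cases h0 : (Vᴴ *ᵥ Ω) i = 0
    · rw [h0, norm_zero] at hgi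
      rw [norm_mul, mul_pow, Complex.norm_real, Real.norm_eq_abs]
      refine mul_le_mul_of_nonneg_right (pow_le_pow_left₀ (abs_nonneg _) ?_ 2) (sq_nonneg _)
      refine cos_real (mul_nonneg hs0 hΔ.le) (mul_le_mul_of_nonneg_left (by linarith) hs0) ?_
      refine le_trans (mul_le_mul_of_nonneg_left ?_ hs0) hs
      have := le_abs_self (l i)
      have := neg_abs_le E
      linarith
    · have e : l i = E := Complex.ofReal_injective (mul_right_cancel₀ h0 (h1 i))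
      have h2 : 1 ≤ ‖(Vᴴ *ᵥ Ω) i‖ ^ 2 := by
        by_contra hc
        have := mul_pos hΔ (sub_pos.2 (not_le.1 hc))
        linarith
      have h3 : ∀ j, j ≠ i → (Vᴴ *ᵥ Ω) j = 0 := fun j hj => by
        have h4 : ∑ k ∈ ({j, i} : Finset n), ‖(Vᴴ *ᵥ Ω) k‖ ^ 2 ≤ nsq (Vᴴ *ᵥ Ω) :=
          Finset.sum_le_sum_of_subset_of_nonneg (Finset.subset_univ _) fun _ _ _ => sq_nonneg _
        rw [Finset.sum_pair hj, hw] at h4
        have h5 : ‖(Vᴴ *ᵥ Ω) j‖ ^ 2 = 0 := le_antisymm (by linarith) (sq_nonneg _)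
        simpa using h5
      have h6 : (Vᴴ *ᵥ v) i = 0 := by
        rw [dotProduct, Finset.sum_eq_single i (fun j _ hj => by simp [h3 j hj]) (by simp),
          Pi.star_apply] at hd
        exact (mul_eq_zero.1 hd).resolve_left (star_ne_zero.2 h0)
      rw [h6]
      simp
  refine nn_le_of_nsq (mul_nonneg (Real.exp_pos _).le (nn_nonneg _)) ?_
  rw [mul_pow, nn_sq, ← nsq_uni hV' v, ← nsq_uni hV' (cs1 H E s *ᵥ v), cos_fr hu, fr, cos_key hV,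
    nsq, nsq, Finset.mul_sum]
  exact Finset.sum_le_sum fun i _ => key i

end Vale.Agent.P356E
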