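import Vale.Agent.P356E.Iso

namespace Vale.Agent.P356E

open Matrix Vale.Agent.P356 Vale.Agent.P356F Vale.Agent.P356G
open scoped Matrix.Norms.L2Operator

theorem cov_card {L : ℕ} (B Q : Finset (St L)) : (B ∩ Q).card + (Bᶜ ∩ Q).card = Q.card := by
  rw [← Finset.card_union_of_disjoint, ← Finset.union_inter_distrib_right, Finset.union_compl,
    Finset.univ_inter]
  exact disjoint_compl_right.mono Finset.inter_subset_left Finset.inter_subset_left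

theorem cov_eS {L : ℕ} {A B : Finset (St L)} (hB : B = A ∨ B = Aᶜ) (Q : Finset (St L)) :
    eS B Q = eS A Q := by
  rcases hB with h | h
  · rw [h]
  · rw [h, eS_compl]

theorem cov_child {L q : ℕ} [NeZero q] {Ω : Vec L q} (hΩ : nsq Ω = 1) {A B : Finset (St L)}
    (hB : B = A ∨ B = Aᶜ) (Q : Finset (St L)) {k g : ℝ} (hg : 0 ≤ g) (hQ : entropy Q Ω ≤ g)
    (ih : ∀ B : Finset (St L), B = A ∨ B = Aᶜ → 2 * (B ∩ Q).card ≤ Q.card →
      entropy (B ∩ Q) Ω ≤ k) :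
    entropy (B ∩ Q) Ω ≤ k + g := by
  by_cases h : 2 * (B ∩ Q).card ≤ Q.card
  · linarith [ih B hB h]
  · have h1 := cov_card B Q
    have h2 := ih Bᶜ (by
      rcases hB with e | e
      · right; rw [e]
      · left; rw [e, compl_compl]) (by omega)
    have e : B ∩ Q = Q \ (Bᶜ ∩ Q) := by
      ext z
      simp only [Finset.mem_inter, Finset.mem_sdiff, Finset.mem_compl]
      tauto
    have h3 := ent_sdiff (X := Q) (Y := Bᶜ ∩ Q) Finset.inter_subset_right hΩ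
    rw [e]
    linarith

theorem cov_add {L q : ℕ} [NeZero q] {Ω : Vec L q} (hΩ : nsq Ω = 1) (A B : Finset (St L))
    {Q Q' : Finset (St L)} (hd : Disjoint Q Q') {k g g' : ℝ}
    (h : entropy (B ∩ Q) Ω ≤ k * eS A Q + g) (h' : entropy (B ∩ Q') Ω ≤ k * eS A Q' + g') :
    entropy (B ∩ (Q ∪ Q')) Ω ≤ k * eS A (Q ∪ Q') + (g + g') := by
  have h1 : Disjoint (B ∩ Q) (B ∩ Q') :=
    hd.mono Finset.inter_subset_right Finset.inter_subset_right
  have h3 := ent_union h1 hΩ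
  rw [eS_union A hd, Finset.inter_union_distrib_left]
  push_cast
  linarith

theorem cov_four {L q : ℕ} [NeZero q] {Ω : Vec L q} (hΩ : nsq Ω = 1) (A B : Finset (St L))
    {x1 xm x2 y1 ym y2 : ℕ} (a1 : x1 ≤ xm) (a2 : xm ≤ x2) (b1 : y1 ≤ ym) (b2 : ym ≤ y2) {k g : ℝ}
    (h11 : entropy (B ∩ box L x1 xm y1 ym) Ω ≤ k * eS A (box L x1 xm y1 ym) + g)
    (h12 : entropy (B ∩ box L x1 xm ym y2) Ω ≤ k * eS A (box L x1 xm ym y2) + g)
    (h21 : entropy (B ∩ box L xm x2 y1 ym) Ω ≤ k * eS A (box L xm x2 y1 ym) + g)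
    (h22 : entropy (B ∩ box L xm x2 ym y2) Ω ≤ k * eS A (box L xm x2 ym y2) + g) :
    entropy (B ∩ box L x1 x2 y1 y2) Ω ≤ k * eS A (box L x1 x2 y1 y2) + 4 * g := by
  obtain ⟨e1, d1⟩ := box_split_y L x1 xm y1 ym y2 b1 b2
  obtain ⟨e2, d2⟩ := box_split_y L xm x2 y1 ym y2 b1 b2
  obtain ⟨e3, d3⟩ := box_split_x L x1 xm x2 y1 y2 a1 a2
  have p1 := cov_add hΩ A B d1 h11 h12
  have p2 := cov_add hΩ A B d2 h21 h22
  rw [← e1] at p1
  rw [← e2] at p2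
  have p3 := cov_add hΩ A B d3 p1 p2
  rw [← e3] at p3
  linarith

theorem cov_sub {L x1 x2 y1 y2 u1 u2 v1 v2 : ℕ} (a1 : x1 ≤ u1) (a2 : u2 ≤ x2) (b1 : y1 ≤ v1)
    (b2 : v2 ≤ y2) : box L u1 u2 v1 v2 ⊆ box L x1 x2 y1 y2 := by
  intro z
  simp only [geo_mem]
  omega

theorem cov_low {L x1 x2 y1 y2 m : ℕ} (a1 : x1 + m ≤ x2) (a2 : x2 ≤ L) (b1 : y1 + m ≤ y2)
    (b2 : y2 ≤ L) : m * m ≤ (box L x1 x2 y1 y2).card := by
  rw [box_card L x1 x2 y1 y2 a2 b2]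
  exact Nat.mul_le_mul (by omega) (by omega)

theorem cov_iso {L : ℕ} (B : Finset (St L)) {x1 x2 y1 y2 u1 u2 v1 v2 m : ℕ} (a1 : x1 + m ≤ x2)
    (a2 : x2 ≤ L) (b1 : y1 + m ≤ y2) (b2 : y2 ≤ L) (c1 : x1 ≤ u1) (c2 : u1 + m / 2 ≤ u2)
    (c3 : u2 ≤ x2) (d1 : y1 ≤ v1) (d2 : v1 + m / 2 ≤ v2) (d3 : v2 ≤ y2)
    (h : 2 * (B ∩ box L x1 x2 y1 y2).card ≤ (box L x1 x2 y1 y2).card)
    (h' : ¬ 2 * (B ∩ box L u1 u2 v1 v2).card ≤ (box L u1 u2 v1 v2).card) :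
    m ≤ 5 * eS B (box L x1 x2 y1 y2) := by
  have h1 := cov_low (L := L) a1 a2 b1 b2
  have h2 := cov_low (L := L) c2 (c3.trans a2) d2 (d3.trans b2)
  have h3 : (B ∩ box L u1 u2 v1 v2).card ≤ (B ∩ box L x1 x2 y1 y2).card :=
    Finset.card_le_card (Finset.inter_subset_inter_left (cov_sub c1 c3 d1 d3))
  have h4 := cov_card B (box L x1 x2 y1 y2)
  rcases iso_box B a1 a2 b1 b2 with h5 | h5 | h5
  · omega
  · generalize eS B (box L x1 x2 y1 y2) = e at h5 ⊢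
    have h6 : m / 2 * (m / 2) < 2 * e ^ 2 := by omega
    have h7 : m / 2 < 2 * e := by
      by_contra hc
      have h8 := Nat.mul_le_mul (not_lt.1 hc) (not_lt.1 hc)
      nlinarith
    omega
  · generalize eS B (box L x1 x2 y1 y2) = e at h5 ⊢
    have h6 : m * m ≤ 2 * e ^ 2 := by omega
    by_contra hc
    have h7 : 5 * e + 1 ≤ m := by omega
    have h8 := Nat.mul_le_mul h7 h7
    nlinarith

/-- Strong induction on `m`. `m = 0`: the box has at most one site, so `B ∩ box = ∅`. Otherwise cut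
both sides in the middle; the four children have sides in `{m / 2, m / 2 + 1}`. A child `Q'` with
`B` in the minority: induction. Otherwise `Bᶜ` is in the minority in `Q'`,
`B ∩ Q' = Q' \ (Bᶜ ∩ Q')`, `ent_sdiff`, cost `G (m / 2 + 1)`; then `(m / 2) ^ 2 < 2 |B ∩ Q|`,
`0 < |B ∩ Q|`, `m ^ 2 ≤ 2 |Bᶜ ∩ Q|`, and `iso_box` gives `m ≤ 5 * eS A Q ≤ M`. -/
theorem cov_rec {L q : ℕ} [NeZero q] {Ω : Vec L q} (hΩ : nsq Ω = 1) (A : Finset (St L))
    (G K : ℕ → ℝ) (M : ℕ) (hM : 5 * eS A Finset.univ ≤ M) (hG0 : ∀ l, 0 ≤ G l)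
    (hG : ∀ l, 1 ≤ l → BoxB Ω l (G l)) (hK0 : ∀ m, 0 ≤ K m) (hmono : Monotone K)
    (hK : ∀ m, 1 ≤ m → m ≤ M → K (m / 2) + 20 * G (m / 2 + 1) / m ≤ K m) (m : ℕ) :
    ∀ (x1 x2 y1 y2 : ℕ) (B : Finset (St L)), B = A ∨ B = Aᶜ → x1 + m ≤ x2 → x2 ≤ x1 + m + 1 →
      x2 ≤ L → y1 + m ≤ y2 → y2 ≤ y1 + m + 1 → y2 ≤ L →
      2 * (B ∩ box L x1 x2 y1 y2).card ≤ (box L x1 x2 y1 y2).card →
      entropy (B ∩ box L x1 x2 y1 y2) Ω ≤ K m * eS A (box L x1 x2 y1 y2) := by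
  induction m using Nat.strong_induction_on with
  | _ m ih =>
  intro x1 x2 y1 y2 B hB a1 a2 a3 b1 b2 b3 hc
  have he : (0 : ℝ) ≤ eS A (box L x1 x2 y1 y2) := Nat.cast_nonneg _
  rcases Nat.eq_zero_or_pos m with h0 | h0
  · have h1 := box_card_le L x1 x2 y1 y2
    have h2 : (x2 - x1) * (y2 - y1) ≤ 1 * 1 := Nat.mul_le_mul (by omega) (by omega)
    have h3 : B ∩ box L x1 x2 y1 y2 = ∅ := Finset.card_eq_zero.1 (by omega)
    rw [h3, ent_empty hΩ]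
    exact mul_nonneg (hK0 _) he
  have ih' := ih (m / 2) (by omega)
  obtain ⟨xm, hxm⟩ : ∃ xm, xm = x1 + (x2 - x1) / 2 := ⟨_, rfl⟩
  obtain ⟨ym, hym⟩ : ∃ ym, ym = y1 + (y2 - y1) / 2 := ⟨_, rfl⟩
  by_cases hs : m ≤ 5 * eS A (box L x1 x2 y1 y2)
  · have hg := hG0 (m / 2 + 1)
    have hb := hG (m / 2 + 1) (by omega)
    have key : ∀ u1 u2 v1 v2 : ℕ, u1 + m / 2 ≤ u2 → u2 ≤ u1 + m / 2 + 1 → u2 ≤ L →
        v1 + m / 2 ≤ v2 → v2 ≤ v1 + m / 2 + 1 → v2 ≤ L →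
        entropy (B ∩ box L u1 u2 v1 v2) Ω ≤ K (m / 2) * eS A (box L u1 u2 v1 v2) +
          G (m / 2 + 1) := fun u1 u2 v1 v2 c1 c2 c3 d1 d2 d3 =>
      cov_child hΩ hB _ hg (hb u1 u2 v1 v2 (by omega) (by omega))
        fun B' hB' h => ih' u1 u2 v1 v2 B' hB' c1 c2 c3 d1 d2 d3 h
    have h1 := cov_four hΩ A B (x1 := x1) (xm := xm) (x2 := x2) (y1 := y1) (ym := ym) (y2 := y2)
      (by omega) (by omega) (by omega) (by omega)
      (key _ _ _ _ (by omega) (by omega) (by omega) (by omega) (by omega) (by omega))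
      (key _ _ _ _ (by omega) (by omega) (by omega) (by omega) (by omega) (by omega))
      (key _ _ _ _ (by omega) (by omega) (by omega) (by omega) (by omega) (by omega))
      (key _ _ _ _ (by omega) (by omega) (by omega) (by omega) (by omega) (by omega))
    have h2 := eS_mono A (Finset.subset_univ (box L x1 x2 y1 y2))
    have h3 := mul_le_mul_of_nonneg_right (hK m h0 (by omega)) he
    have hm : (0 : ℝ) < m := by exact_mod_cast h0
    have h4 : (m : ℝ) ≤ 5 * eS A (box L x1 x2 y1 y2) := by exact_mod_cast hs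
    have h5 : 4 * G (m / 2 + 1) ≤ 20 * G (m / 2 + 1) / m * eS A (box L x1 x2 y1 y2) := by
      rw [div_mul_eq_mul_div, le_div_iff₀ hm]
      nlinarith
    linarith
  · have key : ∀ u1 u2 v1 v2 : ℕ, x1 ≤ u1 → u1 + m / 2 ≤ u2 → u2 ≤ u1 + m / 2 + 1 → u2 ≤ x2 →
        y1 ≤ v1 → v1 + m / 2 ≤ v2 → v2 ≤ v1 + m / 2 + 1 → v2 ≤ y2 →
        entropy (B ∩ box L u1 u2 v1 v2) Ω ≤ K (m / 2) * eS A (box L u1 u2 v1 v2) + 0 :=
      fun u1 u2 v1 v2 c0 c1 c2 c3 d0 d1 d2 d3 => by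
        rw [add_zero]
        refine ih' u1 u2 v1 v2 B hB c1 c2 (by omega) d1 d2 (by omega) ?_
        by_contra hn
        exact hs (cov_eS hB _ ▸ cov_iso B a1 a3 b1 b3 c0 c1 c3 d0 d1 d3 hc hn)
    have h1 := cov_four hΩ A B (x1 := x1) (xm := xm) (x2 := x2) (y1 := y1) (ym := ym) (y2 := y2)
      (by omega) (by omega) (by omega) (by omega)
      (key _ _ _ _ (by omega) (by omega) (by omega) (by omega) (by omega) (by omega) (by omega)
        (by omega))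
      (key _ _ _ _ (by omega) (by omega) (by omega) (by omega) (by omega) (by omega) (by omega)
        (by omega))
      (key _ _ _ _ (by omega) (by omega) (by omega) (by omega) (by omega) (by omega) (by omega)
        (by omega))
      (key _ _ _ _ (by omega) (by omega) (by omega) (by omega) (by omega) (by omega) (by omega)
        (by omega))
    have h2 := mul_le_mul_of_nonneg_right (hmono (Nat.div_le_self m 2)) he
    linarith

end Vale.Agent.P356E
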