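import Vale.Agent.P356E.Cov

namespace Vale.Agent.P356E

open Matrix Vale.Agent.P356 Vale.Agent.P356F Vale.Agent.P356G
open scoped Matrix.Norms.L2Operator

theorem cov2_box (L : ℕ) : box L 0 L 0 L = Finset.univ := by
  ext z
  simp [box]

theorem cov2_step {C ε : ℝ} (hC : 0 ≤ C) (hε : 0 < ε) (m : ℕ) (hm : 1 ≤ m) :
    20 * C / (1 - (2 : ℝ) ^ (-ε)) * ((m / 2 : ℕ) : ℝ) ^ ε +
      20 * (C * ((m / 2 + 1 : ℕ) : ℝ) ^ (1 + ε)) / m ≤
      20 * C / (1 - (2 : ℝ) ^ (-ε)) * (m : ℝ) ^ ε := by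
  have h2 : (2 : ℝ) ^ (-ε) < 1 := Real.rpow_lt_one_of_one_lt_of_neg (by norm_num) (by linarith)
  have hd : 0 < 1 - (2 : ℝ) ^ (-ε) := by linarith
  have hm0 : (0 : ℝ) < m := by exact_mod_cast hm
  have hD : 0 ≤ 20 * C / (1 - (2 : ℝ) ^ (-ε)) := div_nonneg (by linarith) hd.le
  have h1 : ((m / 2 : ℕ) : ℝ) ^ ε ≤ (2 : ℝ) ^ (-ε) * (m : ℝ) ^ ε := by
    have ha : ((m / 2 : ℕ) : ℝ) ≤ (m : ℝ) / 2 := by
      have := @Nat.cast_div_le ℝ _ _ _ m 2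
      simpa using this
    calc ((m / 2 : ℕ) : ℝ) ^ ε ≤ ((m : ℝ) / 2) ^ ε :=
          Real.rpow_le_rpow (Nat.cast_nonneg _) ha hε.le
      _ = (2 : ℝ) ^ (-ε) * (m : ℝ) ^ ε := by
          rw [Real.div_rpow hm0.le (by norm_num), Real.rpow_neg (by norm_num)]
          ring
  have h3 : ((m / 2 + 1 : ℕ) : ℝ) ^ (1 + ε) ≤ m * (m : ℝ) ^ ε := by
    have ha : ((m / 2 + 1 : ℕ) : ℝ) ≤ (m : ℝ) := by
      exact_mod_cast (by omega : m / 2 + 1 ≤ m)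
    calc ((m / 2 + 1 : ℕ) : ℝ) ^ (1 + ε) ≤ (m : ℝ) ^ (1 + ε) :=
          Real.rpow_le_rpow (Nat.cast_nonneg _) ha (by linarith)
      _ = m * (m : ℝ) ^ ε := by rw [Real.rpow_add hm0, Real.rpow_one]
  have h4 : 20 * (C * ((m / 2 + 1 : ℕ) : ℝ) ^ (1 + ε)) / m ≤ 20 * C * (m : ℝ) ^ ε := by
    rw [div_le_iff₀ hm0]
    have := mul_le_mul_of_nonneg_left h3 hC
    nlinarith
  have h5 := mul_le_mul_of_nonneg_left h1 hD
  have h6 : 20 * C / (1 - (2 : ℝ) ^ (-ε)) * (m : ℝ) ^ ε =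
      20 * C / (1 - (2 : ℝ) ^ (-ε)) * ((2 : ℝ) ^ (-ε) * (m : ℝ) ^ ε) + 20 * C * (m : ℝ) ^ ε := by
    field_simp
    ring
  linarith

/-- `cov_rec` for the whole grid (`box L 0 L 0 L = univ`, `m = L`, `B` the minority colour,
`ent_compl`), `M = 10 * bdry A`, `G l = C l ^ (1 + ε)`, `K m = D * (min m M) ^ ε` with
`D = 20 C / (1 - 2 ^ (-ε))`; note `m / 2 + 1 ≤ m` for `1 ≤ m` -/
theorem cover2 {q : ℕ} [NeZero q] {F : ∀ L : ℕ, Vec L q → Prop}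
    (hF : ∀ L Ω, F L Ω → nsq Ω = 1) {ε : ℝ} (hε : 0 < ε) (H : AllB F (1 + ε)) :
    ∃ C : ℝ, ∀ (L : ℕ) (Ω : Vec L q), F L Ω → ∀ A : Finset (St L),
      entropy A Ω ≤ C * (bdry A : ℝ) ^ (1 + ε) := by
  obtain ⟨C, hC, H⟩ := H
  have h2 : (2 : ℝ) ^ (-ε) < 1 := Real.rpow_lt_one_of_one_lt_of_neg (by norm_num) (by linarith)
  have hd : 0 < 1 - (2 : ℝ) ^ (-ε) := by linarith
  have hD : 0 ≤ 20 * C / (1 - (2 : ℝ) ^ (-ε)) := div_nonneg (by linarith) hd.le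
  refine ⟨20 * C / (1 - (2 : ℝ) ^ (-ε)) * (10 : ℝ) ^ ε * 2, fun L Ω hΩ A => ?_⟩
  have hu := eS_univ A
  have key := cov_rec (hF L Ω hΩ) A (fun l => C * (l : ℝ) ^ (1 + ε))
    (fun m => 20 * C / (1 - (2 : ℝ) ^ (-ε)) * ((min m (10 * bdry A) : ℕ) : ℝ) ^ ε)
    (10 * bdry A) (by omega)
    (fun l => mul_nonneg hC (Real.rpow_nonneg (Nat.cast_nonneg _) _))
    (fun l hl => H L Ω hΩ l hl)
    (fun m => mul_nonneg hD (Real.rpow_nonneg (Nat.cast_nonneg _) _))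
    (fun a b hab => mul_le_mul_of_nonneg_left
      (Real.rpow_le_rpow (Nat.cast_nonneg _)
        (by exact_mod_cast min_le_min_right _ hab) hε.le) hD)
    (fun m hm hM => by
      have e1 : min (m / 2) (10 * bdry A) = m / 2 := min_eq_left (by omega)
      have e2 : min m (10 * bdry A) = m := min_eq_left hM
      simp only [e1, e2]
      exact cov2_step hC hε m hm) L 0 L 0 L
  simp only [cov2_box, Finset.inter_univ] at key
  have hfin : 20 * C / (1 - (2 : ℝ) ^ (-ε)) * ((min L (10 * bdry A) : ℕ) : ℝ) ^ ε *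
      (eS A Finset.univ : ℝ) ≤
      20 * C / (1 - (2 : ℝ) ^ (-ε)) * (10 : ℝ) ^ ε * 2 * (bdry A : ℝ) ^ (1 + ε) := by
    have h1 : ((min L (10 * bdry A) : ℕ) : ℝ) ^ ε ≤ (10 : ℝ) ^ ε * (bdry A : ℝ) ^ ε := by
      rw [← Real.mul_rpow (by norm_num) (Nat.cast_nonneg _)]
      refine Real.rpow_le_rpow (Nat.cast_nonneg _) ?_ hε.le
      exact_mod_cast min_le_right _ _
    have h3 : (eS A Finset.univ : ℝ) ≤ 2 * (bdry A : ℝ) := by exact_mod_cast hu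
    have h4 : (bdry A : ℝ) ^ (1 + ε) = (bdry A : ℝ) * (bdry A : ℝ) ^ ε := by
      rw [Real.rpow_add' (Nat.cast_nonneg _) (by linarith), Real.rpow_one]
    have h5 := mul_le_mul h1 h3 (Nat.cast_nonneg _)
      (mul_nonneg (Real.rpow_nonneg (by norm_num) _) (Real.rpow_nonneg (Nat.cast_nonneg _) _))
    have h6 := mul_le_mul_of_nonneg_left h5 hD
    rw [h4]
    calc _ = 20 * C / (1 - (2 : ℝ) ^ (-ε)) *
          (((min L (10 * bdry A) : ℕ) : ℝ) ^ ε * (eS A Finset.univ : ℝ)) := by ring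
      _ ≤ _ := h6
      _ = _ := by ring
  have hc := Finset.card_add_card_compl A
  rw [← Finset.card_univ] at hc
  by_cases hA : 2 * A.card ≤ (Finset.univ : Finset (St L)).card
  · exact (key A (Or.inl rfl) (by omega) (by omega) le_rfl (by omega) (by omega) le_rfl hA).trans
      hfin
  · rw [← ent_compl]
    exact (key Aᶜ (Or.inr rfl) (by omega) (by omega) le_rfl (by omega) (by omega) le_rfl
      (by omega)).trans hfin

end Vale.Agent.P356E
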