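import Vale.Agent.P356G.Defs
import Vale.Agent.P356F.Nrm

namespace Vale.Agent.P356E

open Matrix Vale.Agent.P356 Vale.Agent.P356F Vale.Agent.P356G
open scoped Matrix.Norms.L2Operator

section Calc

variable {n : Type} [Fintype n] [DecidableEq n]

/-- commutator -/
def cm (a b : Matrix n n ℂ) : Matrix n n ℂ := a * b - b * a

/-- the unitary group of `H` -/
noncomputable def uu (H : Matrix n n ℂ) (t : ℝ) : Matrix n n ℂ :=
  hf H fun x => Complex.exp (Complex.I * t * x)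

/-- Heisenberg evolution -/
noncomputable def tau (H : Matrix n n ℂ) (t : ℝ) (a : Matrix n n ℂ) : Matrix n n ℂ :=
  uu H t * a * uu H (-t)

end Calc

/-- sites of the grid -/
abbrev St (L : ℕ) : Type := Fin L × Fin L

/-- vectors -/
abbrev Vec (L q : ℕ) : Type := (Fin L × Fin L → Fin q) → ℂ

/-- one local term for each site -/
structure Sys (L q R : ℕ) (J Δ E0 : ℝ) (g : St L → Op L q) (Ω : Vec L q) : Prop where
  gs : GS (∑ x, g x) Ω E0 Δ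
  herm : ∀ x, (g x).IsHermitian
  loc : ∀ x, Loc (fun z => z ∈ geoSq L R x) (g x)
  bd : ∀ x, ‖g x‖ ≤ J

/-- quasi-local terms that almost annihilate `Ω` -/
structure QL {L q : ℕ} (J Δ E0 ε κ : ℝ) (a : St L → Op L q) (c : St L → ℝ) (Ω : Vec L q) :
    Prop where
  gs : GS (∑ x, a x) Ω E0 Δ
  herm : ∀ x, (a x).IsHermitian
  bd : ∀ x, ‖a x‖ ≤ J
  cbd : ∀ x, |c x| ≤ J
  csum : ∑ x, c x = E0
  kill : ∀ x, nn ((a x - (c x : ℂ) • (1 : Op L q)) *ᵥ Ω) ≤ ε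
  comm : ∀ (x z : St L) (P : Op L q), Loc (fun y => y = z) P → ‖P‖ ≤ 1 →
    ‖cm (a x) P‖ ≤ κ * Real.exp (-(dist1 x z : ℝ))

/-- sup distance to the box -/
def hb (L x1 x2 y1 y2 : ℕ) (z : St L) : ℕ :=
  max (max (x1 - z.1.val) (z.1.val + 1 - x2)) (max (y1 - z.2.val) (z.2.val + 1 - y2))

/-- edges starting in `B` whose ends have different colours -/
def eS {L : ℕ} (A B : Finset (St L)) : ℕ :=
  (Finset.univ.filter fun e : St L × St L =>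
    e.1 ∈ B ∧ dist1 e.1 e.2 = 1 ∧ (e.1 ∈ A ↔ e.2 ∉ A)).card

/-- a uniform power bound for boxes in a family of states -/
def AllB {q : ℕ} (F : ∀ L : ℕ, Vec L q → Prop) (a : ℝ) : Prop :=
  ∃ C : ℝ, 0 ≤ C ∧ ∀ (L : ℕ) (Ω : Vec L q), F L Ω → ∀ l : ℕ, 1 ≤ l → BoxB Ω l (C * (l : ℝ) ^ a)

/-- the recursion between scales in a family of states -/
def Rec {q : ℕ} (F : ∀ L : ℕ, Vec L q → Prop) (C : ℝ) : Prop :=
  ∀ (L : ℕ) (Ω : Vec L q), F L Ω → ∀ (k b V x1 x2 y1 y2 : ℕ) (G : ℝ), 1 ≤ k → b ≤ 2 ^ k →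
    1 ≤ V → V ≤ b → x2 ≤ x1 + b → y2 ≤ y1 + b → 0 ≤ G → BoxB Ω V G →
    C * (k : ℝ) ^ 16 * (entropy (box L x1 x2 y1 y2) Ω + 1) ≤ (V : ℝ) ^ 2 →
    entropy (box L x1 x2 y1 y2) Ω ≤ C * (k : ℝ) ^ 16 * ((b : ℝ) / V) * (G + 1)

/-- ground states of admissible gapped Hamiltonians -/
def Fam (q R : ℕ) (J Δ : ℝ) (L : ℕ) (Ω : Vec L q) : Prop :=
  ∃ (h : Finset (St L) → Op L q) (E0 : ℝ), Admissible L q R J h ∧ HasGap (ham L q R h) E0 Δ Ω

end Vale.Agent.P356E
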