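import Vale.Agent.P356E.Nrm

namespace Vale.Agent.P356E

open Matrix Vale.Agent.P356 Vale.Agent.P356F Vale.Agent.P356G
open scoped Matrix.Norms.L2Operator

theorem eS_compl {L : ℕ} (A B : Finset (St L)) : eS Aᶜ B = eS A B := by
  unfold eS
  refine congrArg _ (Finset.filter_congr fun e _ => ?_)
  simp only [Finset.mem_compl]
  tauto

theorem eS_union {L : ℕ} (A : Finset (St L)) {B B' : Finset (St L)} (h : Disjoint B B') :
    eS A (B ∪ B') = eS A B + eS A B' := by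
  unfold eS
  rw [← Finset.card_union_of_disjoint, ← Finset.filter_or]
  · refine congrArg _ (Finset.filter_congr fun e _ => ?_)
    simp only [Finset.mem_union]
    tauto
  · exact Finset.disjoint_filter.2 fun e _ he he' => Finset.disjoint_left.1 h he.1 he'.1

theorem eS_mono {L : ℕ} (A : Finset (St L)) {B B' : Finset (St L)} (h : B ⊆ B') :
    eS A B ≤ eS A B' := by
  exact Finset.card_le_card (Finset.monotone_filter_right _ fun e _ he => ⟨h he.1, he.2⟩)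

/-- `bdry_compl`, `fin_symm` -/
theorem eS_univ {L : ℕ} (A : Finset (St L)) : eS A Finset.univ ≤ 2 * bdry A := by
  rw [two_mul]
  nth_rewrite 2 [← bdry_compl]
  refine le_trans (Finset.card_le_card fun e he => ?_) (Finset.card_union_le _ _)
  simp only [Finset.mem_union, Finset.mem_filter, Finset.mem_univ, true_and, Finset.mem_compl]
    at he ⊢
  tauto

theorem iso_card {L a b m : ℕ} (S : Finset (Fin L)) (h1 : a + m ≤ b) (h2 : b ≤ L)
    (h : ∀ j : Fin L, a ≤ j.val → j.val < b → j ∈ S) : m ≤ S.card := by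
  have h3 : Finset.Ico a b ⊆ S.image Fin.val := fun j hj => by
    rw [Finset.mem_Ico] at hj
    exact Finset.mem_image.2 ⟨⟨j, by omega⟩, h _ hj.1 hj.2, rfl⟩
  have h4 := (Finset.card_le_card h3).trans Finset.card_image_le
  rw [Nat.card_Ico] at h4
  omega

/-- as `isoper` inside the box: a row (column) of the box with both colours contains the start of
an edge counted by `eS` (`fin_edge`); either all rows or all columns are mixed, or there are a one
colour row and a one colour column, of the same colour, and all points of the other colour lie in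
mixed rows and mixed columns -/
theorem iso_box {L : ℕ} (A : Finset (St L)) {x1 x2 y1 y2 m : ℕ} (hx : x1 + m ≤ x2) (hxL : x2 ≤ L)
    (hy : y1 + m ≤ y2) (hyL : y2 ≤ L) :
    m ≤ eS A (box L x1 x2 y1 y2) ∨
      (A ∩ box L x1 x2 y1 y2).card ≤ eS A (box L x1 x2 y1 y2) ^ 2 ∨
      (Aᶜ ∩ box L x1 x2 y1 y2).card ≤ eS A (box L x1 x2 y1 y2) ^ 2 := by
  set B := box L x1 x2 y1 y2 with hB
  obtain ⟨E, hE, hE'⟩ : ∃ E : Finset (St L × St L), E.card = eS A B ∧ ∀ u ∈ B, ∀ v ∈ B, u ∈ A →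
      v ∉ A → ∃ e ∈ E, finBtw u v e.1 := by
    refine ⟨_, rfl, fun u hu v hv h1 h2 => ?_⟩
    obtain ⟨a, b, ha, hb, h3, h4⟩ := fin_edge A v h2 _ u h1 rfl
    refine ⟨(a, b), Finset.mem_filter.2 ⟨Finset.mem_univ _, ?_, h3, iff_of_true ha hb⟩, h4⟩
    simp only [hB, geo_mem, finBtw] at hu hv h4 ⊢
    omega
  have hI : (E.image fun e => e.1.1).card ≤ eS A B := hE ▸ Finset.card_image_le
  have hJ : (E.image fun e => e.1.2).card ≤ eS A B := hE ▸ Finset.card_image_le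
  have row : ∀ i j j', (i, j) ∈ B → (i, j') ∈ B → (i, j) ∈ A → (i, j') ∉ A →
      i ∈ E.image fun e => e.1.1 := fun i j j' a b c d => by
    obtain ⟨e, he, h⟩ := hE' _ a _ b c d
    refine Finset.mem_image.2 ⟨e, he, Fin.ext ?_⟩
    simp only [finBtw] at h
    omega
  have col : ∀ i i' j, (i, j) ∈ B → (i', j) ∈ B → (i, j) ∈ A → (i', j) ∉ A →
      j ∈ E.image fun e => e.1.2 := fun i j j' a b c d => by
    obtain ⟨e, he, h⟩ := hE' _ a _ b c d
    refine Finset.mem_image.2 ⟨e, he, Fin.ext ?_⟩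
    simp only [finBtw] at h
    omega
  have hP : ∀ S : Finset (St L), (∀ z ∈ S, z.1 ∈ E.image (fun e => e.1.1) ∧
      z.2 ∈ E.image (fun e => e.1.2)) → S.card ≤ eS A B ^ 2 := fun S hS => by
    refine (Finset.card_le_card fun z hz => Finset.mem_product.2 (hS z hz)).trans ?_
    rw [Finset.card_product, sq]
    exact Nat.mul_le_mul hI hJ
  by_cases h1 : ∀ z ∈ B, (∃ j, (z.1, j) ∈ B ∧ (z.1, j) ∉ A) ∧ ∃ i, (i, z.2) ∈ B ∧ (i, z.2) ∉ A
  · refine Or.inr (Or.inl (hP _ fun z hz => ?_))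
    rw [Finset.mem_inter] at hz
    obtain ⟨⟨j, a, b⟩, i, c, d⟩ := h1 z hz.2
    exact ⟨row _ z.2 _ hz.2 a hz.1 b, col z.1 _ _ hz.2 c hz.1 d⟩
  by_cases h2 : ∀ z ∈ B, (∃ j, (z.1, j) ∈ B ∧ (z.1, j) ∈ A) ∧ ∃ i, (i, z.2) ∈ B ∧ (i, z.2) ∈ A
  · refine Or.inr (Or.inr (hP _ fun z hz => ?_))
    rw [Finset.mem_inter, Finset.mem_compl] at hz
    obtain ⟨⟨j, a, b⟩, i, c, d⟩ := h2 z hz.2
    exact ⟨row _ _ z.2 a hz.2 b hz.1, col _ z.1 _ c hz.2 d hz.1⟩
  left
  simp only [not_forall, not_and_or, not_exists, not_not, ← imp_iff_not_or] at h1 h2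
  obtain ⟨z, hz, h1⟩ := h1
  obtain ⟨w, hw, h2⟩ := h2
  have k : ∀ i j : Fin L, x1 ≤ i.val → i.val < x2 → y1 ≤ j.val → j.val < y2 → (i, j) ∈ B :=
    fun i j a b c d => geo_mem.2 ⟨a, b, c, d⟩
  obtain ⟨z1, z2, z3, z4⟩ := geo_mem.1 hz
  obtain ⟨w1, w2, w3, w4⟩ := geo_mem.1 hw
  rcases h1 with h1 | h1 <;> rcases h2 with h2 | h2
  · exact (iso_card _ hy hyL fun j a b => col _ _ _ (k _ _ z1 z2 a b) (k _ _ w1 w2 a b)
      (h1 _ (k _ _ z1 z2 a b)) (h2 _ (k _ _ w1 w2 a b))).trans hJ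
  · exact absurd (h1 _ (k _ _ z1 z2 w3 w4)) (h2 _ (k _ _ z1 z2 w3 w4))
  · exact absurd (h1 _ (k _ _ w1 w2 z3 z4)) (h2 _ (k _ _ w1 w2 z3 z4))
  · exact (iso_card _ hx hxL fun j a b => row _ _ _ (k _ _ a b z3 z4) (k _ _ a b w3 w4)
      (h1 _ (k _ _ a b z3 z4)) (h2 _ (k _ _ a b w3 w4))).trans hI

end Vale.Agent.P356E
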