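import Vale.Agent.P356E.Uni

namespace Vale.Agent.P356E

open Matrix Vale.Agent.P356 Vale.Agent.P356F Vale.Agent.P356G
open scoped Matrix.Norms.L2Operator

variable {n : Type} [Fintype n] [DecidableEq n]

theorem lr_alg {A : Type*} [Ring A] [Algebra ℂ A] {H K X U V : A} (h : K * U = U * K) :
    (-(Complex.I • (K * U)) * X + U * (Complex.I • (H * X - X * H))) * V +
      U * X * (Complex.I • (K * V)) = Complex.I • (U * ((H - K) * X - X * (H - K)) * V) := by
  rw [h]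
  simp only [mul_sub, sub_mul, add_mul, smul_sub, neg_mul, smul_mul_assoc, mul_smul_comm,
    mul_assoc]
  abel

theorem lr_prod {A : Type*} [NormedRing A] [NormedAlgebra ℝ A] {f g k : ℝ → A} {f' g' k' : A}
    {r : ℝ} (hf : HasDerivAt f f' (-r)) (hg : HasDerivAt g g' r) (hk : HasDerivAt k k' r) :
    HasDerivAt (fun r => f (-r) * g r * k r)
      ((-f' * g r + f (-r) * g') * k r + f (-r) * g r * k') r := by
  have h1 := hf.scomp r (hasDerivAt_neg r)
  rw [neg_one_smul] at h1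
  exact (h1.mul hg).mul hk

theorem lr_deriv {H K : Matrix n n ℂ} (hH : H.IsHermitian) (hK : K.IsHermitian)
    (P : Matrix n n ℂ) (r : ℝ) :
    HasDerivAt (fun r => tau K (-r) (tau H r P))
      (Complex.I • tau K (-r) (cm (H - K) (tau H r P))) r := by
  have h2 := lr_prod (uu_deriv hK (-r)) (tau_deriv hH P r) (uu_deriv hK r)
  have e : ∀ r X, tau K (-r) X = uu K (-r) * X * uu K r := fun r X => by rw [tau, neg_neg]
  rw [cm, lr_alg (uu_comm hK rfl (-r))] at h2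
  simp only [e]
  exact h2

theorem lr_cm_deriv (a : Matrix n n ℂ) {f : ℝ → Matrix n n ℂ} {f' : Matrix n n ℂ} {r : ℝ}
    (h : HasDerivAt f f' r) : HasDerivAt (fun r => cm a (f r)) (cm a f') r :=
  (h.const_mul a).sub (h.mul_const a)

theorem lr_aux {ι : Type} [Fintype ι] [DecidableEq ι] (h : ι → Matrix n n ℂ)
    (hh : ∀ i, (h i).IsHermitian) {J N : ℝ} (hJ0 : 0 ≤ J) (hN0 : 0 ≤ N) (hJ : ∀ i, ‖h i‖ ≤ J)
    (adj : ι → ι → Prop) [DecidableRel adj] (hc : ∀ i j, ¬ adj i j → h i * h j = h j * h i)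
    (w : ι → ℝ) (hw : ∀ i, 0 < w i)
    (hN : ∀ i, ∑ j ∈ Finset.univ.filter (fun j => adj i j), w i / w j ≤ N)
    (P : Matrix n n ℂ) {c : ℝ} (h0 : ∀ i, w i * ‖cm (h i) P‖ ≤ c) {σ : ℝ} (hσ : |σ| = 1)
    {t : ℝ} (ht : 0 ≤ t) (i : ι) :
    w i * ‖cm (h i) (tau (∑ j, h j) (σ * t) P)‖ ≤ c * Real.exp (2 * J * N * t) := by
  have hs : ∀ S : Finset ι, (∑ j ∈ S, h j).IsHermitian := fun S => by
    unfold IsHermitian
    rw [conjTranspose_sum]
    exact Finset.sum_congr rfl fun j _ => hh j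
  obtain ⟨K, hK⟩ : ∃ K : ι → Matrix n n ℂ,
      ∀ i, K i = ∑ j ∈ Finset.univ.filter (fun j => ¬ adj i j), h j := ⟨_, fun _ => rfl⟩
  have K1 : ∀ i, (K i).IsHermitian := fun i => hK i ▸ hs _
  have K2 : ∀ i, h i * K i = K i * h i := fun i => by
    rw [hK, Finset.mul_sum, Finset.sum_mul]
    exact Finset.sum_congr rfl fun j hj => hc i j (Finset.mem_filter.1 hj).2
  have K3 : ∀ i, ∑ j, h j - K i = ∑ j ∈ Finset.univ.filter (fun j => adj i j), h j := fun i => by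
    rw [hK, ← Finset.sum_filter_add_sum_filter_not Finset.univ (fun j => adj i j),
      add_sub_cancel_right]
  have H1 := hs Finset.univ
  generalize ∑ j, h j = H at K3 H1
  obtain ⟨F, hF⟩ : ∃ F : ℝ → ι → Matrix n n ℂ,
      F = fun s i => w i • cm (h i) (tau (K i) (-(σ * s)) (tau H (σ * s) P)) := ⟨_, rfl⟩
  obtain ⟨G, hG⟩ : ∃ G : ℝ → ι → Matrix n n ℂ, G = fun s i => w i • cm (h i)
      (σ • (Complex.I • tau (K i) (-(σ * s)) (cm (H - K i) (tau H (σ * s) P)))) := ⟨_, rfl⟩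
  have F1 : ∀ s i, ‖F s i‖ = w i * ‖cm (h i) (tau H (σ * s) P)‖ := fun s i => by
    rw [hF]
    dsimp only
    rw [norm_smul, Real.norm_of_nonneg (hw i).le, ← tau_norm (K1 i) (-(σ * s)) (cm _ (tau H _ P)),
      tau_cm (K1 i), tau_fix (K1 i) (K2 i)]
  have F2 : ∀ s, HasDerivAt F (G s) s := fun s => by
    rw [hF, hG]
    refine hasDerivAt_pi.2 fun i => HasDerivAt.const_smul (w i) (lr_cm_deriv (h i) ?_)
    have := (lr_deriv H1 (K1 i) P (σ * s)).scomp s ((hasDerivAt_id s).const_mul σ)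
    rw [mul_one] at this
    exact this
  have F3 : ∀ s, ‖G s‖ ≤ 2 * J * N * ‖F s‖ + 0 := fun s => by
    rw [add_zero]
    refine (pi_norm_le_iff_of_nonneg (by positivity)).2 fun i => ?_
    have a1 : ‖cm (H - K i) (tau H (σ * s) P)‖ ≤
        ∑ j ∈ Finset.univ.filter (fun j => adj i j), ‖F s‖ / w j := by
      rw [K3, cm_sum]
      refine norm_sum_le_of_le _ fun j _ => ?_
      rw [le_div_iff₀ (hw j), mul_comm, ← F1]
      exact norm_le_pi_norm (F s) j
    have a2 : w i * ∑ j ∈ Finset.univ.filter (fun j => adj i j), ‖F s‖ / w j ≤ N * ‖F s‖ := by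
      refine le_trans (le_of_eq ?_) (mul_le_mul_of_nonneg_right (hN i) (norm_nonneg _))
      rw [Finset.mul_sum, Finset.sum_mul]
      exact Finset.sum_congr rfl fun j _ => by ring
    rw [hG]
    dsimp only
    rw [norm_smul, Real.norm_of_nonneg (hw i).le]
    refine (mul_le_mul_of_nonneg_left (cm_norm_le _ _) (hw i).le).trans ?_
    rw [norm_smul, norm_smul, Real.norm_eq_abs, hσ, Complex.norm_I, one_mul, one_mul,
      tau_norm (K1 i)]
    have a3 := (mul_le_mul_of_nonneg_left a1 (hw i).le).trans a2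
    have a4 := mul_le_mul (hJ i) a3 (mul_nonneg (hw i).le (norm_nonneg _)) hJ0
    linarith
  have c0 : 0 ≤ c := (mul_nonneg (hw i).le (norm_nonneg _)).trans (h0 i)
  have F0 : ‖F 0‖ ≤ c := (pi_norm_le_iff_of_nonneg c0).2 fun j => by
    rw [F1, mul_zero, tau_zero H1]
    exact h0 j
  have := norm_le_gronwallBound_of_norm_deriv_right_le (a := 0) (b := t)
    (fun s _ => (F2 s).continuousAt.continuousWithinAt) (fun s _ => (F2 s).hasDerivWithinAt) F0
    (fun s _ => F3 s) t ⟨ht, le_rfl⟩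
  rw [gronwallBound_ε0, sub_zero] at this
  rw [← F1]
  exact (norm_le_pi_norm (F t) i).trans this

/-- Lieb-Robinson bound. `H = ∑ j, h j`, `H' i = ∑ j` over `¬ adj i j` (commutes with `h i`),
`σ = ± 1` the sign of `-t`. Put `F s i = w i • cm (h i) (B i s)` with
`B i s = uu (H' i) (-(σ s)) * tau H (σ s) P * uu (H' i) (σ s) = tau (H' i) (-(σ s)) (tau H (σ s) P)`.
Then `‖F s i‖ = w i * ‖cm (h i) (tau H (σ s) P)‖` (`tau_fix`, `tau_cm`, `tau_norm`), the derivative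
of `B i` is `σ I • tau (H' i) (-(σ s)) (cm (H - H' i) (tau H (σ s) P))`, so
`‖F' s i‖ ≤ w i * 2 J * ∑ j adj i, ‖F s‖ / w j ≤ 2 J N ‖F s‖` for the sup norm on `ι → Matrix`.
Finish with `norm_le_gronwallBound_of_norm_deriv_right_le` and `tau_cm_norm`. -/
theorem lr {ι : Type} [Fintype ι] [DecidableEq ι] (h : ι → Matrix n n ℂ)
    (hh : ∀ i, (h i).IsHermitian) {J N : ℝ} (hJ0 : 0 ≤ J) (hN0 : 0 ≤ N) (hJ : ∀ i, ‖h i‖ ≤ J)
    (adj : ι → ι → Prop) [DecidableRel adj] (hc : ∀ i j, ¬ adj i j → h i * h j = h j * h i)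
    (w : ι → ℝ) (hw : ∀ i, 0 < w i)
    (hN : ∀ i, ∑ j ∈ Finset.univ.filter (fun j => adj i j), w i / w j ≤ N)
    (P : Matrix n n ℂ) {c : ℝ} (h0 : ∀ i, w i * ‖cm (h i) P‖ ≤ c) (t : ℝ) (i : ι) :
    w i * ‖cm (tau (∑ j, h j) t (h i)) P‖ ≤ c * Real.exp (2 * J * N * |t|) := by
  have hs : (∑ j, h j).IsHermitian := by
    unfold IsHermitian
    rw [conjTranspose_sum]
    exact Finset.sum_congr rfl fun j _ => hh j
  rw [tau_cm_norm hs]
  rcases le_total 0 t with ht | ht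
  · have := lr_aux h hh hJ0 hN0 hJ adj hc w hw hN P h0 (σ := -1) (by simp) ht i
    rw [neg_one_mul] at this
    rwa [abs_of_nonneg ht]
  · have := lr_aux h hh hJ0 hN0 hJ adj hc w hw hN P h0 (σ := 1) (by simp) (neg_nonneg.2 ht) i
    rw [one_mul] at this
    rwa [abs_of_nonpos ht]

end Vale.Agent.P356E
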