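import Vale.Agent.P356E.Nrm

namespace Vale.Agent.P356E

open Matrix Vale.Agent.P356 Vale.Agent.P356F Vale.Agent.P356G
open scoped Matrix.Norms.L2Operator

theorem par_size {Cc : ℝ} (hC : 1 ≤ Cc) {k b V l Lg n N : ℕ} (hb : b ≤ 2 ^ k) (hVb : V ≤ b)
    (hl : 1 ≤ l) (hLg : Lg = (2 * l + 1) ^ 2) (hn : n = ⌈Cc * (Lg : ℝ) ^ 2⌉₊)
    (hN : N = (b + 2 * (1 + 4 * n * V + l)) ^ 2) :
    (N : ℝ) ≤ ((2 : ℝ) ^ k * (1301 * Cc * (l : ℝ) ^ 4)) ^ 2 := by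
  have l1 : (1 : ℝ) ≤ l := by exact_mod_cast hl
  have hL1 : (Lg : ℝ) = (2 * l + 1) ^ 2 := by rw [hLg]; push_cast; ring
  have hL2 : (Lg : ℝ) ≤ 9 * (l : ℝ) ^ 2 := by rw [hL1]; nlinarith
  have hL0 : (0 : ℝ) ≤ Lg := Nat.cast_nonneg _
  have hL3 : (Lg : ℝ) ^ 2 ≤ 81 * (l : ℝ) ^ 4 := by
    calc (Lg : ℝ) ^ 2 ≤ (9 * (l : ℝ) ^ 2) ^ 2 := pow_le_pow_left₀ hL0 hL2 2
      _ = 81 * (l : ℝ) ^ 4 := by ring
  have l4 : (l : ℝ) ≤ (l : ℝ) ^ 4 := le_self_pow₀ l1 (by norm_num)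
  obtain ⟨y, hy⟩ : ∃ y : ℝ, y = Cc * (l : ℝ) ^ 4 := ⟨_, rfl⟩
  have y1 : (l : ℝ) ≤ y := by
    rw [hy]
    nlinarith
  have hn1 : (n : ℝ) ≤ 82 * y := by
    have h1 : (n : ℝ) < Cc * (Lg : ℝ) ^ 2 + 1 := by
      rw [hn]
      exact Nat.ceil_lt_add_one (by positivity)
    have h2 := mul_le_mul_of_nonneg_left hL3 (by linarith : (0 : ℝ) ≤ Cc)
    have h3 : Cc * (81 * (l : ℝ) ^ 4) = 81 * y := by rw [hy]; ring
    linarith
  obtain ⟨B, hB⟩ : ∃ B : ℝ, B = (2 : ℝ) ^ k := ⟨_, rfl⟩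
  have B1 : 1 ≤ B := by rw [hB]; exact one_le_pow₀ (by norm_num)
  have b1 : (b : ℝ) ≤ B := by rw [hB]; exact_mod_cast hb
  have v1 : (V : ℝ) ≤ B := le_trans (by exact_mod_cast hVb) b1
  have nv : (n : ℝ) * V ≤ 82 * y * B :=
    mul_le_mul hn1 v1 (Nat.cast_nonneg _) (by linarith)
  have yB : y ≤ y * B := le_mul_of_one_le_right (by linarith) B1
  have By : B ≤ y * B := le_mul_of_one_le_left (by linarith) (by linarith)
  have hN1 : (N : ℝ) = ((b : ℝ) + 2 * (1 + 4 * n * V + l)) ^ 2 := by rw [hN]; push_cast; ring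
  rw [hN1, ← hB, mul_assoc 1301, ← hy]
  refine pow_le_pow_left₀ (by positivity) ?_ 2
  nlinarith

/-- With `l = K k`: `n ≤ 2 Cc Lg ^ 2`, `Lg ≤ 9 l ^ 2`, `N ≤ (2 ^ k * C l ^ 4) ^ 2`. Choose `K` with
`6 log 2 ≤ c K / 2` and `C' l ^ 24 ≤ exp (c l / 2)` for all `l ≥ K`; for the last claim do the same
with `2 ^ Lg ≥ 2 ^ l`, or shrink `c` to `min c (log 2)` first so that `N ≤ exp (c l) ≤ 2 ^ l`. -/
theorem par {Cc A c : ℝ} (hC : 1 ≤ Cc) (hA : 1 ≤ A) (hc : 0 < c) : ∃ K : ℕ, A ≤ K ∧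
    ∀ k b V l Lg n N : ℕ, 1 ≤ k → b ≤ 2 ^ k → 1 ≤ V → V ≤ b → l = K * k →
      Lg = (2 * l + 1) ^ 2 → n = ⌈Cc * (Lg : ℝ) ^ 2⌉₊ → N = (b + 2 * (1 + 4 * n * V + l)) ^ 2 →
      A * (N : ℝ) ^ 3 * Real.exp (-(c * l)) ≤ 1 ∧ N ≤ 2 ^ Lg := by
  obtain ⟨a, ha, hac, ha1⟩ : ∃ a : ℝ, 0 < a ∧ 2 * a ≤ c ∧ 2 * a ≤ 1 / 2 := by
    refine ⟨min c (1 / 2) / 2, by positivity, ?_, ?_⟩
    · linarith [min_le_left c (1 / 2)]
    · linarith [min_le_right c (1 / 2)]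
  obtain ⟨F, hF⟩ : ∃ F : ℝ, F = ((Nat.factorial 25 : ℕ) : ℝ) := ⟨_, rfl⟩
  have F0 : 0 < F := by rw [hF]; exact_mod_cast Nat.factorial_pos 25
  obtain ⟨D, hD⟩ : ∃ D : ℝ, D = 1301 * Cc := ⟨_, rfl⟩
  have D0 : 0 < D := by rw [hD]; linarith
  obtain ⟨K, hK⟩ := exists_nat_ge (max A (max (6 / a) (A * D ^ 6 * F / a ^ 25)))
  have K1 : A ≤ K := (le_max_left _ _).trans hK
  have K2 : 6 ≤ a * K := by
    rw [← div_le_iff₀' ha]
    exact ((le_max_left _ _).trans (le_max_right _ _)).trans hK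
  have K3 : A * D ^ 6 * F ≤ a ^ 25 * K := by
    rw [← div_le_iff₀' (pow_pos ha 25)]
    exact ((le_max_right _ _).trans (le_max_right _ _)).trans hK
  refine ⟨K, K1, fun k b V l Lg n N hk hb hV hVb hl hLg hn hN => ?_⟩
  have K0 : 1 ≤ K := by exact_mod_cast hA.trans K1
  have lK : K ≤ l := by rw [hl]; exact Nat.le_mul_of_pos_right _ hk
  have l1 : 1 ≤ l := K0.trans lK
  have l0 : (0 : ℝ) ≤ l := Nat.cast_nonneg _
  have hs := par_size hC hb hVb l1 hLg hn hN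
  rw [← hD] at hs
  have e1 : ((2 : ℝ) ^ k) ^ 6 ≤ Real.exp (a * l) := by
    have h1 : (2 : ℝ) ≤ Real.exp 1 := by linarith [Real.add_one_le_exp 1]
    calc ((2 : ℝ) ^ k) ^ 6 ≤ (Real.exp 1 ^ k) ^ 6 :=
          pow_le_pow_left₀ (by positivity) (pow_le_pow_left₀ (by norm_num) h1 k) 6
      _ = Real.exp (6 * k) := by
          rw [← Real.exp_nat_mul, ← Real.exp_nat_mul]
          congr 1
          push_cast
          ring
      _ ≤ Real.exp (a * l) := by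
          refine Real.exp_le_exp.2 ?_
          rw [hl]
          push_cast
          have := mul_le_mul_of_nonneg_right K2 (Nat.cast_nonneg (α := ℝ) k)
          linarith
  have e2 : A * D ^ 6 * (l : ℝ) ^ 24 ≤ Real.exp (a * l) := by
    refine le_trans ?_ (Real.pow_div_factorial_le_exp (a * l) (by positivity) 25)
    rw [← hF, le_div_iff₀ F0]
    have h1 : a ^ 25 * K ≤ a ^ 25 * l :=
      mul_le_mul_of_nonneg_left (by exact_mod_cast lK) (pow_pos ha 25).le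
    calc A * D ^ 6 * (l : ℝ) ^ 24 * F = A * D ^ 6 * F * (l : ℝ) ^ 24 := by ring
      _ ≤ a ^ 25 * l * (l : ℝ) ^ 24 := mul_le_mul_of_nonneg_right (K3.trans h1) (by positivity)
      _ = (a * l) ^ 25 := by ring
  have e3 : A * (N : ℝ) ^ 3 ≤ Real.exp (2 * a * l) := by
    calc A * (N : ℝ) ^ 3 ≤ A * (((2 : ℝ) ^ k * (D * (l : ℝ) ^ 4)) ^ 2) ^ 3 :=
          mul_le_mul_of_nonneg_left (pow_le_pow_left₀ (Nat.cast_nonneg _) hs 3) (by linarith)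
      _ = ((2 : ℝ) ^ k) ^ 6 * (A * D ^ 6 * (l : ℝ) ^ 24) := by ring
      _ ≤ Real.exp (a * l) * Real.exp (a * l) :=
          mul_le_mul e1 e2 (by positivity) (Real.exp_pos _).le
      _ = Real.exp (2 * a * l) := by rw [← Real.exp_add]; congr 1; ring
  constructor
  · calc A * (N : ℝ) ^ 3 * Real.exp (-(c * l)) ≤ Real.exp (2 * a * l) * Real.exp (-(c * l)) :=
          mul_le_mul_of_nonneg_right e3 (Real.exp_pos _).le
      _ = Real.exp (2 * a * l + -(c * l)) := (Real.exp_add _ _).symm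
      _ ≤ 1 := by
          refine Real.exp_le_one_iff.2 ?_
          have := mul_le_mul_of_nonneg_right hac l0
          linarith
  · have n1 : 1 ≤ N := by
      rw [hN]
      exact Nat.one_le_pow _ _ (by omega)
    have n2 : (1 : ℝ) ≤ N := by exact_mod_cast n1
    have n3 : (N : ℝ) ≤ A * (N : ℝ) ^ 3 :=
      (le_self_pow₀ n2 (by norm_num)).trans (le_mul_of_one_le_left (by positivity) hA)
    have n4 : Real.exp (2 * a * l) ≤ (2 : ℝ) ^ l := by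
      have h1 : (2 : ℝ) ^ l = Real.exp (l * Real.log 2) := by
        rw [Real.exp_nat_mul, Real.exp_log (by norm_num)]
      rw [h1]
      refine Real.exp_le_exp.2 ?_
      have h2 : 2 * a ≤ Real.log 2 := by linarith [Real.log_two_gt_d9]
      have := mul_le_mul_of_nonneg_right h2 l0
      linarith
    have n5 : N ≤ 2 ^ l := by exact_mod_cast n3.trans (e3.trans n4)
    refine n5.trans (Nat.pow_le_pow_right (by norm_num) ?_)
    rw [hLg]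
    nlinarith

end Vale.Agent.P356E
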