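import Vale.Agent.P356E.Nrm

namespace Vale.Agent.P356E

open Matrix Vale.Agent.P356 Vale.Agent.P356F Vale.Agent.P356G
open scoped Matrix.Norms.L2Operator

/-- direction and row or column of an edge -/
def startF {L : ℕ} (x1 y1 : ℕ) (e : St L × St L) : ℕ × ℕ :=
  if e.2.1.val < e.1.1.val then (0, e.1.2.val - y1)
  else if e.1.1.val < e.2.1.val then (1, e.1.2.val - y1)
  else if e.2.2.val < e.1.2.val then (2, e.1.1.val - x1) else (3, e.1.1.val - x1)

/-- a boundary edge is determined by its direction and its row or column -/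
theorem bdry_box {L x1 x2 y1 y2 l : ℕ} (hx : x2 ≤ x1 + l) (hy : y2 ≤ y1 + l) :
    bdry (box L x1 x2 y1 y2) ≤ 4 * l := by
  rw [← Finset.card_range 4, ← Finset.card_range l, ← Finset.card_product]
  refine Finset.card_le_card_of_injOn (startF x1 y1) (fun e he => ?_) fun e he e' he' h => ?_
  · obtain ⟨-, h1, -, -⟩ := Finset.mem_filter.1 (Finset.mem_coe.1 he)
    rw [geo_mem] at h1
    simp only [Finset.coe_product, Finset.coe_range, Set.mem_prod, Set.mem_Iio, startF]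
    split_ifs <;> simp only <;> omega
  · obtain ⟨-, h1, h2, h3⟩ := Finset.mem_filter.1 (Finset.mem_coe.1 he)
    obtain ⟨-, h4, h5, h6⟩ := Finset.mem_filter.1 (Finset.mem_coe.1 he')
    rw [geo_mem] at h1 h2 h4 h5
    unfold dist1 at h3 h6
    have h7 : e.1.1.val = e'.1.1.val ∧ e.1.2.val = e'.1.2.val ∧ e.2.1.val = e'.2.1.val ∧
        e.2.2.val = e'.2.2.val := by
      unfold startF at h
      split_ifs at h <;> simp only [Prod.mk.injEq] at h <;> omega
    exact Prod.ext (Prod.ext (Fin.ext h7.1) (Fin.ext h7.2.1))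
      (Prod.ext (Fin.ext h7.2.2.1) (Fin.ext h7.2.2.2))

theorem fam_norm {q R : ℕ} {J Δ : ℝ} {L : ℕ} {Ω : Vec L q} (h : Fam q R J Δ L Ω) : nsq Ω = 1 := by
  obtain ⟨_, _, _, h⟩ := h
  exact h.1

/-- `subvolume`, `gapped_of` (see Results/P356/Subvolume), `fin_zero`,
`a = max (2 - c) (3 / 2)` -/
theorem start (q R : ℕ) [NeZero q] {J Δ : ℝ} (hJ : 0 ≤ J) (hΔ : 0 < Δ) :
    ∃ a : ℝ, a < 2 ∧ AllB (Fam q R J Δ) a := by
  obtain ⟨C, c, hc, H⟩ := subvolume q R J Δ hJ hΔ
  have ha : (0 : ℝ) ≤ max (2 - c) (3 / 2) := le_max_of_le_right (by norm_num)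
  refine ⟨max (2 - c) (3 / 2), max_lt (by linarith) (by norm_num),
    |C| * 4 ^ max (2 - c) (3 / 2), by positivity, fun L Ω hΩ l hl x1 x2 y1 y2 hx hy => ?_⟩
  have h1 := fam_norm hΩ
  obtain ⟨h, E0, hh, hg⟩ := hΩ
  rcases Nat.eq_zero_or_pos (bdry (box L x1 x2 y1 y2)) with h0 | h0
  · exact (fin_zero h1 _ h0).trans (by positivity)
  refine (H L h Ω E0 (gapped_of h hh Ω hg.1 hg.2.1 hg.2.2) _).trans ?_
  have h2 : (1 : ℝ) ≤ bdry (box L x1 x2 y1 y2) := by exact_mod_cast h0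
  have h3 : (bdry (box L x1 x2 y1 y2) : ℝ) ≤ 4 * l := by exact_mod_cast bdry_box hx hy
  rw [mul_assoc, ← Real.mul_rpow (by norm_num) (Nat.cast_nonneg l)]
  exact mul_le_mul (le_abs_self C) ((Real.rpow_le_rpow_of_exponent_le h2 (le_max_left _ _)).trans
    (Real.rpow_le_rpow (by positivity) h3 ha)) (by positivity) (abs_nonneg C)

end Vale.Agent.P356E
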