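import Vale.Agent.P356G.Core
import Vale.Agent.P356E.App
import Vale.Agent.P356E.Cont
import Vale.Agent.P356E.Box
import Vale.Agent.P356E.Par
import Vale.Agent.P356E.Start

namespace Vale.Agent.P356E

open Matrix Vale.Agent.P356 Vale.Agent.P356F Vale.Agent.P356G
open scoped Matrix.Norms.L2Operator

theorem lat_close {L q : ℕ} [NeZero q] {u v : Vec L q} (hu : nsq u = 1) (hv : nsq v = 1) {t : ℝ}
    {N : ℕ} (hN : 1 ≤ N) (ht : nsq (u - v) ≤ t)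
    (h : 4 * t * (N : ℝ) ^ 2 * (Real.log 2 + Real.log q) ^ 2 ≤ 1) (Y : Finset (St L))
    (hY : Y.card ≤ N) : entropy Y u ≤ entropy Y v + 2 ∧ entropy Y v ≤ entropy Y u + 2 := by
  have hq : (1 : ℝ) ≤ q := by exact_mod_cast Nat.one_le_iff_ne_zero.2 (NeZero.ne q)
  have l2 : 0 ≤ Real.log 2 := Real.log_nonneg one_le_two
  have l2' : Real.log 2 ≤ 1 := by
    have := Real.log_le_sub_one_of_pos (show (0 : ℝ) < 2 by norm_num)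
    linarith
  have lq : 0 ≤ Real.log q := Real.log_nonneg hq
  have hN' : (1 : ℝ) ≤ N := by exact_mod_cast hN
  have hY' : (Y.card : ℝ) ≤ N := by exact_mod_cast hY
  have h0 := nn_nonneg (u - v)
  have h1 : 2 * nn (u - v) * (N * (Real.log 2 + Real.log q)) ≤ 1 := by
    refine abs_le_of_sq_le_sq' ?_ zero_le_one |>.2
    have e : (2 * nn (u - v) * (N * (Real.log 2 + Real.log q))) ^ 2 =
        4 * nsq (u - v) * (N : ℝ) ^ 2 * (Real.log 2 + Real.log q) ^ 2 := by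
      rw [← nn_sq]; ring
    rw [e, one_pow]
    refine le_trans ?_ h
    gcongr
  have h2 : 2 * nn (u - v) * (Real.log 2 + Y.card * Real.log q) ≤ 1 := by
    refine le_trans (mul_le_mul_of_nonneg_left ?_ (by positivity)) h1
    nlinarith [mul_le_mul_of_nonneg_right hY' lq, mul_le_mul_of_nonneg_right hN' l2]
  have c1 := cont Y hu hv (le_refl _)
  have c2 := cont Y hv hu (nn_sub_comm v u).le
  rw [Fintype.card_fin] at c1 c2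
  constructor <;> linarith

theorem lat_fin {Cc n β G S S' T k' : ℝ} (hC : 1 ≤ Cc) (hn : 1 ≤ n) (hβ : 1 ≤ β) (hG : 0 ≤ G)
    (hk : k' ≤ 10 * n * β) (h1 : S ≤ S' + 2) (h2 : S' ≤ Cc * n * T)
    (h3 : T ≤ 4 * n * (4 * k' * G + 3)) : S ≤ 162 * Cc * n ^ 3 * β * (G + 1) := by
  have a1 : 4 * k' * G + 3 ≤ 40 * n * β * (G + 1) := by
    have := mul_le_mul_of_nonneg_right hk hG
    have : 1 ≤ n * β := one_le_mul_of_one_le_of_one_le hn hβ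
    nlinarith
  have a2 : T ≤ 4 * n * (40 * n * β * (G + 1)) := h3.trans (by gcongr)
  have a3 : Cc * n * T ≤ Cc * n * (4 * n * (40 * n * β * (G + 1))) := by gcongr
  have a4 : 1 ≤ Cc * n ^ 3 * β * (G + 1) :=
    one_le_mul_of_one_le_of_one_le (one_le_mul_of_one_le_of_one_le
      (one_le_mul_of_one_le_of_one_le hC (one_le_pow₀ hn)) hβ) (by linarith)
  nlinarith

theorem lat_n1 {Cc C M k S V Lg : ℝ} (hCc : 1 ≤ Cc) (hk : 1 ≤ k) (hL : 0 ≤ Lg) (hV : 0 ≤ V)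
    (hLM : Lg ≤ M * k ^ 2) (hC : Cc ^ 2 * M ^ 4 ≤ C) (hS0 : 0 ≤ S)
    (hS : C * k ^ 16 * (S + 1) ≤ V ^ 2) : Cc * Lg ^ 2 ≤ V := by
  refine abs_le_of_sq_le_sq' ?_ hV |>.2
  have hC0 : 0 ≤ C := le_trans (by positivity) hC
  have a1 : (Cc * Lg ^ 2) ^ 2 ≤ (Cc * (M * k ^ 2) ^ 2) ^ 2 := by gcongr
  have a2 : k ^ 8 ≤ k ^ 16 := pow_le_pow_right₀ hk (by norm_num)
  have a3 : Cc ^ 2 * M ^ 4 * k ^ 8 ≤ C * k ^ 16 := by gcongr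
  have a4 : 0 ≤ C * k ^ 16 * S := by positivity
  linarith

theorem lat_n2 {Cc C M k S S' V Lg Δ : ℝ} (hCc : 1 ≤ Cc) (hL : 1 ≤ Lg) (hΔ : 0 < Δ)
    (hLM : Lg ≤ M * k ^ 2) (hC : 6 * Cc * M ^ 8 / Δ ≤ C) (hS0 : 0 ≤ S) (hS' : S' ≤ S + 2)
    (hS : C * k ^ 16 * (S + 1) ≤ V ^ 2) : Cc * Lg ^ 7 * (S' + Lg) ≤ Δ / 2 * V ^ 2 := by
  have a1 : S' + Lg ≤ 3 * Lg * (S + 1) := by nlinarith
  have a2 : Cc * Lg ^ 7 * (S' + Lg) ≤ Cc * Lg ^ 7 * (3 * Lg * (S + 1)) := by gcongr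
  have a3 : 3 * Cc * Lg ^ 8 * (S + 1) ≤ 3 * Cc * (M * k ^ 2) ^ 8 * (S + 1) := by gcongr
  have a4 : 6 * Cc * M ^ 8 ≤ C * Δ := (div_le_iff₀ hΔ).1 hC
  have a5 : 6 * Cc * M ^ 8 * (k ^ 16 * (S + 1)) ≤ C * Δ * (k ^ 16 * (S + 1)) := by gcongr
  have a6 := mul_le_mul_of_nonneg_left hS hΔ.le
  linarith

theorem lat_n3 {Cc C M k n : ℝ} (hCc : 1 ≤ Cc) (hk : 1 ≤ k) (hn : 0 ≤ n)
    (hn2 : n ≤ 2 * Cc * (M * k ^ 2) ^ 2) (hC : 1296 * Cc ^ 4 * M ^ 6 ≤ C) :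
    162 * Cc * n ^ 3 ≤ C * k ^ 16 := by
  have hC0 : 0 ≤ C := le_trans (by positivity) hC
  have a1 : 162 * Cc * n ^ 3 ≤ 162 * Cc * (2 * Cc * (M * k ^ 2) ^ 2) ^ 3 := by gcongr
  have a2 : k ^ 12 ≤ k ^ 16 := pow_le_pow_right₀ hk (by norm_num)
  have a3 : 1296 * Cc ^ 4 * M ^ 6 * k ^ 12 ≤ C * k ^ 16 := by gcongr
  linarith

theorem lat_n4 {A a N y x : ℝ} (h : A * N ^ 3 * x ≤ 1) (hA : 0 ≤ A) (ha : a ≤ A) (hx : 0 ≤ x)
    (hy0 : 0 ≤ y) (hy : y ≤ N ^ 3) : a * y * x ≤ 1 := le_trans (by gcongr) h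

theorem lat_n5 {K k : ℝ} (hK : 1 ≤ K) (hk : 1 ≤ k) : (2 * (K * k) + 1) ^ 2 ≤ 9 * K ^ 2 * k ^ 2 := by
  have : 1 ≤ K * k := one_le_mul_of_one_le_of_one_le hK hk
  nlinarith

theorem lat_sum {L q : ℕ} [NeZero q] {Ω Ω' : Vec L q} (hΩ : nsq Ω = 1) {V : ℕ} {G : ℝ}
    (hG : 0 ≤ G) (hB : BoxB Ω V G) (hV : 1 ≤ V) {x1 x2 y1 y2 b n : ℕ} (hx1 : x1 ≤ x2)
    (hy1 : y1 ≤ y2) (hx : x2 ≤ x1 + b) (hy : y2 ≤ y1 + b)
    (hc : ∀ s r, r ≤ 1 + 4 * n * V → entropy (slab (hb L x1 x2 y1 y2) s r) Ω' ≤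
      entropy (slab (hb L x1 x2 y1 y2) s r) Ω + 2) :
    ∑ i ∈ Finset.range (4 * n),
      (entropy (slab (hb L x1 x2 y1 y2) (1 + i * V) (1 + (i + 1) * V)) Ω' + 1) ≤
      4 * n * (4 * ((b / V + 1 + 8 * n : ℕ) : ℝ) * G + 3) := by
  refine (Finset.sum_le_card_nsmul _ _ (4 * ((b / V + 1 + 8 * n : ℕ) : ℝ) * G + 3)
    fun i hi => ?_).trans (le_of_eq ?_)
  · rw [Finset.mem_range] at hi
    have a0 : (i + 1) * V ≤ 4 * n * V := Nat.mul_le_mul_right _ hi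
    have a1 := hc (1 + i * V) (1 + (i + 1) * V) (by omega)
    have a3 : b < (b / V + 1) * V := by
      rw [Nat.mul_comm]; exact Nat.lt_mul_div_succ b hV
    have a2 := slab_ent hΩ hG hB hx1 hy1 hx hy (i * V) (b / V + 1 + 8 * n) (by linarith)
    rw [show 1 + (i * V + V) = 1 + (i + 1) * V by ring] at a2
    linarith
  · rw [Finset.card_range, nsmul_eq_mul]
    push_cast
    ring

theorem lat (q R : ℕ) [NeZero q] {J Δ : ℝ} (hJ : 0 ≤ J) (hΔ : 0 < Δ) :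
    ∃ C : ℝ, 1 ≤ C ∧ Rec (Fam q R J Δ) C := by
  obtain ⟨Cc, hCc, hcore⟩ := core
  obtain ⟨c, Ce, J1, hc, hCe, happ⟩ := appr q R hJ hΔ
  obtain ⟨lam, hlam⟩ : ∃ lam, lam = Real.log 2 + Real.log q := ⟨_, rfl⟩
  have p1 : 0 ≤ 8 * Ce / Δ := by positivity
  have p2 : 0 ≤ 16 * Ce * lam ^ 2 / Δ := by positivity
  have p3 := abs_nonneg J1
  have p4 : (0 : ℝ) ≤ q := Nat.cast_nonneg q
  obtain ⟨A, hA⟩ : ∃ A, A = 1 + |J1| + q + 8 * Ce / Δ + Ce + 16 * Ce * lam ^ 2 / Δ := ⟨_, rfl⟩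
  have hA1 : 1 ≤ A := by linarith
  obtain ⟨K, hK, hpar⟩ := par hCc hA1 hc
  obtain ⟨M, hM⟩ : ∃ M : ℝ, M = 9 * (K : ℝ) ^ 2 := ⟨_, rfl⟩
  have hK1 : (1 : ℝ) ≤ K := hA1.trans hK
  have hM0 : 0 ≤ M := by rw [hM]; positivity
  have p5 : 0 ≤ Cc ^ 2 * M ^ 4 := by positivity
  have p6 : 0 ≤ 6 * Cc * M ^ 8 / Δ := by positivity
  have p7 : 0 ≤ 1296 * Cc ^ 4 * M ^ 6 := by positivity
  obtain ⟨C, hC⟩ : ∃ C, C = 1 + Cc ^ 2 * M ^ 4 + 6 * Cc * M ^ 8 / Δ + 1296 * Cc ^ 4 * M ^ 6 :=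
    ⟨_, rfl⟩
  refine ⟨C, by linarith, fun L Ω hF k b V x1 x2 y1 y2 G hk hbk hV hVb hx hy hG hB hS => ?_⟩
  have hΩ := fam_norm hF
  have hk' : (1 : ℝ) ≤ k := by exact_mod_cast hk
  have hV' : (1 : ℝ) ≤ V := by exact_mod_cast hV
  have hβ : (1 : ℝ) ≤ (b : ℝ) / V := (one_le_div (by linarith)).2 (by exact_mod_cast hVb)
  have hC0 : 0 ≤ C := by linarith
  by_cases he : x1 ≤ x2 ∧ y1 ≤ y2
  swap
  · have e : box L x1 x2 y1 y2 = ∅ := Finset.eq_empty_of_forall_notMem fun z hz => by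
      rw [geo_mem] at hz; omega
    rw [e, ent_empty hΩ]
    positivity
  obtain ⟨l, hl⟩ : ∃ l, l = K * k := ⟨_, rfl⟩
  obtain ⟨Lg, hLg⟩ : ∃ Lg, Lg = (2 * l + 1) ^ 2 := ⟨_, rfl⟩
  obtain ⟨n, hn⟩ : ∃ n, n = ⌈Cc * (Lg : ℝ) ^ 2⌉₊ := ⟨_, rfl⟩
  obtain ⟨N, hN⟩ : ∃ N, N = (b + 2 * (1 + 4 * n * V + l)) ^ 2 := ⟨_, rfl⟩
  obtain ⟨hsm, hN2⟩ := hpar k b V l Lg n N hk hbk hV hVb hl hLg hn hN
  have hKl : K ≤ l := by rw [hl]; exact Nat.le_mul_of_pos_right _ hk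
  have hlL : l ≤ Lg := hLg ▸ le_trans (by omega) (Nat.le_self_pow (by norm_num) (2 * l + 1))
  have hKL : (K : ℝ) ≤ Lg := by exact_mod_cast hKl.trans hlL
  have hL1 : (1 : ℝ) ≤ Lg := hK1.trans hKL
  have hLM : (Lg : ℝ) ≤ M * k ^ 2 := by
    rw [hLg, hl, hM]
    exact_mod_cast lat_n5 hK1 hk'
  have hn1 : Cc * (Lg : ℝ) ^ 2 ≤ n := hn ▸ Nat.le_ceil _
  have hCL : 1 ≤ Cc * (Lg : ℝ) ^ 2 := one_le_mul_of_one_le_of_one_le hCc (one_le_pow₀ hL1)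
  have hn2 : (n : ℝ) ≤ 2 * Cc * (M * k ^ 2) ^ 2 := by
    have a1 : (n : ℝ) < Cc * (Lg : ℝ) ^ 2 + 1 := hn ▸ Nat.ceil_lt_add_one (by linarith)
    have a2 : Cc * (Lg : ℝ) ^ 2 ≤ Cc * (M * k ^ 2) ^ 2 := by gcongr
    linarith
  have hbN : b ^ 2 ≤ N := hN ▸ Nat.pow_le_pow_left (by omega) 2
  have hN1 : 1 ≤ N := (Nat.one_le_pow _ _ (by omega)).trans hbN
  have hN1' : (1 : ℝ) ≤ N := by exact_mod_cast hN1
  have hVN : (V : ℝ) ^ 2 ≤ N := by exact_mod_cast (Nat.pow_le_pow_left hVb 2).trans hbN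
  obtain ⟨x, hx0, hxe⟩ : ∃ x : ℝ, 0 < x ∧ x = Real.exp (-(c * l)) := ⟨_, Real.exp_pos _, rfl⟩
  rw [← hxe] at hsm
  have hA0 : 0 ≤ A := by linarith
  have hcard : ∀ s r, r ≤ 1 + 4 * n * V + l → (slab (hb L x1 x2 y1 y2) s r).card ≤ N :=
    fun s r hr => (slab_card hx hy s r).trans (hN ▸ Nat.pow_le_pow_left (by omega) 2)
  have b1 : 8 * (N * Ce * x) ≤ Δ := by
    have := lat_n4 hsm hA0 (a := 8 * Ce / Δ) (by linarith) hx0.le (Nat.cast_nonneg N)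
      (le_self_pow₀ hN1' (by norm_num))
    rw [div_mul_eq_mul_div, div_mul_eq_mul_div, div_le_one hΔ] at this
    linarith
  have b2 : 4 * (4 * (N * Ce * x) / Δ) * (N : ℝ) ^ 2 * lam ^ 2 ≤ 1 := by
    have := lat_n4 hsm hA0 (a := 16 * Ce * lam ^ 2 / Δ) (by linarith) hx0.le (by positivity) le_rfl
    refine le_trans (le_of_eq ?_) this
    ring
  have b3 : N * Ce * x * (V : ℝ) ^ 2 ≤ 1 := by
    have a1 := lat_n4 hsm hA0 (a := Ce) (y := (N : ℝ) ^ 2) (by linarith) hx0.le (by positivity)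
      (pow_le_pow_right₀ hN1' (by norm_num))
    have a2 : N * Ce * x * (V : ℝ) ^ 2 ≤ N * Ce * x * N := by gcongr
    linarith
  have b4 : q ≤ 2 ^ Lg := by
    have a1 : (q : ℝ) ≤ Lg := by linarith
    exact (by exact_mod_cast a1 : q ≤ Lg).trans Nat.lt_two_pow_self.le
  have b5 : V ≤ 2 ^ Lg := (hVb.trans ((Nat.le_self_pow (by norm_num) b).trans hbN)).trans hN2
  have b6 : J1 ≤ Lg := by linarith [le_abs_self J1]
  have c1 : Cc ^ 2 * M ^ 4 ≤ C := by linarith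
  have c2 : 6 * Cc * M ^ 8 / Δ ≤ C := by linarith
  have c3 : 1296 * Cc ^ 4 * M ^ 6 ≤ C := by linarith
  have hn1' : (1 : ℝ) ≤ n := hCL.trans hn1
  have c4 : ((b / V + 1 + 8 * n : ℕ) : ℝ) ≤ 10 * n * ((b : ℝ) / V) := by
    have a1 : ((b / V : ℕ) : ℝ) ≤ (b : ℝ) / V := Nat.cast_div_le
    have a2 := mul_le_mul_of_nonneg_right hn1' (zero_le_one.trans hβ)
    have a3 := mul_le_mul_of_nonneg_left hβ (zero_le_one.trans hn1')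
    push_cast
    linarith
  rw [hxe] at b1
  obtain ⟨h, Z, I, Ω', E, hT, hI, hGS, hE, hcl⟩ := happ L Ω hF (hb L x1 x2 y1 y2)
    (hb_lip L x1 x2 y1 y2) (1 + 4 * n * V) l Lg N hLg.ge b6 (hcard _ _ le_rfl) b1
  rw [← hxe] at hE hcl
  have hclose := lat_close hGS.1 hΩ hN1 hcl (hlam ▸ b2)
  have hX : slab (hb L x1 x2 y1 y2) 0 1 = box L x1 x2 y1 y2 := slab_box L x1 x2 y1 y2 0
  have hXc := hclose _ (hcard 0 1 (by omega))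
  have hS0 : 0 ≤ entropy (box L x1 x2 y1 y2) Ω := ent_nonneg _ hΩ
  rw [hX] at hXc
  have hmain := hcore (St L) (Fin q) (Option (St L)) h Z I (hb L x1 x2 y1 y2) 1 V n Lg E (Δ / 2) Ω'
    hT hGS (half_pos hΔ) (by exact_mod_cast hL1) hn1
    (lat_n1 hCc hk' (Nat.cast_nonneg _) (Nat.cast_nonneg _) hLM c1 hS0 hS) b5 (hI.trans hN2)
    (by rwa [Fintype.card_fin]) ((hcard _ _ (Nat.le_add_right _ _)).trans hN2)
    ((mul_le_mul_of_nonneg_right hE (sq_nonneg _)).trans b3)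
    (by rw [hX]; exact lat_n2 hCc hL1 hΔ hLM c2 hS0 hXc.1 hS)
  rw [hX] at hmain
  have hsum := lat_sum hΩ hG hB hV he.1 he.2 hx hy (n := n) (Ω' := Ω') fun s r hr =>
    (hclose _ (hcard s r (hr.trans (Nat.le_add_right _ _)))).1
  refine (lat_fin hCc hn1' hβ hG c4 hXc.2 hmain hsum).trans ?_
  have a4 := lat_n3 hCc hk' (Nat.cast_nonneg n) hn2 c3
  exact mul_le_mul_of_nonneg_right (mul_le_mul_of_nonneg_right a4 (zero_le_one.trans hβ))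
    (by linarith)

end Vale.Agent.P356E
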