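import Vale.Agent.P356E.Lat
import Vale.Agent.P356E.Boot
import Vale.Agent.P356E.Cov2

namespace Vale.Agent.P356E

open Matrix Vale.Agent.P356 Vale.Agent.P356F Vale.Agent.P356G
open scoped Matrix.Norms.L2Operator

theorem near_area (q R : ℕ) [NeZero q] {J Δ : ℝ} (hJ : 0 ≤ J) (hΔ : 0 < Δ) {ε : ℝ} (hε : 0 < ε) :
    ∃ C : ℝ, ∀ (L : ℕ) (Ω : Vec L q), Fam q R J Δ L Ω → ∀ A : Finset (St L),
      entropy A Ω ≤ C * (bdry A : ℝ) ^ (1 + ε) := by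
  obtain ⟨C, hC, hR⟩ := lat q R hJ hΔ
  obtain ⟨a, ha, H⟩ := start q R hJ hΔ
  exact cover2 (fun _ _ h => fam_norm h) hε (boot hC hR ha H hε)

end Vale.Agent.P356E
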