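import Vale.Agent.P356E.Sq

namespace Vale.Agent.P356E

open Matrix Vale.Agent.P356 Vale.Agent.P356F Vale.Agent.P356G
open scoped Matrix.Norms.L2Operator

theorem sum_line {ρ : ℝ} (h0 : 0 ≤ ρ) (h1 : ρ < 1) : ∃ T : ℝ, 0 ≤ T ∧ ∀ (L : ℕ) (i : Fin L),
    ∑ j : Fin L, ρ ^ ((i.val : ℤ) - j.val).natAbs ≤ T := by
  have hs : Summable fun n : ℤ => ρ ^ n.natAbs :=
    Summable.of_nat_of_neg (by simpa using summable_geometric_of_lt_one h0 h1)
      (by simpa using summable_geometric_of_lt_one h0 h1)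
  refine ⟨∑' n : ℤ, ρ ^ n.natAbs, tsum_nonneg fun n => pow_nonneg h0 _, fun L i => ?_⟩
  rw [← Finset.sum_image (f := fun n : ℤ => ρ ^ n.natAbs)
    (g := fun j : Fin L => (i.val : ℤ) - j.val) fun a _ b _ e => Fin.ext (by
      have e' : (i.val : ℤ) - a.val = i.val - b.val := e
      omega)]
  exact hs.sum_le_tsum _ fun n _ => pow_nonneg h0 _

/-- `exp (-d) ≤ exp (-l/2) * exp (-d/2)`, the sum of `exp (-d/2)` over the grid is a product of
two sums of `exp (-|i - j| / 2)`, each at most twice a geometric series -/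
theorem tail_sum : ∃ C0 : ℝ, 1 ≤ C0 ∧ ∀ (L : ℕ) (x : St L) (l : ℕ) (S : Finset (St L)),
    (∀ z ∈ S, l ≤ dist1 x z) →
    ∑ z ∈ S, Real.exp (-(dist1 x z : ℝ)) ≤ C0 * Real.exp (-((l : ℝ) / 2)) := by
  have h0 := (Real.exp_pos (-(1 / 2))).le
  obtain ⟨T, hT, h⟩ := sum_line h0 (Real.exp_lt_one_iff.2 (by norm_num))
  refine ⟨T * T + 1, le_add_of_nonneg_left (mul_nonneg hT hT), fun L x l S hS => ?_⟩
  have h1 : ∀ z ∈ S, Real.exp (-(dist1 x z : ℝ)) ≤
      Real.exp (-(1 / 2)) ^ dist1 x z * Real.exp (-((l : ℝ) / 2)) := fun z hz => by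
    have h2 : (l : ℝ) ≤ dist1 x z := Nat.cast_le.2 (hS z hz)
    rw [← Real.exp_nat_mul, ← Real.exp_add]
    exact Real.exp_le_exp.2 (by linarith)
  refine (Finset.sum_le_sum h1).trans ?_
  rw [← Finset.sum_mul]
  refine mul_le_mul_of_nonneg_right ((Finset.sum_le_univ_sum_of_nonneg fun z =>
    pow_nonneg h0 _).trans (le_trans ?_ (lt_add_one _).le)) (Real.exp_pos _).le
  simp only [dist1, pow_add, Fintype.sum_prod_type]
  rw [← Finset.sum_mul_sum]
  exact mul_le_mul (h L x.1) (h L x.2) (Finset.sum_nonneg fun _ _ => pow_nonneg h0 _) hT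

end Vale.Agent.P356E
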