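import Vale.Agent.P356E.Twirl
import Vale.Agent.P356E.Abs
import Vale.Agent.P356E.Sum

namespace Vale.Agent.P356E

open Matrix Vale.Agent.P356 Vale.Agent.P356F Vale.Agent.P356G
open scoped Matrix.Norms.L2Operator

/-- near terms: `twirl` over the complement of `geoSq L l x` with
`ε z = κ exp (- dist1 x z)`, `tail_sum`, `dist_of_not_mem` -/
theorem new_near : ∃ C1 : ℝ, 1 ≤ C1 ∧ ∀ (L q : ℕ) [NeZero q] (J Δ E0 ε κ : ℝ)
    (a : St L → Op L q) (c : St L → ℝ) (Ω : Vec L q), QL J Δ E0 ε κ a c Ω → 0 ≤ κ →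
    ∀ (l : ℕ) (x : St L), ∃ k : Op L q, Loc (fun z => z ∈ geoSq L l x) k ∧ k.IsHermitian ∧
      ‖k‖ ≤ J ∧ ‖k - a x‖ ≤ C1 * q * κ * Real.exp (-((l : ℝ) / 2)) := by
  obtain ⟨C0, hC, h⟩ := tail_sum
  refine ⟨C0, hC, fun L q _ J Δ E0 ε κ a c Ω H hκ l x => ?_⟩
  obtain ⟨k, h1, h2, h3, h4⟩ := twirl (geoSq L l x)ᶜ (a x)
    (fun z => κ * Real.exp (-(dist1 x z : ℝ))) fun z _ P hP hP1 => H.comm x z P hP hP1
  refine ⟨k, h1.mono fun z hz => by simpa using hz, h2 (H.herm x), h3.trans (H.bd x), ?_⟩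
  have h5 := h L x l (geoSq L l x)ᶜ fun z hz => (dist_of_not_mem (Finset.mem_compl.1 hz)).le
  rw [← Finset.mul_sum, Fintype.card_fin] at h4
  refine h4.trans ?_
  have h6 := mul_le_mul_of_nonneg_left h5 (mul_nonneg (Nat.cast_nonneg q) hκ)
  linarith

/-- the far term: `twirl` over `W` of the sum over `F`, `cm_sum`, `tail_sum` around each `z ∈ W`,
`fin_symm` -/
theorem new_far : ∃ C1 : ℝ, 1 ≤ C1 ∧ ∀ (L q : ℕ) [NeZero q] (J Δ E0 ε κ : ℝ)
    (a : St L → Op L q) (c : St L → ℝ) (Ω : Vec L q), QL J Δ E0 ε κ a c Ω → 0 ≤ κ →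
    ∀ (l : ℕ) (F W : Finset (St L)), (∀ x ∈ F, ∀ z ∈ W, l ≤ dist1 x z) →
      ∃ k : Op L q, Loc (fun z => z ∈ Wᶜ) k ∧ k.IsHermitian ∧
        ‖k - ∑ x ∈ F, a x‖ ≤ W.card * (C1 * q * κ * Real.exp (-((l : ℝ) / 2))) := by
  obtain ⟨C0, hC, h⟩ := tail_sum
  refine ⟨C0, hC, fun L q _ J Δ E0 ε κ a c Ω H hκ l F W hFW => ?_⟩
  obtain ⟨k, h1, h2, -, h4⟩ := twirl W (∑ x ∈ F, a x)
    (fun _ => κ * (C0 * Real.exp (-((l : ℝ) / 2)))) fun z hz P hP hP1 => by
      rw [cm_sum]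
      refine (norm_sum_le _ _).trans ((Finset.sum_le_sum fun x _ => H.comm x z P hP hP1).trans ?_)
      rw [← Finset.mul_sum]
      refine mul_le_mul_of_nonneg_left ?_ hκ
      simp only [fin_symm _ z]
      exact h L z l F fun x hx => by rw [fin_symm]; exact hFW x hx z hz
  refine ⟨k, h1.mono fun z hz => Finset.mem_compl.2 hz, h2 ?_, ?_⟩
  · unfold Matrix.IsHermitian
    rw [conjTranspose_sum]
    exact Finset.sum_congr rfl fun x _ => H.herm x
  · rw [Finset.sum_const, nsmul_eq_mul, Fintype.card_fin] at h4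
    linarith

theorem new_term {Λ Q : Type} [Fintype Λ] [DecidableEq Λ] [Fintype Q] [DecidableEq Q] [Nonempty Q]
    (Z : Finset Λ) {k a : Matrix (Λ → Q) (Λ → Q) ℂ} {c δ η : ℝ} {Ω : (Λ → Q) → ℂ}
    (hk : k.IsHermitian) (hl : Loc (fun z => z ∈ Z) k) (hd : ‖k - a‖ ≤ δ) (hΩ : nsq Ω = 1)
    (hη : nn ((a - (c : ℂ) • (1 : Matrix (Λ → Q) (Λ → Q) ℂ)) *ᵥ Ω) ≤ η) :
    ∃ P : Matrix (Λ → Q) (Λ → Q) ℂ, Ps P ∧ Loc (fun z => z ∈ Z) P ∧
      (∀ u, qf a u - c * nsq u - δ * nsq u ≤ qf P u) ∧ qf P Ω ≤ δ + η ∧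
      ∀ r : ℝ, ‖k‖ + |c| ≤ r → Le P r 1 := by
  have hy : (k - (c : ℂ) • (1 : Matrix (Λ → Q) (Λ → Q) ℂ)).IsHermitian := by
    refine hk.sub ?_
    unfold Matrix.IsHermitian
    simp
  obtain ⟨P, h1, h2, h3, h4⟩ := absM Z hy (loc_sub hl (loc_smul _ (loc_one _)))
  refine ⟨P, h1, h2, fun u => ?_, ?_, fun r hr v => ?_⟩
  · have h5 := h3 u
    have h6 := (abs_le.1 (qf_abs_le_norm (k - a) u)).1
    have h7 := mul_le_mul_of_nonneg_right hd (nsq_nonneg u)
    rw [qf_sub] at h5 h6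
    rw [qf_smul, qf_one] at h5
    linarith
  · have h5 := (le_abs_self _).trans (qf_abs_le P Ω)
    have e : k - (c : ℂ) • (1 : Matrix (Λ → Q) (Λ → Q) ℂ) = (k - a) + (a - (c : ℂ) • 1) := by abel
    rw [h4, nn_unit hΩ, one_mul, e, add_mulVec] at h5
    have h6 := nn_mulVec (k - a) Ω
    rw [nn_unit hΩ, mul_one] at h6
    linarith [nn_add_le ((k - a) *ᵥ Ω) ((a - (c : ℂ) • (1 : Matrix (Λ → Q) (Λ → Q) ℂ)) *ᵥ Ω)]
  · have h5 := (le_abs_self _).trans (qf_abs_le P v)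
    have h6 : ‖k - (c : ℂ) • (1 : Matrix (Λ → Q) (Λ → Q) ℂ)‖ ≤ r := by
      refine (norm_sub_le _ _).trans (le_trans ?_ hr)
      rw [norm_smul, Complex.norm_real, Real.norm_eq_abs]
      exact add_le_add le_rfl (mul_le_of_le_one_right (abs_nonneg _) norm_one_le)
    have h7 := (nn_mulVec _ v).trans (mul_le_mul_of_nonneg_right h6 (nn_nonneg v))
    have h8 := mul_le_mul_of_nonneg_left h7 (nn_nonneg v)
    rw [h4] at h5
    rw [qf_one, ← nn_sq]
    linarith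

/-- `I = {ht < top + l}`, `W = {ht < top} ⊆ I`, `F = Iᶜ`. For `x ∈ I`: `h (some x) = absM` of
`k x - c x • 1`, `Z (some x) = geoSq L l x`; for `x ∉ I`: `h (some x) = 0`, `Z (some x) = ∅`;
`h none = absM` of `kfar - (∑ x ∈ F, c x) • 1`, `Z none = Wᶜ`; `I' = I.map some`.
Lower bound: `∑ h ≥ ∑ (k - c) = H - E0 + ∑ (k - a)`. Energy of `Ω`: `qf_abs_le`, and
`(∑ x ∈ F, (a x - c x)) Ω = - ∑ x ∈ I, (a x - c x) Ω` because `(H - E0) Ω = 0`.
Take `C1` = sum of the two constants above. `Fintype.sum_option`. -/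
theorem newH : ∃ C1 : ℝ, 1 ≤ C1 ∧ ∀ (L q : ℕ) [NeZero q] (J Δ E0 ε κ : ℝ)
    (a : St L → Op L q) (c : St L → ℝ) (Ω : Vec L q), QL J Δ E0 ε κ a c Ω → 0 ≤ ε → 0 ≤ κ →
    ∀ (ht : St L → ℕ), (∀ r x z, z ∈ geoSq L r x → ht x ≤ ht z + r) →
    ∀ (top l Lg N : ℕ), (2 * l + 1) ^ 2 ≤ Lg → 2 * J ≤ Lg →
      (slab ht 0 (top + l)).card ≤ N →
      ∃ (h : Option (St L) → Op L q) (Z : Option (St L) → Finset (St L))
        (I : Finset (Option (St L))), Terms h Z I ht top Lg Lg Lg Lg ∧ I.card ≤ N ∧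
        (∀ u, Δ * (nsq u - ‖star Ω ⬝ᵥ u‖ ^ 2) -
          N * (2 * ε + C1 * q * κ * Real.exp (-((l : ℝ) / 2))) * nsq u ≤ qf (∑ i, h i) u) ∧
        qf (∑ i, h i) Ω ≤ N * (2 * ε + C1 * q * κ * Real.exp (-((l : ℝ) / 2))) := by
  obtain ⟨Ca, hCa, hnear⟩ := new_near
  obtain ⟨Cb, hCb, hfar⟩ := new_far
  refine ⟨Ca + Cb, by linarith,
    fun L q _ J Δ E0 ε κ a c Ω H hε hκ ht hht top l Lg N hl hJ hN => ?_⟩
  set I := slab ht 0 (top + l) with hI
  set W := slab ht 0 top with hW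
  set e := (q : ℝ) * κ * Real.exp (-((l : ℝ) / 2)) with he
  have e0 : 0 ≤ e := by positivity
  have mI : ∀ x, x ∈ I ↔ ht x < top + l := fun x => by simp [hI, slab]
  have mW : ∀ x, x ∈ W ↔ ht x < top := fun x => by simp [hW, slab]
  have cI : (I.card : ℝ) ≤ N := by exact_mod_cast hN
  have cW : (W.card : ℝ) ≤ N := by
    refine le_trans ?_ cI
    exact_mod_cast Finset.card_le_card fun x hx => (mI x).2 (by have := (mW x).1 hx; omega)
  choose k k1 k2 k3 k4 using hnear L q J Δ E0 ε κ a c Ω H hκ l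
  choose P p1 p2 p3 p4 p5 using fun x => new_term (geoSq L l x) (k2 x) (k1 x) (k4 x) H.gs.1
    (H.kill x)
  obtain ⟨kf, f1, f2, f3⟩ := hfar L q J Δ E0 ε κ a c Ω H hκ l Iᶜ W fun x hx z hz => by
    refine (dist_of_not_mem fun hc => Finset.mem_compl.1 hx ((mI x).2 ?_)).le
    have h1 := hht l x z hc
    have h2 := (mW z).1 hz
    omega
  have hF : nn ((∑ x ∈ Iᶜ, a x - ((∑ x ∈ Iᶜ, c x : ℝ) : ℂ) • (1 : Op L q)) *ᵥ Ω) ≤ I.card * ε := by
    have h1 : (∑ x ∈ Iᶜ, a x - ((∑ x ∈ Iᶜ, c x : ℝ) : ℂ) • (1 : Op L q)) =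
        (∑ x, a x - (E0 : ℂ) • (1 : Op L q)) - ∑ x ∈ I, (a x - (c x : ℂ) • (1 : Op L q)) := by
      rw [← H.csum, ← Finset.sum_add_sum_compl I a, ← Finset.sum_add_sum_compl I c,
        Finset.sum_sub_distrib, ← Finset.sum_smul]
      push_cast
      rw [add_smul]
      abel
    rw [h1, sub_mulVec, sub_mulVec, H.gs.2.1, smul_mulVec, one_mulVec, sub_self, zero_sub, nn_neg,
      sum_mulVec, ← nsmul_eq_mul]
    exact (nn_sum_le _ _).trans (Finset.sum_le_card_nsmul _ _ _ fun x _ => H.kill x)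
  obtain ⟨Pf, g1, g2, g3, g4, -⟩ := new_term Wᶜ f2 f1 f3 H.gs.1 hF
  have hsum : ∀ u, qf (∑ i : Option (St L), i.elim Pf fun x => if x ∈ I then P x else 0) u =
      qf Pf u + ∑ x ∈ I, qf (P x) u := fun u => by
    rw [Fintype.sum_option, qf_add, ← qf_sum]
    simp
  have ea : Ca * q * κ * Real.exp (-((l : ℝ) / 2)) = Ca * e := by rw [he]; ring
  have eb : Cb * q * κ * Real.exp (-((l : ℝ) / 2)) = Cb * e := by rw [he]; ring
  have ec : (Ca + Cb) * q * κ * Real.exp (-((l : ℝ) / 2)) = Ca * e + Cb * e := by rw [he]; ring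
  have a0 : 0 ≤ Ca * e := by positivity
  have b0 : 0 ≤ Cb * e := by positivity
  have a1 := mul_le_mul_of_nonneg_right cI a0
  have b1 := mul_le_mul_of_nonneg_right cW b0
  have c1 := mul_le_mul_of_nonneg_right cI hε
  rw [ea] at p3 p4
  rw [eb] at g3 g4
  rw [ec]
  refine ⟨fun i => i.elim Pf fun x => if x ∈ I then P x else 0,
    fun i => i.elim Wᶜ fun x => if x ∈ I then geoSq L l x else ∅,
    I.map Function.Embedding.some, ⟨?_, ?_, ?_, ?_, ?_, ?_, ?_⟩, by simpa using hN,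
    fun u => ?_, ?_⟩
  · rintro (_ | x)
    · exact g1
    · simp only [Option.elim]
      split_ifs
      · exact p1 x
      · exact ⟨isHermitian_zero, fun v => (qf_zero v).ge⟩
  · rintro (_ | x)
    · exact g2
    · simp only [Option.elim]
      split_ifs
      · exact p2 x
      · exact loc_zero _
  · rintro (_ | x) hx z hz
    · exact not_lt.1 fun h => Finset.mem_compl.1 hz ((mW z).2 h)
    · have h1 : x ∉ I := by simpa using hx
      simp [h1] at hz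
  · intro i hi
    obtain ⟨x, hx, rfl⟩ := Finset.mem_map.1 hi
    simp only [Function.Embedding.some_apply, Option.elim, if_pos hx]
    exact p5 x _ (by linarith [k3 x, H.cbd x])
  · intro i hi
    obtain ⟨x, hx, rfl⟩ := Finset.mem_map.1 hi
    simp only [Function.Embedding.some_apply, Option.elim, if_pos hx]
    exact (geoSq_card L l x).trans hl
  · intro i hi z hz z' hz'
    obtain ⟨x, hx, rfl⟩ := Finset.mem_map.1 hi
    simp only [Function.Embedding.some_apply, Option.elim, if_pos hx] at hz hz'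
    have h1 := hht l z x (mem_sq_symm.1 hz)
    have h2 := hht l x z' hz'
    nlinarith
  · intro z
    refine le_trans (Finset.card_le_card (t := (geoSq L l z).map Function.Embedding.some)
      fun i hi => ?_) (by rw [Finset.card_map]; exact (geoSq_card L l z).trans hl)
    obtain ⟨hi, hz⟩ := Finset.mem_filter.1 hi
    obtain ⟨x, hx, rfl⟩ := Finset.mem_map.1 hi
    simp only [Function.Embedding.some_apply, Option.elim, if_pos hx] at hz
    exact Finset.mem_map.2 ⟨x, mem_sq_symm.1 hz, rfl⟩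
  · rw [hsum]
    have h1 := Finset.sum_le_sum fun x (_ : x ∈ I) => p3 x u
    rw [Finset.sum_sub_distrib, Finset.sum_sub_distrib, ← qf_sum, ← Finset.sum_mul,
      Finset.sum_const, nsmul_eq_mul] at h1
    have h2 := H.gs.2.2 u
    rw [← H.csum, ← Finset.sum_add_sum_compl I a, ← Finset.sum_add_sum_compl I c, qf_add] at h2
    have h3 := g3 u
    have n0 := nsq_nonneg u
    have h4 := mul_le_mul_of_nonneg_right a1 n0
    have h5 := mul_le_mul_of_nonneg_right b1 n0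
    have h6 : 0 ≤ N * ε * nsq u := by positivity
    linarith
  · rw [hsum]
    have h1 := Finset.sum_le_card_nsmul I _ _ fun x _ => p4 x
    rw [nsmul_eq_mul] at h1
    linarith

end Vale.Agent.P356E
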