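import Vale.Agent.P356E.Defs

namespace Vale.Agent.P356E

open Matrix Vale.Agent.P356 Vale.Agent.P356F Vale.Agent.P356G
open scoped Matrix.Norms.L2Operator

section vec
variable {n : Type} [Fintype n] [DecidableEq n]

theorem nn_mulVec (M : Matrix n n ℂ) (v : n → ℂ) : nn (M *ᵥ v) ≤ ‖M‖ * nn v :=
  opLe_of_norm (le_refl _) v

theorem norm_le_of_nn {M : Matrix n n ℂ} {r : ℝ} (hr : 0 ≤ r)
    (h : ∀ v, nn (M *ᵥ v) ≤ r * nn v) : ‖M‖ ≤ r := by
  rw [cstar_norm_def]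
  refine ContinuousLinearMap.opNorm_le_bound _ hr fun v => ?_
  have h1 := h v.ofLp
  rw [nn_eq, nn_eq] at h1
  exact h1

theorem norm_one_le : ‖(1 : Matrix n n ℂ)‖ ≤ 1 :=
  norm_le_of_nn zero_le_one fun v => by simp

theorem norm_ct (M : Matrix n n ℂ) : ‖Mᴴ‖ = ‖M‖ := l2_opNorm_conjTranspose M

omit [DecidableEq n] in
theorem nn_unit {v : n → ℂ} (h : nsq v = 1) : nn v = 1 := by rw [nn, h, Real.sqrt_one]

omit [DecidableEq n] in
theorem qf_abs_le (M : Matrix n n ℂ) (v : n → ℂ) : |qf M v| ≤ nn v * nn (M *ᵥ v) :=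
  (Complex.abs_re_le_norm _).trans (dot_le _ _)

theorem qf_abs_le_norm (M : Matrix n n ℂ) (v : n → ℂ) : |qf M v| ≤ ‖M‖ * nsq v := by
  refine (qf_abs_le M v).trans ?_
  have h1 := mul_le_mul_of_nonneg_left (nn_mulVec M v) (nn_nonneg v)
  rw [← nn_sq]
  linarith

omit [DecidableEq n] in
theorem qf_add (M N : Matrix n n ℂ) (v : n → ℂ) : qf (M + N) v = qf M v + qf N v := by
  simp [qf, ip, add_mulVec, dotProduct_add]

omit [DecidableEq n] in
theorem qf_sub (M N : Matrix n n ℂ) (v : n → ℂ) : qf (M - N) v = qf M v - qf N v := by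
  simp [qf, ip, sub_mulVec, dotProduct_sub]

omit [DecidableEq n] in
theorem qf_zero (v : n → ℂ) : qf (0 : Matrix n n ℂ) v = 0 := by simp [qf, ip]

omit [DecidableEq n] in
theorem qf_sum {ι : Type} (S : Finset ι) (M : ι → Matrix n n ℂ) (v : n → ℂ) :
    qf (∑ i ∈ S, M i) v = ∑ i ∈ S, qf (M i) v := by
  classical
  induction S using Finset.induction_on with
  | empty => simp [qf_zero]
  | insert a S ha ih => rw [Finset.sum_insert ha, Finset.sum_insert ha, qf_add, ih]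

theorem qf_one (v : n → ℂ) : qf (1 : Matrix n n ℂ) v = nsq v := by
  rw [qf, ip, one_mulVec, nsq_re]

omit [DecidableEq n] in
theorem qf_smul (c : ℝ) (M : Matrix n n ℂ) (v : n → ℂ) : qf ((c : ℂ) • M) v = c * qf M v := by
  simp [qf, ip, smul_mulVec, dotProduct_smul]

omit [DecidableEq n] in
theorem qf_smul_vec (M : Matrix n n ℂ) (c : ℂ) (v : n → ℂ) :
    qf M (c • v) = ‖c‖ ^ 2 * qf M v := by
  have e : ip (c • v) M (c • v) = ((‖c‖ ^ 2 : ℝ) : ℂ) * ip v M v := by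
    rw [ip, ip, mulVec_smul, star_smul, smul_dotProduct, dotProduct_smul, smul_smul, smul_eq_mul,
      Complex.star_def, Complex.conj_mul', Complex.ofReal_pow]
  rw [qf, e, Complex.re_ofReal_mul, qf]

omit [DecidableEq n] in
/-- the quadratic form of a Hermitian matrix is real -/
theorem ip_herm {M : Matrix n n ℂ} (hM : M.IsHermitian) (v : n → ℂ) :
    ip v M v = (qf M v : ℂ) := by
  classical
  have e : star (ip v M v) = ip v M v := by
    conv_lhs => rw [ip, dot_mulVec, hM.eq, star_dotProduct, star_star]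
    rfl
  exact (Complex.conj_eq_iff_re.1 e).symm

theorem cm_norm_le (a b : Matrix n n ℂ) : ‖cm a b‖ ≤ 2 * ‖a‖ * ‖b‖ := by
  have h1 := norm_sub_le (a * b) (b * a)
  have h2 := norm_mul_le a b
  have h3 := norm_mul_le b a
  unfold cm
  linarith

omit [DecidableEq n] in
theorem cm_sum {ι : Type} (S : Finset ι) (a : ι → Matrix n n ℂ) (b : Matrix n n ℂ) :
    cm (∑ i ∈ S, a i) b = ∑ i ∈ S, cm (a i) b := by
  simp [cm, Finset.sum_mul, Finset.mul_sum, Finset.sum_sub_distrib]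

end vec

variable {Λ Q : Type} [Fintype Λ] [DecidableEq Λ] [Fintype Q] [DecidableEq Q]

omit [Fintype Λ] [DecidableEq Λ] [Fintype Q] [DecidableEq Q] in
theorem loc_smul {p : Λ → Prop} {M : Matrix (Λ → Q) (Λ → Q) ℂ} (c : ℂ) (hM : Loc p M) :
    Loc p (c • M) :=
  ⟨fun s t x hx hst => by simp [hM.1 s t x hx hst], fun s t s' t' a1 a2 a3 a4 => by
    simp [hM.2 s t s' t' a1 a2 a3 a4]⟩

theorem ent_empty [Nonempty Q] {Ω : (Λ → Q) → ℂ} (hΩ : nsq Ω = 1) : entropy ∅ Ω = 0 :=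
  le_antisymm (by simpa using ent_le_card (∅ : Finset Λ) hΩ) (ent_nonneg _ hΩ)

theorem ent_sdiff [Nonempty Q] {X Y : Finset Λ} (hY : Y ⊆ X) {Ω : (Λ → Q) → ℂ} (hΩ : nsq Ω = 1) :
    entropy (X \ Y) Ω ≤ entropy X Ω + entropy Y Ω := by
  have e : (X \ Y)ᶜ = Xᶜ ∪ Y := by
    ext z
    simp only [Finset.mem_compl, Finset.mem_sdiff, Finset.mem_union]
    tauto
  rw [← ent_compl (X \ Y), e, ← ent_compl X]
  exact ent_union (Finset.disjoint_left.2 fun z hz hz' => Finset.mem_compl.1 hz (hY hz')) hΩ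

end Vale.Agent.P356E
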