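import Vale.Agent.P356E.Nrm

namespace Vale.Agent.P356E

open Matrix Vale.Agent.P356 Vale.Agent.P356F Vale.Agent.P356G
open scoped Matrix.Norms.L2Operator

variable {Λ Q : Type} [Fintype Λ] [DecidableEq Λ] [Fintype Q] [DecidableEq Q]

/-- matrix units at the site `z` -/
def twirlE (z : Λ) (i j : Q) : Matrix (Λ → Q) (Λ → Q) ℂ :=
  fun s t => if s z = i ∧ t = Function.update s z j then 1 else 0

omit [Fintype Λ] [Fintype Q] [DecidableEq Q] in
theorem twirl_iff (z : Λ) (i j : Q) (s t : Λ → Q) :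
    (s z = i ∧ t = Function.update s z j) ↔ (t z = j ∧ s = Function.update t z i) := by
  constructor
  · rintro ⟨rfl, rfl⟩
    simp
  · rintro ⟨rfl, rfl⟩
    simp

omit [Fintype Q] in
theorem twirl_ct (z : Λ) (i j : Q) : (twirlE z i j)ᴴ = twirlE z j i := by
  ext s t
  simp only [conjTranspose_apply, twirlE, twirl_iff z i j t s]
  split_ifs <;> simp

theorem twirl_mul (z : Λ) (i j : Q) (M : Matrix (Λ → Q) (Λ → Q) ℂ) (s t : Λ → Q) :
    (twirlE z i j * M) s t = if s z = i then M (Function.update s z j) t else 0 := by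
  by_cases h : s z = i <;> simp [mul_apply, twirlE, h]

theorem twirl_mul' (z : Λ) (i j : Q) (M : Matrix (Λ → Q) (Λ → Q) ℂ) (s t : Λ → Q) :
    (M * twirlE z j i) s t = if t z = i then M s (Function.update t z j) else 0 := by
  simp only [mul_apply, twirlE, fun u => twirl_iff z j i u t]
  by_cases h : t z = i <;> simp [h]

theorem twirl_ee (z : Λ) (i j : Q) :
    twirlE z i j * twirlE z j i = diagonal fun s : Λ → Q => if s z = i then (1 : ℂ) else 0 := by
  ext s t
  rw [twirl_mul, diagonal_apply]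
  by_cases h : s z = i
  · subst h
    simp [twirlE, eq_comm]
  · simp [h]

theorem twirl_sum (z : Λ) :
    ∑ p : Q × Q, twirlE z p.1 p.2 * twirlE z p.2 p.1
      = (Fintype.card Q : ℂ) • (1 : Matrix (Λ → Q) (Λ → Q) ℂ) := by
  ext s t
  simp only [twirl_ee, Matrix.sum_apply, diagonal_apply, Matrix.smul_apply, one_apply,
    Fintype.sum_prod_type]
  by_cases h : s = t <;> simp [h]

theorem twirl_norm (z : Λ) (i j : Q) : ‖twirlE z i j‖ ≤ 1 := by
  have h1 := l2_opNorm_conjTranspose_mul_self (twirlE z i j)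
  rw [twirl_ct, twirl_ee, l2_opNorm_diagonal] at h1
  have h2 : ‖fun s : Λ → Q => if s z = j then (1 : ℂ) else 0‖ ≤ 1 :=
    (pi_norm_le_iff_of_nonneg zero_le_one).2 fun s => by split_ifs <;> simp
  nlinarith [norm_nonneg (twirlE z i j)]

omit [Fintype Q] in
theorem twirl_loc (z : Λ) (i j : Q) : Loc (fun y => y = z) (twirlE z i j) := by
  refine ⟨fun s t x hx hne => if_neg fun h => hne ?_, fun s t s' t' h1 h2 h3 h4 => ?_⟩
  · rw [h.2, Function.update_of_ne hx]
  · have e : ∀ s t : Λ → Q, (∀ x, ¬ x = z → s x = t x) →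
        (t = Function.update s z j ↔ t z = j) := fun s t h =>
      ⟨fun h' => by rw [h', Function.update_self], fun h' => by
        funext x
        by_cases hx : x = z
        · rw [hx, Function.update_self, h']
        · rw [Function.update_of_ne hx, h x hx]⟩
    simp only [twirlE, e s t h3, e s' t' h4, h1 z rfl, h2 z rfl]

theorem twirl_nsq (z : Λ) (v : (Λ → Q) → ℂ) :
    ∑ p : Q × Q, nn (twirlE z p.2 p.1 *ᵥ v) ^ 2 = Fintype.card Q * nn v ^ 2 := by
  apply Complex.ofReal_injective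
  have e : ∀ p : Q × Q, ((nn (twirlE z p.2 p.1 *ᵥ v) ^ 2 : ℝ) : ℂ)
      = star v ⬝ᵥ ((twirlE z p.1 p.2 * twirlE z p.2 p.1) *ᵥ v) := fun p => by
    rw [nn_sq, nsq_eq, ← mulVec_mulVec, dot_mulVec (twirlE z p.1 p.2), twirl_ct]
  rw [Complex.ofReal_sum, Finset.sum_congr rfl fun p _ => e p, ← dotProduct_sum, ← sum_mulVec,
    twirl_sum, smul_mulVec, one_mulVec, dotProduct_smul, nn_sq, ← nsq_eq]
  simp

/-- the conditional expectation at the site `z` -/
noncomputable def twirlM (z : Λ) :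
    Matrix (Λ → Q) (Λ → Q) ℂ →ₗ[ℂ] Matrix (Λ → Q) (Λ → Q) ℂ where
  toFun O := (Fintype.card Q : ℂ)⁻¹ • ∑ p : Q × Q, twirlE z p.1 p.2 * O * twirlE z p.2 p.1
  map_add' a b := by
    simp only [Matrix.mul_add, Matrix.add_mul, Finset.sum_add_distrib, smul_add]
  map_smul' c a := by
    simp only [Matrix.mul_smul, Matrix.smul_mul, ← Finset.smul_sum, RingHom.id_apply]
    rw [smul_comm]

theorem twirl_def (z : Λ) (O : Matrix (Λ → Q) (Λ → Q) ℂ) : twirlM z O
    = (Fintype.card Q : ℂ)⁻¹ • ∑ p : Q × Q, twirlE z p.1 p.2 * O * twirlE z p.2 p.1 := rfl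

theorem twirl_apply (z : Λ) (O : Matrix (Λ → Q) (Λ → Q) ℂ) (s t : Λ → Q) :
    twirlM z O s t = if s z = t z then (Fintype.card Q : ℂ)⁻¹ *
      ∑ k, O (Function.update s z k) (Function.update t z k) else 0 := by
  simp only [twirl_def, Matrix.smul_apply, Matrix.sum_apply, twirl_mul', twirl_mul,
    Fintype.sum_prod_type, smul_eq_mul]
  rw [Finset.sum_comm]
  by_cases h : s z = t z
  · simp [h]
  · simp [h]

theorem twirl_le [Nonempty Q] (z : Λ) (O : Matrix (Λ → Q) (Λ → Q) ℂ) :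
    ‖twirlM z O‖ ≤ ‖O‖ := by
  have hq : (0 : ℝ) < Fintype.card Q := by exact_mod_cast Fintype.card_pos
  have key : ∀ u v, ‖star u ⬝ᵥ (twirlM z O *ᵥ v)‖ ≤ ‖O‖ * (nn u * nn v) := by
    intro u v
    have h1 : ∀ p : Q × Q, ‖star u ⬝ᵥ ((twirlE z p.1 p.2 * O * twirlE z p.2 p.1) *ᵥ v)‖
        ≤ ‖O‖ * (nn (twirlE z p.2 p.1 *ᵥ u) * nn (twirlE z p.2 p.1 *ᵥ v)) := fun p => by
      rw [← mulVec_mulVec, ← mulVec_mulVec, dot_mulVec (twirlE z p.1 p.2), twirl_ct]
      have := mul_le_mul_of_nonneg_left (nn_mulVec O (twirlE z p.2 p.1 *ᵥ v))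
        (nn_nonneg (twirlE z p.2 p.1 *ᵥ u))
      exact (dot_le _ _).trans (by linarith)
    have h2 := Real.sum_mul_le_sqrt_mul_sqrt Finset.univ
      (fun p : Q × Q => nn (twirlE z p.2 p.1 *ᵥ u)) fun p : Q × Q => nn (twirlE z p.2 p.1 *ᵥ v)
    rw [twirl_nsq, twirl_nsq, Real.sqrt_mul hq.le, Real.sqrt_mul hq.le, Real.sqrt_sq (nn_nonneg _),
      Real.sqrt_sq (nn_nonneg _), mul_mul_mul_comm, Real.mul_self_sqrt hq.le] at h2
    rw [twirl_def, smul_mulVec, dotProduct_smul, norm_smul, norm_inv, Complex.norm_natCast,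
      sum_mulVec, dotProduct_sum, inv_mul_le_iff₀ hq]
    refine (norm_sum_le_of_le _ fun p _ => h1 p).trans ?_
    rw [← Finset.mul_sum, mul_left_comm]
    exact mul_le_mul_of_nonneg_left h2 (norm_nonneg _)
  refine norm_le_of_nn (norm_nonneg _) fun v => ?_
  have h1 := (Complex.re_le_norm _).trans (key (twirlM z O *ᵥ v) v)
  rw [nsq_re, ← nn_sq] at h1
  have h0 := nn_nonneg (twirlM z O *ᵥ v)
  have h2 := mul_nonneg (norm_nonneg O) (nn_nonneg v)
  rcases h0.eq_or_lt with h3 | h3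
  · rw [← h3]; exact h2
  · nlinarith

/-- One site. Matrix units `e i j s t = if s = Function.update t z i ∧ t z = j then 1 else 0`
(`Loc (· = z)`, norm at most one, `(e i j)ᴴ = e j i`, `∑ i j, e i j * e j i = q • 1`), and
`E O = q⁻¹ • ∑ i j, e i j * O * e j i`, with entries
`E O s t = if s z = t z then q⁻¹ * ∑ k, O (update s z k) (update t z k) else 0`.
Contraction: `‖star u ⬝ᵥ E O v‖ ≤ q⁻¹ ‖O‖ ∑ nn (e j i u) * nn (e j i v) ≤ ‖O‖ nn u nn v` by
Cauchy-Schwarz and `∑ i j, nsq (e j i u) = q * nsq u`; take `u = E O v`.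
`E O - O = q⁻¹ • ∑ i j, e i j * cm O (e j i)`. -/
theorem twirl1 [Nonempty Q] (z : Λ) :
    ∃ E : Matrix (Λ → Q) (Λ → Q) ℂ →ₗ[ℂ] Matrix (Λ → Q) (Λ → Q) ℂ,
      (∀ O, ‖E O‖ ≤ ‖O‖) ∧ (∀ O, O.IsHermitian → (E O).IsHermitian) ∧
      (∀ (p : Λ → Prop) O, Loc p O → Loc (fun y => p y ∧ y ≠ z) (E O)) ∧
      ∀ (O : Matrix (Λ → Q) (Λ → Q) ℂ) (ε : ℝ),
        (∀ P, Loc (fun y => y = z) P → ‖P‖ ≤ 1 → ‖cm O P‖ ≤ ε) →
        ‖E O - O‖ ≤ Fintype.card Q * ε := by
  have hq : (0 : ℝ) < Fintype.card Q := by exact_mod_cast Fintype.card_pos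
  have hq' : (Fintype.card Q : ℂ) ≠ 0 := by exact_mod_cast Fintype.card_ne_zero
  refine ⟨twirlM z, twirl_le z, fun O hO => ?_, fun p O hO => ⟨fun s t x hx hne => ?_,
    fun s t s' t' h1 h2 h3 h4 => ?_⟩, fun O ε h => ?_⟩
  · rw [IsHermitian, twirl_def, conjTranspose_smul, conjTranspose_sum]
    simp only [conjTranspose_mul, twirl_ct, hO.eq, Matrix.mul_assoc]
    simp
  · rw [twirl_apply]
    split_ifs with hz
    · have hxz : x ≠ z := fun e => hne (by rw [e, hz])
      rw [Finset.sum_eq_zero fun k _ => hO.1 _ _ x (fun hp => hx ⟨hp, hxz⟩)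
        (by rwa [Function.update_of_ne hxz, Function.update_of_ne hxz]), mul_zero]
    · rfl
  · rw [twirl_apply, twirl_apply, if_pos (h3 z (by simp)), if_pos (h4 z (by simp))]
    congr 1
    refine Finset.sum_congr rfl fun k _ => hO.2 _ _ _ _ (fun x hx => ?_) (fun x hx => ?_)
      (fun x hx => ?_) fun x hx => ?_
    all_goals
      by_cases hxz : x = z
      · rw [hxz, Function.update_self, Function.update_self]
      rw [Function.update_of_ne hxz, Function.update_of_ne hxz]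
    · exact h1 x ⟨hx, hxz⟩
    · exact h2 x ⟨hx, hxz⟩
    · exact h3 x fun hp => hx hp.1
    · exact h4 x fun hp => hx hp.1
  · have e : twirlM z O - O = (Fintype.card Q : ℂ)⁻¹ •
        ∑ p : Q × Q, twirlE z p.1 p.2 * cm O (twirlE z p.2 p.1) := by
      simp only [cm, Matrix.mul_sub, Finset.sum_sub_distrib, ← Matrix.mul_assoc, smul_sub]
      rw [← Finset.sum_mul, twirl_sum, Matrix.smul_mul, Matrix.one_mul, smul_smul,
        inv_mul_cancel₀ hq', one_smul, twirl_def]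
    have h1 : ∀ p : Q × Q, ‖twirlE z p.1 p.2 * cm O (twirlE z p.2 p.1)‖ ≤ ε := fun p => by
      have h2 := h _ (twirl_loc z p.2 p.1) (twirl_norm z p.2 p.1)
      have h3 := mul_le_mul_of_nonneg_right (twirl_norm z p.1 p.2)
        (norm_nonneg (cm O (twirlE z p.2 p.1)))
      exact (norm_mul_le _ _).trans (by linarith)
    rw [e, norm_smul, norm_inv, Complex.norm_natCast, inv_mul_le_iff₀ hq]
    refine (norm_sum_le_of_le _ fun p _ => h1 p).trans (le_of_eq ?_)
    simp [mul_assoc]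

/-- induction on `W`; every matrix is `Loc (fun _ => True)`;
`E O' - O = E (O' - O) + (E O - O)` -/
theorem twirl [Nonempty Q] (W : Finset Λ) (O : Matrix (Λ → Q) (Λ → Q) ℂ) (ε : Λ → ℝ)
    (hε : ∀ z ∈ W, ∀ P, Loc (fun y => y = z) P → ‖P‖ ≤ 1 → ‖cm O P‖ ≤ ε z) :
    ∃ O' : Matrix (Λ → Q) (Λ → Q) ℂ, Loc (fun y => y ∉ W) O' ∧
      (O.IsHermitian → O'.IsHermitian) ∧ ‖O'‖ ≤ ‖O‖ ∧
      ‖O' - O‖ ≤ Fintype.card Q * ∑ z ∈ W, ε z := by
  induction W using Finset.induction_on with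
  | empty =>
    refine ⟨O, ⟨fun s t x hx => absurd (Finset.notMem_empty x) hx, fun s t s' t' h1 h2 _ _ => ?_⟩,
      id, le_rfl, by simp⟩
    rw [show s = s' from funext fun x => h1 x (Finset.notMem_empty x),
      show t = t' from funext fun x => h2 x (Finset.notMem_empty x)]
  | insert z W hz ih =>
    obtain ⟨O', a1, a2, a3, a4⟩ := ih fun y hy => hε y (Finset.mem_insert_of_mem hy)
    obtain ⟨E, b1, b2, b3, b4⟩ := twirl1 (Q := Q) z
    refine ⟨E O', (b3 _ _ a1).mono fun x hx => ?_, fun hO => b2 _ (a2 hO), (b1 _).trans a3, ?_⟩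
    · simp [hx.1, hx.2]
    · have e : E O' - O = E (O' - O) + (E O - O) := by rw [map_sub]; abel
      have h1 := b4 O (ε z) (hε z (Finset.mem_insert_self z W))
      have h2 := b1 (O' - O)
      have h3 := norm_add_le (E (O' - O)) (E O - O)
      rw [e, Finset.sum_insert hz, mul_add]
      linarith

end Vale.Agent.P356E
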