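import Vale.Agent.P356E.Nrm

namespace Vale.Agent.P356E

open Matrix Vale.Agent.P356 Vale.Agent.P356F Vale.Agent.P356G
open scoped Matrix.Norms.L2Operator

variable {n : Type} [Fintype n] [DecidableEq n] {H : Matrix n n ℂ}

/-- `V = hH.eigenvectorUnitary`, `l = hH.eigenvalues`; unfold `uu`, `hf`; see the proof of `herm_spec` -/
theorem uu_spec (hH : H.IsHermitian) : ∃ (V : Matrix n n ℂ) (l : n → ℝ), V * Vᴴ = 1 ∧
    H = fr V l ∧ ∀ t : ℝ, uu H t = fn V fun i => Complex.exp (Complex.I * t * l i) := by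
  refine ⟨(hH.eigenvectorUnitary : Matrix n n ℂ), hH.eigenvalues, ?_, ?_, fun t => ?_⟩
  · exact (Matrix.mem_unitaryGroup_iff.1 hH.eigenvectorUnitary.2)
  · have := hH.spectral_theorem
    rw [Unitary.conjStarAlgAut_apply] at this
    exact this
  · rw [uu, hf, dif_pos hH]

theorem uu_zero (hH : H.IsHermitian) : uu H 0 = 1 := by
  obtain ⟨V, l, hV, -, h⟩ := uu_spec hH
  rw [h, ← fn_one hV]
  simp

theorem uu_add (hH : H.IsHermitian) (s t : ℝ) : uu H (s + t) = uu H s * uu H t := by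
  obtain ⟨V, l, hV, -, h⟩ := uu_spec hH
  rw [h, h, h, fn_mul hV]
  congr 1
  funext i
  rw [← Complex.exp_add]
  congr 1
  push_cast
  ring

theorem uu_ct (hH : H.IsHermitian) (t : ℝ) : (uu H t)ᴴ = uu H (-t) := by
  obtain ⟨V, l, hV, -, h⟩ := uu_spec hH
  rw [h, h, fn_ct]
  congr 1
  funext i
  rw [Complex.star_def, ← Complex.exp_conj]
  congr 1
  simp

/-- `lin_conj` in both directions -/
theorem uu_comm (hH : H.IsHermitian) {a : Matrix n n ℂ} (h : a * H = H * a) (t : ℝ) :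
    a * uu H t = uu H t * a := by
  obtain ⟨V, l, hV, hl, hu⟩ := uu_spec hH
  have h0 : fn V (fun i => (l i : ℂ)) * a = a * fn V fun i => (l i : ℂ) := by
    have e : fn V (fun i => (l i : ℂ)) = H := hl.symm
    rw [e, h]
  have h1 := (lin_conj hV hV a _ _).1 h0
  rw [hu]
  refine ((lin_conj hV hV a _ _).2 fun i j => ?_).symm
  by_cases h2 : (Vᴴ * a * V) i j = 0
  · rw [h2, mul_zero, zero_mul]
  · have e : (l i : ℂ) = l j := mul_right_cancel₀ h2 ((h1 i j).trans (mul_comm _ _))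
    simp only [e]
    exact mul_comm _ _

theorem uni_fn_sum (V : Matrix n n ℂ) (f : n → ℂ) :
    fn V f = ∑ i, f i • fn V (Pi.single i 1) := by
  have e : ∀ i, f i • fn V (Pi.single i 1) = fn V fun j => f i * (Pi.single i 1 : n → ℂ) j :=
    fun i => (fn_smul V _ _).symm
  simp only [e]
  rw [← fn_sum]
  congr 1
  funext j
  simp [Pi.single_apply]

/-- `f ↦ fn V f` is linear, hence continuous (finite dimension), or write
`fn V f = ∑ i, f i • fn V (Pi.single i 1)` -/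
theorem uu_deriv (hH : H.IsHermitian) (t : ℝ) :
    HasDerivAt (uu H) (Complex.I • (H * uu H t)) t := by
  obtain ⟨V, l, hV, hl, hu⟩ := uu_spec hH
  have e1 : uu H = fun s : ℝ =>
      ∑ i, Complex.exp (Complex.I * s * l i) • fn V (Pi.single i 1) := by
    funext s
    rw [hu, uni_fn_sum]
  have e2 : Complex.I • (H * uu H t) = ∑ i,
      (Complex.exp (Complex.I * t * l i) * (Complex.I * 1 * l i)) • fn V (Pi.single i 1) := by
    have e : H * uu H t = fn V (fun i => (l i : ℂ)) * uu H t := by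
      congr 1
    rw [e, hu, fn_mul hV, ← fn_smul, uni_fn_sum]
    refine Finset.sum_congr rfl fun i _ => ?_
    congr 1
    ring
  rw [e2, e1]
  refine HasDerivAt.fun_sum fun i _ => HasDerivAt.smul_const ?_ _
  have h1 : HasDerivAt (fun s : ℝ => (s : ℂ)) 1 t := Complex.ofRealCLM.hasDerivAt
  exact ((h1.const_mul Complex.I).mul_const (l i : ℂ)).cexp

/-- the coordinates `w = Vᴴ *ᵥ Ω` satisfy `l i * w i = E * w i` -/
theorem uu_eig (hH : H.IsHermitian) {Ω : n → ℂ} {E : ℝ} (hΩ : H *ᵥ Ω = (E : ℂ) • Ω) (t : ℝ) :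
    uu H t *ᵥ Ω = Complex.exp (Complex.I * t * E) • Ω := by
  obtain ⟨V, l, hV, hl, hu⟩ := uu_spec hH
  have key : ∀ f : n → ℂ, Vᴴ *ᵥ (fn V f *ᵥ Ω) = fun i => f i * (Vᴴ *ᵥ Ω) i := fun f => by
    funext i
    rw [fn, ← mulVec_mulVec, ← mulVec_mulVec, mulVec_mulVec _ Vᴴ V, uni_symm hV, one_mulVec,
      mulVec_diagonal]
  have h1 : ∀ i, (l i : ℂ) * (Vᴴ *ᵥ Ω) i = E * (Vᴴ *ᵥ Ω) i := fun i => by
    have e : fn V (fun i => (l i : ℂ)) = H := hl.symm
    have h2 := congrFun (key fun i => (l i : ℂ)) i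
    rw [e, hΩ, mulVec_smul] at h2
    exact h2.symm
  have h3 : Vᴴ *ᵥ (uu H t *ᵥ Ω) = Vᴴ *ᵥ (Complex.exp (Complex.I * t * E) • Ω) := by
    rw [hu, key, mulVec_smul]
    funext i
    by_cases h0 : (Vᴴ *ᵥ Ω) i = 0
    · simp [h0]
    · rw [mul_right_cancel₀ h0 (h1 i)]
      rfl
  have h4 := congrArg (fun w => V *ᵥ w) h3
  simpa only [mulVec_mulVec, ← Matrix.mul_assoc, hV, Matrix.one_mul, one_mulVec] using h4

theorem uni_inv (hH : H.IsHermitian) (t : ℝ) : uu H t * uu H (-t) = 1 := by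
  rw [← uu_add hH, add_neg_cancel, uu_zero hH]

theorem uni_inv' (hH : H.IsHermitian) (t : ℝ) : uu H (-t) * uu H t = 1 := by
  rw [← uu_add hH, neg_add_cancel, uu_zero hH]

theorem uu_nn (hH : H.IsHermitian) (t : ℝ) (v : n → ℂ) : nn (uu H t *ᵥ v) = nn v := by
  rw [nn, nn, nsq_uni (by rw [uu_ct hH, uni_inv hH])]

theorem tau_zero (hH : H.IsHermitian) (a : Matrix n n ℂ) : tau H 0 a = a := by
  rw [tau, neg_zero, uu_zero hH, Matrix.one_mul, Matrix.mul_one]

theorem tau_tau (hH : H.IsHermitian) (s t : ℝ) (a : Matrix n n ℂ) :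
    tau H s (tau H t a) = tau H (s + t) a := by
  rw [tau, tau, tau, neg_add_rev, uu_add hH, uu_add hH]
  simp only [Matrix.mul_assoc]

theorem tau_mul (hH : H.IsHermitian) (t : ℝ) (a b : Matrix n n ℂ) :
    tau H t (a * b) = tau H t a * tau H t b := by
  have e : tau H t a * tau H t b = uu H t * a * (uu H (-t) * uu H t) * b * uu H (-t) := by
    simp only [tau, Matrix.mul_assoc]
  rw [e, uni_inv' hH, tau]
  simp only [Matrix.mul_assoc, Matrix.one_mul]

theorem tau_cm (hH : H.IsHermitian) (t : ℝ) (a b : Matrix n n ℂ) :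
    tau H t (cm a b) = cm (tau H t a) (tau H t b) := by
  rw [cm, cm, ← tau_mul hH, ← tau_mul hH, tau, tau, tau, Matrix.mul_sub, Matrix.sub_mul]

theorem tau_ct (hH : H.IsHermitian) (t : ℝ) (a : Matrix n n ℂ) : (tau H t a)ᴴ = tau H t aᴴ := by
  rw [tau, tau, conjTranspose_mul, conjTranspose_mul, uu_ct hH, uu_ct hH, neg_neg,
    Matrix.mul_assoc]

theorem uni_norm_le (hH : H.IsHermitian) (t : ℝ) (a : Matrix n n ℂ) : ‖tau H t a‖ ≤ ‖a‖ := by
  refine norm_le_of_nn (norm_nonneg _) fun v => ?_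
  rw [tau, ← mulVec_mulVec, ← mulVec_mulVec, uu_nn hH, ← uu_nn hH (-t) v]
  exact nn_mulVec _ _

theorem tau_norm (hH : H.IsHermitian) (t : ℝ) (a : Matrix n n ℂ) : ‖tau H t a‖ = ‖a‖ := by
  refine le_antisymm (uni_norm_le hH t a) ?_
  have h := uni_norm_le hH (-t) (tau H t a)
  rwa [tau_tau hH, neg_add_cancel, tau_zero hH] at h

theorem tau_fix (hH : H.IsHermitian) {a : Matrix n n ℂ} (h : a * H = H * a) (t : ℝ) :
    tau H t a = a := by
  rw [tau, ← uu_comm hH h, Matrix.mul_assoc, uni_inv hH, Matrix.mul_one]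

/-- move the evolution to the other argument -/
theorem tau_cm_norm (hH : H.IsHermitian) (t : ℝ) (a b : Matrix n n ℂ) :
    ‖cm (tau H t a) b‖ = ‖cm a (tau H (-t) b)‖ := by
  rw [← tau_norm hH t (cm a (tau H (-t) b)), tau_cm hH, tau_tau hH, add_neg_cancel, tau_zero hH]

theorem tau_deriv (hH : H.IsHermitian) (a : Matrix n n ℂ) (t : ℝ) :
    HasDerivAt (fun s => tau H s a) (Complex.I • cm H (tau H t a)) t := by
  have h1 := (uu_deriv hH t).mul_const a
  have h2 := (uu_deriv hH (-t)).scomp t (hasDerivAt_neg t)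
  have h3 := h1.mul h2
  have e : Complex.I • cm H (tau H t a) =
      Complex.I • (H * uu H t) * a * (uu H ∘ Neg.neg) t +
        uu H t * a * ((-1 : ℝ) • Complex.I • (H * uu H (-t))) := by
    rw [uu_comm hH rfl (-t), cm, tau, smul_sub, neg_one_smul, Function.comp_apply]
    simp only [Matrix.smul_mul, Matrix.mul_smul, Matrix.mul_neg, Matrix.mul_assoc, sub_eq_add_neg]
  rw [e]
  exact h3

end Vale.Agent.P356E
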